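import Vale.Agent.P210.H684.Scal
import Mathlib.Analysis.Convex.Topology

set_option linter.all false

open scoped ENNReal ContDiff Topology
open Set

namespace Vale.Agent.P210.Cvx

variable {n : ℕ}

/-- Ricci curvature of the metric `1 + ∇h ⊗ ∇h`. -/
theorem ricci_graph {U : Set (E n)} (hU : IsOpen U) {h : E n → ℝ} (hh : ContDiffOn ℝ ∞ h U)
    {g : E n → Matrix (Fin n) (Fin n) ℝ}
    (hg : ∀ x ∈ U, ∀ i j, g x i j = (1 : Matrix (Fin n) (Fin n) ℝ) i j + pd i h x * pd j h x)
    {x : E n} (hx : x ∈ U) {W : ℝ} (hW : W = 1 + ∑ l, pd l h x ^ 2) {b : Fin n → ℝ}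
    (hb : ∀ i, b i = ∑ l, pd l h x * pd i (pd l h) x) (i j : Fin n) :
    ricci g i j x = ((∑ k, pd k (pd k h) x) / W - (∑ k, pd k h x * b k) / W ^ 2)
        * pd i (pd j h) x
      - (∑ k, pd i (pd k h) x * pd j (pd k h) x) / W + b i * b j / W ^ 2 := by
  have hd : ∀ a, DifferentiableAt ℝ (pd a h) x := fun a =>
    ((contDiffOn_pd hU hh a).contDiffAt (hU.mem_nhds hx)).differentiableAt (by simp)
  have hd2 : ∀ a b, DifferentiableAt ℝ (pd a (pd b h)) x := fun a b =>
    ((contDiffOn_pd hU (contDiffOn_pd hU hh b) a).contDiffAt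
      (hU.mem_nhds hx)).differentiableAt (by simp)
  have hs := fun a b => pd_symm hU hh a b hx
  have hS : DifferentiableAt ℝ (fun y => 1 + ∑ l, pd l h y ^ 2) x := by
    apply DifferentiableAt.const_add
    exact DifferentiableAt.fun_sum fun l _ => (hd l).pow 2
  have hW0 : 0 < W := by
    rw [hW]
    have : 0 ≤ ∑ l, pd l h x ^ 2 := Finset.sum_nonneg fun _ _ => sq_nonneg _
    linarith
  have hI : DifferentiableAt ℝ (fun y => (1 + ∑ l, pd l h y ^ 2)⁻¹) x :=
    hS.fun_inv (by rw [← hW]; exact hW0.ne')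
  have hSd : ∀ m, pd m (fun y => 1 + ∑ l, pd l h y ^ 2) x = 2 * b m := by
    intro m
    have h1 : HasFDerivAt (fun y => 1 + ∑ l, pd l h y ^ 2)
        (∑ l, (2 * pd l h x) • fderiv ℝ (pd l h) x) x := by
      apply HasFDerivAt.const_add
      apply HasFDerivAt.fun_sum
      intro l _
      have := (hd l).hasFDerivAt.pow 2
      simpa using this
    unfold pd at h1 ⊢
    rw [h1.fderiv, hb]
    simp only [ContinuousLinearMap.sum_apply, ContinuousLinearMap.smul_apply, smul_eq_mul]
    rw [Finset.mul_sum]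
    refine Finset.sum_congr rfl fun l _ => ?_
    unfold pd
    ring
  have hId : ∀ m, pd m (fun y => (1 + ∑ l, pd l h y ^ 2)⁻¹) x = - (2 * b m) / W ^ 2 := by
    intro m
    have h1 := (hasDerivAt_inv (𝕜 := ℝ) (x := 1 + ∑ l, pd l h x ^ 2)
      (by rw [← hW]; exact hW0.ne')).comp_hasFDerivAt x hS.hasFDerivAt
    have h2 : fderiv ℝ (fun y => (1 + ∑ l, pd l h y ^ 2)⁻¹) x
        = (-((1 + ∑ l, pd l h x ^ 2) ^ 2)⁻¹) • fderiv ℝ (fun y => 1 + ∑ l, pd l h y ^ 2) x :=
      h1.fderiv
    have h3 : fderiv ℝ (fun y => 1 + ∑ l, pd l h y ^ 2) x (EuclideanSpace.single m 1)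
        = 2 * b m := hSd m
    change fderiv ℝ (fun y => (1 + ∑ l, pd l h y ^ 2)⁻¹) x (EuclideanSpace.single m 1) = _
    rw [h2, ContinuousLinearMap.smul_apply, h3, smul_eq_mul, ← hW]
    field_simp
  have hqd : ∀ m k, pd m (fun y => pd k h y * (1 + ∑ l, pd l h y ^ 2)⁻¹) x
      = pd m (pd k h) x / W - 2 * pd k h x * b m / W ^ 2 := by
    intro m k
    rw [pd_mul (hd k) hI, hId, ← hW]
    field_simp
    ring
  have hq : ∀ k, DifferentiableAt ℝ (fun y => pd k h y * (1 + ∑ l, pd l h y ^ 2)⁻¹) x :=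
    fun k => (hd k).mul hI
  have hchr : ∀ k i j, christoffel g k i j x = pd i (pd j h) x * (pd k h x / W) := by
    intro k i j
    rw [christoffel_graph hU hh hg k i j hx, hW]
  have hchd : ∀ m k i j, pd m (christoffel g k i j) x
      = pd i (pd j h) x * (pd m (pd k h) x / W - 2 * pd k h x * b m / W ^ 2)
        + pd k h x / W * pd m (pd i (pd j h)) x := by
    intro m k i j
    have h1 : christoffel g k i j =ᶠ[𝓝 x]
        fun y => pd i (pd j h) y * (pd k h y * (1 + ∑ l, pd l h y ^ 2)⁻¹) := by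
      filter_upwards [hU.mem_nhds hx] with y hy
      rw [christoffel_graph hU hh hg k i j hy, div_eq_mul_inv]
    rw [pd_congr h1, pd_mul (hd2 i j) (hq k), hqd, ← hW]
    ring
  have hthird : ∀ k i j, pd k (pd i (pd j h)) x = pd j (pd i (pd k h)) x := by
    intro k i j
    have e1 : pd i (pd j h) =ᶠ[𝓝 x] pd j (pd i h) := by
      filter_upwards [hU.mem_nhds hx] with y hy
      exact pd_symm hU hh i j hy
    have e2 : pd k (pd i h) =ᶠ[𝓝 x] pd i (pd k h) := by
      filter_upwards [hU.mem_nhds hx] with y hy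
      exact pd_symm hU hh k i hy
    rw [pd_congr e1, pd_symm hU (contDiffOn_pd hU hh i) k j hx, pd_congr e2]
  unfold ricci
  have hterm : ∀ k, (pd k (christoffel g k i j) x - pd j (christoffel g k i k) x
      + ∑ l, (christoffel g k k l x * christoffel g l i j x
        - christoffel g k j l x * christoffel g l i k x))
      = pd i (pd j h) x / W * pd k (pd k h) x
        - 2 * pd i (pd j h) x / W ^ 2 * (pd k h x * b k)
        - 1 / W * (pd i (pd k h) x * pd j (pd k h) x)
        + 2 * b j / W ^ 2 * (pd k h x * pd i (pd k h) x)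
        + pd i (pd j h) x / W ^ 2 * (pd k h x * b k)
        - b j / W ^ 2 * (pd k h x * pd i (pd k h) x) := by
    intro k
    have e1 : ∑ l, (christoffel g k k l x * christoffel g l i j x
        - christoffel g k j l x * christoffel g l i k x)
        = pd i (pd j h) x / W ^ 2 * (pd k h x * b k)
        - b j / W ^ 2 * (pd k h x * pd i (pd k h) x) := by
      rw [hb k, hb j, Finset.sum_sub_distrib]
      congr 1
      · rw [Finset.mul_sum, Finset.mul_sum]
        refine Finset.sum_congr rfl fun l _ => ?_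
        rw [hchr, hchr]
        field_simp
      · rw [Finset.sum_div, Finset.sum_mul]
        refine Finset.sum_congr rfl fun l _ => ?_
        rw [hchr, hchr]
        field_simp
    rw [e1, hchd, hchd, hthird k i j]
    field_simp
    ring
  rw [Finset.sum_congr rfl fun k _ => hterm k]
  simp only [Finset.sum_add_distrib, Finset.sum_sub_distrib, ← Finset.mul_sum]
  rw [← hb i]
  field_simp
  ring

/-- Mean curvature of the graph of `h`, up to a positive factor. -/
noncomputable def tau (h : E n → ℝ) (x : E n) : ℝ :=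
  (∑ k, pd k (pd k h) x) / (1 + ∑ l, pd l h x ^ 2)
    - (∑ k, pd k h x * ∑ l, pd l h x * pd k (pd l h) x) / (1 + ∑ l, pd l h x ^ 2) ^ 2

/-- Second derivative of `h` at `x` in the direction `w`. -/
noncomputable def hess (h : E n → ℝ) (x : E n) (w : Fin n → ℝ) : ℝ :=
  ∑ i, ∑ j, pd i (pd j h) x * w i * w j

theorem hess_sign {U : Set (E n)} (hU : IsOpen U) {h : E n → ℝ} (hh : ContDiffOn ℝ ∞ h U)
    {g : E n → Matrix (Fin n) (Fin n) ℝ}
    (hg : ∀ x ∈ U, ∀ i j, g x i j = (1 : Matrix (Fin n) (Fin n) ℝ) i j + pd i h x * pd j h x)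
    {x : E n} (hx : x ∈ U)
    (hric : ∀ w : Fin n → ℝ, 0 ≤ ∑ i, ∑ j, ricci g i j x * w i * w j)
    (hsc : 1 ≤ scal g x) : tau h x ≠ 0 ∧ ∀ w, 0 ≤ tau h x * hess h x w := by
  set W : ℝ := 1 + ∑ l, pd l h x ^ 2 with hW
  set b : Fin n → ℝ := fun i => ∑ l, pd l h x * pd i (pd l h) x with hb
  have hW0 : 0 < W := by
    have : 0 ≤ ∑ l, pd l h x ^ 2 := Finset.sum_nonneg fun _ _ => sq_nonneg _
    linarith
  have hformula := ricci_graph hU hh hg hx hW (b := b) (fun i => rfl)
  have htau : (∑ k, pd k (pd k h) x) / W - (∑ k, pd k h x * b k) / W ^ 2 = tau h x := rfl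
  have key : ∀ w : Fin n → ℝ, (∑ k, (∑ i, pd i (pd k h) x * w i) ^ 2) / W ^ 2
      ≤ tau h x * hess h x w := by
    intro w
    have h0 := hric w
    set y : Fin n → ℝ := fun k => ∑ i, pd i (pd k h) x * w i with hy
    have e1 : ∑ i, ∑ j, ricci g i j x * w i * w j
        = tau h x * hess h x w - (∑ k, y k ^ 2) / W + (∑ l, pd l h x * y l) ^ 2 / W ^ 2 := by
      have e2 : ∑ i, ∑ j, (∑ k, pd i (pd k h) x * pd j (pd k h) x) * w i * w j
          = ∑ k, y k ^ 2 := by
        have : ∀ k, y k ^ 2 = ∑ i, ∑ j, pd i (pd k h) x * pd j (pd k h) x * w i * w j := by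
          intro k
          rw [sq, hy]
          simp only
          rw [Finset.sum_mul_sum]
          refine Finset.sum_congr rfl fun i _ => Finset.sum_congr rfl fun j _ => ?_
          ring
        simp_rw [this]
        refine Eq.trans ?_ Finset.sum_comm
        refine Finset.sum_congr rfl fun i _ => ?_
        refine Eq.trans ?_ Finset.sum_comm
        refine Finset.sum_congr rfl fun j _ => ?_
        rw [Finset.sum_mul, Finset.sum_mul]
      have e3 : ∑ i, ∑ j, b i * b j * w i * w j = (∑ l, pd l h x * y l) ^ 2 := by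
        have e4 : ∑ l, pd l h x * y l = ∑ i, b i * w i := by
          simp only [hb, hy, Finset.mul_sum, Finset.sum_mul]
          rw [Finset.sum_comm]
          refine Finset.sum_congr rfl fun i _ => Finset.sum_congr rfl fun j _ => ?_
          ring
        rw [e4, sq, Finset.sum_mul_sum]
        refine Finset.sum_congr rfl fun i _ => Finset.sum_congr rfl fun j _ => ?_
        ring
      rw [← e2, ← e3]
      unfold hess
      rw [Finset.mul_sum, Finset.sum_div, Finset.sum_div, ← Finset.sum_sub_distrib,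
        ← Finset.sum_add_distrib]
      refine Finset.sum_congr rfl fun i _ => ?_
      rw [Finset.mul_sum, Finset.sum_div, Finset.sum_div, ← Finset.sum_sub_distrib,
        ← Finset.sum_add_distrib]
      refine Finset.sum_congr rfl fun j _ => ?_
      rw [hformula i j, htau]
      ring
    rw [e1] at h0
    have hcs : (∑ l, pd l h x * y l) ^ 2 ≤ (W - 1) * ∑ k, y k ^ 2 := by
      have := Finset.sum_mul_sq_le_sq_mul_sq Finset.univ (fun l => pd l h x) y
      refine this.trans (le_of_eq ?_)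
      rw [hW]; ring
    have h2 : (∑ l, pd l h x * y l) ^ 2 / W ^ 2 ≤ (W - 1) * (∑ k, y k ^ 2) / W ^ 2 := by
      gcongr
    have h3 : (∑ k, y k ^ 2) / W - (W - 1) * (∑ k, y k ^ 2) / W ^ 2
        = (∑ k, y k ^ 2) / W ^ 2 := by
      field_simp
      ring
    linarith
  refine ⟨fun h0 => ?_, fun w => le_trans (by positivity) (key w)⟩
  have hS : ∀ i k, pd i (pd k h) x = 0 := by
    intro i k
    have h1 := key (Pi.single i 1)
    rw [h0, zero_mul] at h1
    have h2 : ∑ k, (∑ i', pd i' (pd k h) x * (Pi.single i (1 : ℝ) : Fin n → ℝ) i') ^ 2 ≤ 0 := by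
      by_contra hlt
      push Not at hlt
      have : 0 < (∑ k, (∑ i', pd i' (pd k h) x * (Pi.single i (1 : ℝ) : Fin n → ℝ) i') ^ 2)
        / W ^ 2 := by positivity
      linarith
    have h3 := (Finset.sum_eq_zero_iff_of_nonneg (fun k _ => sq_nonneg _)).1
      (le_antisymm h2 (Finset.sum_nonneg fun k _ => sq_nonneg _)) k (Finset.mem_univ k)
    have h4 : ∑ i', pd i' (pd k h) x * (Pi.single i (1 : ℝ) : Fin n → ℝ) i'
        = pd i (pd k h) x := by
      simp [Pi.single_apply]
    rw [h4] at h3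
    exact pow_eq_zero_iff (by norm_num) |>.1 h3
  have hR : ∀ i j, ricci g i j x = 0 := by
    intro i j
    rw [hformula i j]
    simp [hS, hb]
  have : scal g x = 0 := by
    unfold scal
    simp [hR]
  linarith

end Vale.Agent.P210.Cvx
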