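import Vale.Agent.P210.H684.Touch
import Vale.Agent.P210.H684.Ricci
import Mathlib.Analysis.InnerProductSpace.PiL2
import Mathlib.Analysis.Convex.Deriv
import Mathlib.Analysis.Calculus.MeanValue

set_option linter.all false

open scoped ENNReal ContDiff Topology RealInnerProductSpace
open Set Filter Metric

namespace Vale.Agent.P210.Cvx

variable {n : ℕ}

/-- A smooth function with an implicit equation, without convexity. -/
theorem exists_graph' {N : ℕ} {V : Set (E N)} {ρ : E N → ℝ} {p ν : E N} (hV : IsOpen V)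
    (hpV : p ∈ V) (hρ : ContDiffOn ℝ ∞ ρ V) (hρp : ρ p = 0) (hpos : 0 < fderiv ℝ ρ p ν)
    (e : Fin n → E N) :
    ∃ (U : Set (E n)) (h : E n → ℝ), IsOpen U ∧ 0 ∈ U ∧ ContDiffOn ℝ ∞ h U ∧ h 0 = 0 ∧
      ∀ x ∈ U, ρ (p + gT e ν (x, h x)) = 0 := by
  have hsubst : ContDiff ℝ ∞ (fun w : E n × ℝ => p + gT e ν w) :=
    contDiff_const.add (gT e ν).contDiff
  have hder : ∀ w : E n × ℝ, p + gT e ν w ∈ V →
      fderiv ℝ (fun w => ρ (p + gT e ν w)) w (0, 1) = - fderiv ℝ ρ (p + gT e ν w) ν := by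
    intro w hw
    have h1 : DifferentiableAt ℝ ρ (p + gT e ν w) :=
      (hρ.contDiffAt (hV.mem_nhds hw)).differentiableAt (by simp)
    have h2 : HasFDerivAt (fun w : E n × ℝ => p + gT e ν w) (gT e ν) w :=
      (gT e ν).hasFDerivAt.const_add p
    have h3 := h1.hasFDerivAt.comp w h2
    have h4 : fderiv ℝ (fun w => ρ (p + gT e ν w)) w
        = (fderiv ℝ ρ (p + gT e ν w)).comp (gT e ν) := h3.fderiv
    have h5 : gT e ν ((0 : E n), (1 : ℝ)) = -ν := by rw [gT_apply]; simp
    rw [h4, ContinuousLinearMap.comp_apply, h5, map_neg]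
  have h00 : p + gT e ν ((0 : E n), (0 : ℝ)) = p := by rw [gT_apply]; simp
  obtain ⟨U, h, hU, h0U, hh, hh0, hgood⟩ := exists_implicit
    (V := (fun w : E n × ℝ => p + gT e ν w) ⁻¹' V) (f := fun w => ρ (p + gT e ν w))
    (hV.preimage hsubst.continuous) (hρ.comp hsubst.contDiffOn fun w hw => hw)
    (by rw [mem_preimage, h00]; exact hpV) (by simp only [h00, hρp])
    (by rw [hder _ (by rw [h00]; exact hpV), h00]; exact (neg_lt_zero.2 hpos).ne)
  exact ⟨U, h, hU, h0U, hh, hh0, fun x hx => (hgood x hx).2.1⟩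

/-- The graph parametrisation is a local parametrisation with metric `1 + ∇h ⊗ ∇h`. -/
theorem graph_param {N : ℕ} {M : Set (E N)} {U : Set (E n)} {h : E n → ℝ} (hU : IsOpen U)
    (hh : ContDiffOn ℝ ∞ h U) {p ν : E N} (hν : ‖ν‖ = 1) {e : Fin n → E N}
    (he : Orthonormal ℝ e) (heν : ∀ i, ⟪e i, ν⟫ = 0)
    (hfr : ∀ x ∈ U, p + gT e ν (x, h x) ∈ M) :
    IsLocalParam M U (fun x => p + gT e ν (x, h x)) ∧
      ∀ x ∈ U, ∀ i j, induced (fun x => p + gT e ν (x, h x)) x i j
        = (1 : Matrix (Fin n) (Fin n) ℝ) i j + pd i h x * pd j h x := by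
  classical
  have hνe : ∀ i, ⟪ν, e i⟫ = 0 := fun i => by rw [real_inner_comm]; exact heν i
  have hder : ∀ x ∈ U, HasFDerivAt (fun x => p + gT e ν (x, h x))
      ((gT e ν).comp ((ContinuousLinearMap.id ℝ (E n)).prod (fderiv ℝ h x))) x := by
    intro x hx
    have h1 : HasFDerivAt h (fderiv ℝ h x) x :=
      ((hh.contDiffAt (hU.mem_nhds hx)).differentiableAt (by simp)).hasFDerivAt
    have h2 : HasFDerivAt (fun x => (x, h x))
        ((ContinuousLinearMap.id ℝ (E n)).prod (fderiv ℝ h x)) x := (hasFDerivAt_id x).prodMk h1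
    exact ((gT e ν).hasFDerivAt.comp x h2).const_add p
  have hderi : ∀ x ∈ U, ∀ v, fderiv ℝ (fun x => p + gT e ν (x, h x)) x v
      = ∑ i, v i • e i - fderiv ℝ h x v • ν := by
    intro x hx v
    rw [(hder x hx).fderiv]
    simp only [ContinuousLinearMap.comp_apply, ContinuousLinearMap.prod_apply,
      ContinuousLinearMap.id_apply, gT_apply]
  have hderi' : ∀ x ∈ U, ∀ i, fderiv ℝ (fun x => p + gT e ν (x, h x)) x
      (EuclideanSpace.single i 1) = e i - pd i h x • ν := by
    intro x hx i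
    rw [hderi x hx]
    have h1 : ∑ j, (EuclideanSpace.single i (1 : ℝ) : E n) j • e j = e i := by
      rw [Finset.sum_eq_single i]
      · simp
      · intro j _ hj
        simp [hj]
      · intro hi
        exact absurd (Finset.mem_univ i) hi
    rw [h1]
    rfl
  refine ⟨⟨hU, ?_, ?_, fun x hx => hfr x hx⟩, ?_⟩
  · exact contDiffOn_const.add ((gT e ν).contDiff.comp_contDiffOn
      (contDiffOn_id.prodMk hh))
  · intro x hx
    rw [injective_iff_map_eq_zero]
    intro v hv
    rw [hderi x hx] at hv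
    ext i
    have h1 : ⟪e i, ∑ j, v j • e j - fderiv ℝ h x v • ν⟫ = v i := by
      rw [inner_sub_right, inner_smul_right, heν, mul_zero, sub_zero]
      exact he.inner_right_fintype (fun j => v j) i
    rw [hv, inner_zero_right] at h1
    simpa using h1.symm
  · intro x hx i j
    unfold induced
    rw [hderi' x hx, hderi' x hx, inner_sub_left, inner_sub_right, inner_sub_right,
      inner_smul_right, heν, inner_smul_left, hνe, inner_smul_left, inner_smul_right,
      real_inner_self_eq_norm_sq, hν, orthonormal_iff_ite.1 he i j, Matrix.one_apply]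
    simp

/-- Horizontal coordinates. -/
noncomputable def cX {N : ℕ} (e : Fin n → E N) (p z : E N) : E n :=
  WithLp.toLp 2 (fun i => ⟪e i, z - p⟫)

/-- Vertical coordinate. -/
noncomputable def cS {N : ℕ} (ν p z : E N) : ℝ := -⟪ν, z - p⟫

lemma cX_combo {N : ℕ} (e : Fin n → E N) (p x y : E N) {a c : ℝ} (hac : a + c = 1) :
    cX e p (a • x + c • y) = a • cX e p x + c • cX e p y := by
  ext i
  simp only [cX, PiLp.add_apply, PiLp.smul_apply, smul_eq_mul]
  have : a • x + c • y - p = a • (x - p) + c • (y - p) := by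
    have hp : p = (a + c) • p := by rw [hac, one_smul]
    nth_rewrite 1 [hp]
    module
  rw [this, inner_add_right, inner_smul_right, inner_smul_right]

lemma cS_combo {N : ℕ} (ν p x y : E N) {a c : ℝ} (hac : a + c = 1) :
    cS ν p (a • x + c • y) = a * cS ν p x + c * cS ν p y := by
  unfold cS
  have : a • x + c • y - p = a • (x - p) + c • (y - p) := by
    have hp : p = (a + c) • p := by rw [hac, one_smul]
    nth_rewrite 1 [hp]
    module
  rw [this, inner_add_right, inner_smul_right, inner_smul_right]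
  ring

lemma coords_eq (b : OrthonormalBasis (Fin (n + 1)) ℝ (E (n + 1))) (p z : E (n + 1)) :
    p + gT (fun i => b (Fin.castSucc i)) (b (Fin.last n))
      (cX (fun i => b (Fin.castSucc i)) p z, cS (b (Fin.last n)) p z) = z := by
  rw [gT_apply]
  have h1 := b.sum_repr' (z - p)
  rw [Fin.sum_univ_castSucc] at h1
  have h2 : ∑ i, (cX (fun i => b (Fin.castSucc i)) p z) i • b (Fin.castSucc i)
      = ∑ i : Fin n, ⟪b (Fin.castSucc i), z - p⟫ • b (Fin.castSucc i) := rfl
  rw [h2]
  unfold cS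
  rw [neg_smul, sub_neg_eq_add, h1]
  abel

lemma norm_cX_le {N : ℕ} {e : Fin n → E N} (he : Orthonormal ℝ e) (p z : E N) :
    ‖cX e p z‖ ≤ ‖z - p‖ := by
  rw [← pow_le_pow_iff_left₀ (norm_nonneg _) (norm_nonneg _) (n := 2) (by norm_num),
    EuclideanSpace.norm_sq_eq]
  have := he.sum_inner_products_le (z - p) (s := Finset.univ)
  exact this

/-- The region near a boundary point as the region above a graph. -/
theorem exists_chart {K : Set (E (n + 1))} (hcl : IsClosed K) (hs : SmoothBoundary K)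
    {p : E (n + 1)} (hp : p ∈ frontier K) :
    ∃ (ν : E (n + 1)) (e : Fin n → E (n + 1)), ‖ν‖ = 1 ∧ Orthonormal ℝ e ∧
      (∀ i, ⟪e i, ν⟫ = 0) ∧ (∀ z, p + gT e ν (cX e p z, cS ν p z) = z) ∧
      ∃ (r ε : ℝ) (h : E n → ℝ), 0 < r ∧ 0 < ε ∧ ContDiffOn ℝ ∞ h (ball 0 r) ∧ h 0 = 0 ∧
        (∀ x ∈ ball 0 r, p + gT e ν (x, h x) ∈ frontier K) ∧
        ∀ z ∈ ball p ε, cX e p z ∈ ball 0 r ∧ (z ∈ K ↔ h (cX e p z) ≤ cS ν p z) ∧
          (z ∈ interior K ↔ h (cX e p z) < cS ν p z) := by
  obtain ⟨V, ρ, hV, hpV, hρ, hne, hK⟩ := hs p hp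
  have hρp : ρ p = 0 := rho_eq_zero hcl hp hV hpV hρ hK
  obtain ⟨ν, hν, hpos⟩ : ∃ ν : E (n + 1), ‖ν‖ = 1 ∧ 0 < fderiv ℝ ρ p ν := by
    obtain ⟨d, hd⟩ : ∃ d, fderiv ℝ ρ p d ≠ 0 := by
      by_contra hno
      push Not at hno
      apply hne
      ext d
      simpa using hno d
    have hd0 : d ≠ 0 := by
      rintro rfl
      simp at hd
    have hn : 0 < ‖d‖ := norm_pos_iff.2 hd0
    rcases lt_or_gt_of_ne hd with h1 | h1
    · refine ⟨-(‖d‖⁻¹ • d), by rw [norm_neg, norm_smul, norm_inv, norm_norm,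
        inv_mul_cancel₀ hn.ne'], ?_⟩
      rw [map_neg, map_smul, smul_eq_mul]
      have := mul_neg_of_pos_of_neg (inv_pos.2 hn) h1
      linarith
    · refine ⟨‖d‖⁻¹ • d, by rw [norm_smul, norm_inv, norm_norm, inv_mul_cancel₀ hn.ne'], ?_⟩
      rw [map_smul, smul_eq_mul]
      positivity
  obtain ⟨b, hlast⟩ : ∃ b : OrthonormalBasis (Fin (n + 1)) ℝ (E (n + 1)),
      b (Fin.last n) = ν := by
    have hor : Orthonormal ℝ (({Fin.last n} : Set (Fin (n + 1))).restrict fun _ => ν) := by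
      rw [orthonormal_iff_ite]
      rintro ⟨i, hi⟩ ⟨j, hj⟩
      rw [mem_singleton_iff] at hi hj
      subst hi hj
      change ⟪ν, ν⟫ = _
      simp [hν]
    obtain ⟨b, hb⟩ := hor.exists_orthonormalBasis_extension_of_card_eq (by simp)
    exact ⟨b, hb _ (by simp)⟩
  set e : Fin n → E (n + 1) := fun i => b (Fin.castSucc i) with he'
  have he : Orthonormal ℝ e := b.orthonormal.comp _ (Fin.castSucc_injective n)
  have heν : ∀ i, ⟪e i, ν⟫ = 0 := by
    intro i
    rw [← hlast]
    exact b.orthonormal.2 (Fin.castSucc_lt_last i).ne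
  have hco : ∀ z, p + gT e ν (cX e p z, cS ν p z) = z := by
    intro z
    have := coords_eq b p z
    rw [hlast] at this
    exact this
  obtain ⟨U, h, hU, h0U, hh, hh0, hgood⟩ := exists_graph' hV hpV hρ hρp hpos e
  -- a ball where the normal derivative is positive
  have hcont : ContinuousAt (fun z => fderiv ℝ ρ z ν) p := by
    have h1 : ContDiffOn ℝ ∞ (fderiv ℝ ρ) V := hρ.fderiv_of_isOpen hV (by simp)
    exact (h1.continuousOn.continuousAt (hV.mem_nhds hpV)).clm_apply continuousAt_const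
  obtain ⟨δ, hδ, hδV⟩ := Metric.eventually_nhds_iff_ball.1
    ((hcont.eventually (lt_mem_nhds hpos)).and (hV.mem_nhds hpV))
  have hmono : ∀ a ∈ ball p δ, ∀ t : ℝ, 0 < t → a - t • ν ∈ ball p δ → ρ (a - t • ν) < ρ a := by
    intro a ha t ht hat
    have hin : ∀ τ ∈ Icc (0 : ℝ) t, a - τ • ν ∈ ball p δ := by
      intro τ hτ
      have h1 := (convex_ball p δ) ha hat (a := 1 - τ / t) (b := τ / t)
        (by rw [sub_nonneg, div_le_one ht]; exact hτ.2) (div_nonneg hτ.1 ht.le) (by ring)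
      have h2 : (1 - τ / t) • a + (τ / t) • (a - t • ν) = a - τ • ν := by
        have h3 : τ = τ / t * t := by field_simp
        nth_rewrite 3 [h3]
        module
      rwa [h2] at h1
    have hder : ∀ τ ∈ Icc (0 : ℝ) t, HasDerivAt (fun τ : ℝ => ρ (a - τ • ν))
        (-(fderiv ℝ ρ (a - τ • ν) ν)) τ := by
      intro τ hτ
      have h1 : DifferentiableAt ℝ ρ (a - τ • ν) :=
        (hρ.contDiffAt (hV.mem_nhds (hδV _ (hin τ hτ)).2)).differentiableAt (by simp)
      have h2 : HasDerivAt (fun τ : ℝ => a - τ • ν) (-ν) τ := by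
        simpa using ((hasDerivAt_id τ).smul_const ν).const_sub a
      have h3 := h1.hasFDerivAt.comp_hasDerivAt τ h2
      rw [map_neg] at h3
      exact h3
    obtain ⟨c, hc, hceq⟩ := exists_hasDerivAt_eq_slope (fun τ : ℝ => ρ (a - τ • ν))
      (fun τ => -(fderiv ℝ ρ (a - τ • ν) ν)) ht
      (fun τ hτ => (hder τ hτ).continuousAt.continuousWithinAt)
      (fun τ hτ => hder τ ⟨hτ.1.le, hτ.2.le⟩)
    have h1 := (hδV _ (hin c ⟨hc.1.le, hc.2.le⟩)).1
    simp only [zero_smul, sub_zero] at hceq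
    have h2 : (ρ (a - t • ν) - ρ a) / t < 0 := by rw [← hceq]; linarith
    have h3 := (div_lt_iff₀ ht).1 h2
    linarith
  -- a ball in the parameter domain
  have h00 : p + gT e ν ((0 : E n), h 0) = p := by rw [hh0, gT_apply]; simp
  have hφc : ContinuousAt (fun x => p + gT e ν (x, h x)) (0 : E n) := by
    have h1 : ContinuousAt h 0 := (hh.contDiffAt (hU.mem_nhds h0U)).continuousAt
    exact ((gT e ν).continuous.continuousAt.comp (continuousAt_id.prodMk h1)).const_add p
  have hφb : ∀ᶠ x in 𝓝 (0 : E n), p + gT e ν (x, h x) ∈ ball p δ := by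
    have h1 := hφc.tendsto
    beta_reduce at h1
    rw [h00] at h1
    exact h1.eventually (ball_mem_nhds p hδ)
  obtain ⟨r, hr, hrU⟩ := Metric.eventually_nhds_iff_ball.1 (hφb.and (hU.mem_nhds h0U))
  have hVneg : IsOpen (V ∩ ρ ⁻¹' Iio 0) := hρ.continuousOn.isOpen_inter_preimage hV isOpen_Iio
  have hVK : V ∩ ρ ⁻¹' Iio 0 ⊆ interior K :=
    interior_maximal (fun z hz => (hK z hz.1).2 (le_of_lt hz.2)) hVneg
  have hfr : ∀ x ∈ ball (0 : E n) r, p + gT e ν (x, h x) ∈ K ∧
      p + gT e ν (x, h x) ∉ interior K := by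
    intro x hx
    have h1 := (hrU x hx).1
    have h2 := hδV _ h1
    have h3 := hgood x (hrU x hx).2
    refine ⟨(hK _ h2.2).2 h3.le, fun hint => ?_⟩
    have hmax : IsLocalMax ρ (p + gT e ν (x, h x)) := by
      filter_upwards [mem_interior_iff_mem_nhds.1 hint, hV.mem_nhds h2.2] with z h1 h2
      rw [h3]
      exact (hK z h2).1 h1
    have h4 := h2.1
    rw [hmax.fderiv_eq_zero] at h4
    simp at h4
  refine ⟨ν, e, hν, he, heν, hco, r, min δ r, h, hr, lt_min hδ hr,
    hh.mono fun x hx => (hrU x hx).2, hh0, fun x hx => ?_, fun z hz => ?_⟩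
  · rw [hcl.frontier_eq]
    exact hfr x hx
  · have hzδ : z ∈ ball p δ := ball_subset_ball (min_le_left _ _) hz
    have hzx : cX e p z ∈ ball (0 : E n) r := by
      rw [mem_ball_zero_iff]
      refine (norm_cX_le he p z).trans_lt ?_
      rw [← mem_ball_iff_norm]
      exact ball_subset_ball (min_le_right _ _) hz
    refine ⟨hzx, ?_⟩
    have hx := hfr _ hzx
    have hxρ := hgood _ (hrU _ hzx).2
    have hxδ := (hrU _ hzx).1
    have hzeq := hco z
    set x := cX e p z with hx'
    set s := cS ν p z with hs'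
    have hrel : p + gT e ν (x, s) = (p + gT e ν (x, h x)) - (s - h x) • ν := by
      rw [gT_apply, gT_apply]
      module
    rcases lt_trichotomy (h x) s with hlt | heq | hgt
    · have h1 : ρ z < 0 := by
        have h2 := hmono _ hxδ (s - h x) (sub_pos.2 hlt) (by rw [← hrel, hzeq]; exact hzδ)
        rw [← hrel, hzeq, hxρ] at h2
        exact h2
      have h2 : z ∈ interior K := hVK ⟨(hδV z hzδ).2, h1⟩
      exact ⟨⟨fun _ => hlt.le, fun _ => interior_subset h2⟩, ⟨fun _ => hlt, fun _ => h2⟩⟩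
    · rw [← heq] at hzeq
      rw [hzeq] at hx
      exact ⟨⟨fun _ => heq.le, fun _ => hx.1⟩, ⟨fun h => absurd h hx.2,
        fun h => absurd heq h.ne⟩⟩
    · have h1 : 0 < ρ z := by
        have h2 : p + gT e ν (x, h x) = z - (h x - s) • ν := by
          rw [← hzeq, gT_apply, gT_apply]
          module
        have h3 := hmono z hzδ (h x - s) (sub_pos.2 hgt) (by rw [← h2]; exact hxδ)
        rw [← h2, hxρ] at h3
        exact h3
      have h2 : z ∉ K := fun h => absurd ((hK z (hδV z hzδ).2).1 h) (not_le.2 h1)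
      exact ⟨⟨fun h => absurd h h2, fun h => absurd hgt (not_lt.2 h)⟩,
        ⟨fun h => absurd (interior_subset h) h2, fun h => absurd hgt (not_lt.2 h.le)⟩⟩

lemma fderiv_eq_sum (h : E n → ℝ) (x : E n) (v : E n) :
    fderiv ℝ h x v = ∑ i, v i * pd i h x := by
  have h1 : v = ∑ i, v i • (EuclideanSpace.single i (1 : ℝ) : E n) := by
    ext j
    simp [Finset.sum_apply, Pi.single_apply, EuclideanSpace.single_apply]
  conv_lhs => rw [h1]
  rw [map_sum]
  refine Finset.sum_congr rfl fun i _ => ?_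
  rw [map_smul, smul_eq_mul]
  rfl

/-- Second derivative along a line. -/
lemma line_derivs {U : Set (E n)} (hU : IsOpen U) {h : E n → ℝ} (hh : ContDiffOn ℝ ∞ h U)
    (a v : E n) {t : ℝ} (ht : a + t • v ∈ U) :
    HasDerivAt (fun t : ℝ => h (a + t • v)) (∑ i, v i * pd i h (a + t • v)) t ∧
    HasDerivAt (fun t : ℝ => ∑ i, v i * pd i h (a + t • v))
      (hess h (a + t • v) (fun i => v i)) t := by
  have hline : HasDerivAt (fun t : ℝ => a + t • v) v t := by
    simpa using ((hasDerivAt_id t).smul_const v).const_add a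
  have key : ∀ {f : E n → ℝ}, DifferentiableAt ℝ f (a + t • v) →
      HasDerivAt (fun t : ℝ => f (a + t • v)) (∑ i, v i * pd i f (a + t • v)) t := by
    intro f hf
    have h1 := hf.hasFDerivAt.comp_hasDerivAt t hline
    rw [fderiv_eq_sum] at h1
    exact h1
  refine ⟨key ((hh.contDiffAt (hU.mem_nhds ht)).differentiableAt (by simp)), ?_⟩
  have h2 : HasDerivAt (fun t : ℝ => ∑ i, v i * pd i h (a + t • v))
      (∑ i, v i * ∑ j, v j * pd j (pd i h) (a + t • v)) t := by
    apply HasDerivAt.fun_sum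
    intro i _
    apply HasDerivAt.const_mul
    exact key (((contDiffOn_pd hU hh i).contDiffAt (hU.mem_nhds ht)).differentiableAt (by simp))
  have h3 : ∑ i, v i * ∑ j, v j * pd j (pd i h) (a + t • v)
      = hess h (a + t • v) (fun i => v i) := by
    unfold hess
    simp_rw [Finset.mul_sum]
    rw [Finset.sum_comm]
    refine Finset.sum_congr rfl fun i _ => Finset.sum_congr rfl fun j _ => ?_
    ring
  rwa [h3] at h2

/-- Nonnegative second derivatives give convexity. -/
lemma convex_of_hess {U : Set (E n)} (hU : IsOpen U) (hUc : Convex ℝ U) {h : E n → ℝ}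
    (hh : ContDiffOn ℝ ∞ h U) {σ : ℝ} (hpos : ∀ x ∈ U, ∀ w, 0 ≤ σ * hess h x w) {x y : E n}
    (hx : x ∈ U) (hy : y ∈ U) {a c : ℝ} (ha : 0 ≤ a) (hc : 0 ≤ c) (hac : a + c = 1) :
    σ * h (a • x + c • y) ≤ a * (σ * h x) + c * (σ * h y) := by
  set v := y - x with hv
  have hin : ∀ t ∈ Icc (0 : ℝ) 1, x + t • v ∈ U := by
    intro t ht
    have := hUc hx hy (a := 1 - t) (b := t) (by linarith [ht.2]) ht.1 (by ring)
    have h2 : x + t • v = (1 - t) • x + t • y := by rw [hv]; module
    rwa [h2]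
  have hcv : ConvexOn ℝ (Icc (0 : ℝ) 1) (fun t : ℝ => σ * h (x + t • v)) := by
    refine convexOn_of_hasDerivWithinAt2_nonneg (convex_Icc 0 1)
      (f' := fun t => σ * ∑ i, v i * pd i h (x + t • v))
      (f'' := fun t => σ * hess h (x + t • v) (fun i => v i)) ?_ ?_ ?_ ?_
    · intro t ht
      exact ((line_derivs hU hh x v (hin t ht)).1.const_mul σ).continuousAt.continuousWithinAt
    · intro t ht
      exact ((line_derivs hU hh x v (hin t (interior_subset ht))).1.const_mul σ).hasDerivWithinAt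
    · intro t ht
      exact ((line_derivs hU hh x v (hin t (interior_subset ht))).2.const_mul σ).hasDerivWithinAt
    · intro t ht
      exact hpos _ (hin t (interior_subset ht)) _
  have h1 := hcv.2 (x := 0) (y := 1) (by simp) (by simp) ha hc hac
  simp only [smul_eq_mul, mul_zero, zero_add, mul_one, zero_smul, add_zero, one_smul] at h1
  have h2 : a • x + c • y = x + c • v := by
    rw [show a = 1 - c by linarith, hv]
    module
  have h3 : x + v = y := by rw [hv]; abel
  rw [h3] at h1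
  rw [h2]
  exact h1

/-- If `h` is even to second order around `0` then its second derivatives vanish. -/
lemma hess_eq_zero {U : Set (E n)} (hU : IsOpen U) (h0U : (0 : E n) ∈ U) {h : E n → ℝ}
    (hh : ContDiffOn ℝ ∞ h U) (v : E n)
    (hev : ∀ᶠ t in 𝓝 (0 : ℝ), h (t • v) + h (-(t • v)) = 0) :
    hess h 0 (fun i => v i) = 0 := by
  have hlim : ∀ u : E n, ∀ᶠ t in 𝓝 (0 : ℝ), 0 + t • u ∈ U := by
    intro u
    have h1 : Continuous (fun t : ℝ => 0 + t • u) := by fun_prop
    have h2 := h1.tendsto 0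
    simp only [zero_smul, add_zero] at h2
    exact h2.eventually (hU.mem_nhds h0U)
  have hG : (fun t : ℝ => h (0 + t • v) + h (0 + t • (-v))) =ᶠ[𝓝 0] fun _ => (0 : ℝ) := by
    filter_upwards [hev] with t ht
    rw [zero_add, zero_add, smul_neg]
    exact ht
  have hG1 : (fun t : ℝ => (∑ i, v i * pd i h (0 + t • v))
      + ∑ i, (-v) i * pd i h (0 + t • (-v))) =ᶠ[𝓝 0] fun _ => (0 : ℝ) := by
    filter_upwards [hG.eventuallyEq_nhds, hlim v, hlim (-v)] with t h1 h2 h3
    have h4 := (line_derivs hU hh 0 v h2).1.add (line_derivs hU hh 0 (-v) h3).1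
    have h5 : HasDerivAt (fun t : ℝ => h (0 + t • v) + h (0 + t • (-v))) 0 t :=
      (hasDerivAt_const t (0 : ℝ)).congr_of_eventuallyEq h1
    exact h4.unique h5
  have h6 := (line_derivs hU hh 0 v (t := 0) (by simpa using h0U)).2.add
    (line_derivs hU hh 0 (-v) (t := 0) (by simpa using h0U)).2
  have h7 : HasDerivAt (fun t : ℝ => (∑ i, v i * pd i h (0 + t • v))
      + ∑ i, (-v) i * pd i h (0 + t • (-v))) 0 0 :=
    (hasDerivAt_const (0 : ℝ) (0 : ℝ)).congr_of_eventuallyEq hG1
  have h8 := h6.unique h7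
  have h9 : hess h ((0 : E n) + (0 : ℝ) • (-v)) (fun i => (-v) i)
      = hess h ((0 : E n) + (0 : ℝ) • v) (fun i => v i) := by
    rw [zero_smul, zero_smul]
    unfold hess
    refine Finset.sum_congr rfl fun i _ => Finset.sum_congr rfl fun j _ => ?_
    simp
  rw [h9] at h8
  have h10 : (0 : E n) + (0 : ℝ) • v = 0 := by simp
  rw [h10] at h8
  linarith

end Vale.Agent.P210.Cvx
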