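import Vale.Agent.P210.Defs
import Mathlib.Topology.EMetricSpace.BoundedVariation
import Mathlib.Analysis.Convex.Basic

open scoped ENNReal ContDiff Topology
open Set

namespace Vale.Agent.P210.Cvx

/-- The metric induced on `ℝⁿ` by the map `φ` into Euclidean space, as a matrix field. -/
noncomputable def induced {n N : ℕ} (φ : E n → E N) (x : E n) : Matrix (Fin n) (Fin n) ℝ :=
  fun i j => inner ℝ (fderiv ℝ φ x (EuclideanSpace.single i 1))
    (fderiv ℝ φ x (EuclideanSpace.single j 1))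

/-- `φ` is a smooth immersion of the open set `U` of `ℝⁿ` with values in `M`. -/
structure IsLocalParam {n N : ℕ} (M : Set (E N)) (U : Set (E n)) (φ : E n → E N) : Prop where
  isOpen : IsOpen U
  smooth : ContDiffOn ℝ ∞ φ U
  immersion : ∀ x ∈ U, Function.Injective (fderiv ℝ φ x)
  mapsTo : MapsTo φ U M

/-- The boundary of `K` is a smooth hypersurface with `K` on one side: near each boundary point
`K` is the set `ρ ≤ 0` of a smooth function without critical point there. -/
def SmoothBoundary {N : ℕ} (K : Set (E N)) : Prop :=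
  ∀ p ∈ frontier K, ∃ (V : Set (E N)) (ρ : E N → ℝ), IsOpen V ∧ p ∈ V ∧ ContDiffOn ℝ ∞ ρ V ∧
    fderiv ℝ ρ p ≠ 0 ∧ ∀ z ∈ V, z ∈ K ↔ ρ z ≤ 0

/-- The intrinsic distance of `M`: the infimum of the lengths of the curves in `M` from `x` to
`y`. -/
noncomputable def intrinsicDist {N : ℕ} (M : Set (E N)) (x y : E N) : ℝ≥0∞ :=
  ⨅ (γ : ℝ → E N)
    (_ : ContinuousOn γ (Icc 0 1) ∧ γ 0 = x ∧ γ 1 = y ∧ ∀ t ∈ Icc (0 : ℝ) 1, γ t ∈ M),
    eVariationOn γ (Icc 0 1)

end Vale.Agent.P210.Cvx
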