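import Vale.Agent.P210.H684.Touch
import Mathlib.Analysis.InnerProductSpace.Projection.Basic
import Mathlib.Analysis.InnerProductSpace.PiL2

set_option linter.all false

open scoped ENNReal ContDiff Topology RealInnerProductSpace
open Set Filter

namespace Vale.Agent.P210.Cvx

section Quad

variable {F : Type} [NormedAddCommGroup F] [InnerProductSpace ℝ F] {K : Set F} {c p : F}
  {T : F →L[ℝ] F}

lemma quad_expand (hT : ∀ x y, ⟪T x, y⟫ = ⟪x, T y⟫) (x y : F) :
    ⟪T (x + y), x + y⟫ = ⟪T x, x⟫ + 2 * ⟪T x, y⟫ + ⟪T y, y⟫ := by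
  have h1 : ⟪T y, x⟫ = ⟪T x, y⟫ := by rw [hT y x, real_inner_comm]
  rw [map_add, inner_add_left, inner_add_right, inner_add_right, h1]
  ring

/-- Parabolas at a point of the boundary of a quadratic region. -/
lemma parab (hT : ∀ x y, ⟪T x, y⟫ = ⟪x, T y⟫) (hS : ∀ z, ⟪T (z - c), z - c⟫ ≤ 1 → z ∈ K)
    (hp : ⟪T (p - c), p - c⟫ = 1) {w : F} (hw : ⟪T (p - c), w⟫ = 0) (h0 : T (p - c) ≠ 0) {a : ℝ}
    (ha : ⟪T w, w⟫ / ‖T (p - c)‖ < a) :
    ∀ᶠ τ in 𝓝 (0 : ℝ), p + τ • w - (a / 2 * τ ^ 2) • (‖T (p - c)‖⁻¹ • T (p - c)) ∈ K := by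
  set g := T (p - c) with hg
  set R := ‖g‖ with hR
  have hRpos : 0 < R := norm_pos_iff.2 h0
  obtain ⟨ν, hν⟩ : ∃ ν, ν = R⁻¹ • g := ⟨_, rfl⟩
  rw [← hν]
  have hgν : ⟪g, ν⟫ = R := by
    rw [hν, inner_smul_right, real_inner_self_eq_norm_sq, ← hR]
    field_simp
  have ha' : ⟪T w, w⟫ < a * R := (div_lt_iff₀ hRpos).1 ha
  have hlim : ∀ᶠ τ in 𝓝 (0 : ℝ), ⟪T w, w⟫ - a * R + (a ^ 2 / 4 * ⟪T ν, ν⟫) * τ ^ 2
      - a * ⟪T w, ν⟫ * τ < 0 := by
    have h1 : Continuous (fun τ : ℝ => ⟪T w, w⟫ - a * R + (a ^ 2 / 4 * ⟪T ν, ν⟫) * τ ^ 2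
      - a * ⟪T w, ν⟫ * τ) := by fun_prop
    have h2 := h1.tendsto 0
    exact h2.eventually (gt_mem_nhds (by simp; linarith))
  filter_upwards [hlim] with τ hτ
  apply hS
  have h3 : p + τ • w - (a / 2 * τ ^ 2) • ν - c
      = (p - c) + (τ • w + (-(a / 2 * τ ^ 2)) • ν) := by
    rw [neg_smul]; abel
  have e1 : ⟪T (p - c), τ • w + (-(a / 2 * τ ^ 2)) • ν⟫ = -(a / 2 * τ ^ 2) * R := by
    rw [inner_add_right, inner_smul_right, inner_smul_right, ← hg, hw, hgν]; ring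
  have e2 : ⟪T (τ • w), τ • w⟫ = τ ^ 2 * ⟪T w, w⟫ := by
    rw [map_smul, inner_smul_right, real_inner_smul_left]; ring
  have e3 : ⟪T (τ • w), (-(a / 2 * τ ^ 2)) • ν⟫ = -(a / 2 * τ ^ 3) * ⟪T w, ν⟫ := by
    rw [map_smul, inner_smul_right, real_inner_smul_left]; ring
  have e4 : ⟪T ((-(a / 2 * τ ^ 2)) • ν), (-(a / 2 * τ ^ 2)) • ν⟫
      = (a / 2 * τ ^ 2) ^ 2 * ⟪T ν, ν⟫ := by
    rw [map_smul, inner_smul_right, real_inner_smul_left]; ring
  rw [h3, quad_expand hT, quad_expand hT, ← hg, hp, hg, e1, e2, e3, e4]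
  nlinarith [sq_nonneg τ, mul_nonneg (sq_nonneg τ) (neg_nonneg.2 hτ.le)]

lemma open_quad (T : F →L[ℝ] F) (c : F) : IsOpen {z : F | ⟪T (z - c), z - c⟫ < 1} := by
  have h1 : Continuous (fun z : F => ⟪T (z - c), z - c⟫) := by fun_prop
  exact isOpen_lt h1 continuous_const

/-- A touching point lies on the boundary of the quadratic region. -/
lemma quad_eq_one (hcl : IsClosed K) (hS : ∀ z, ⟪T (z - c), z - c⟫ ≤ 1 → z ∈ K)
    (hpf : p ∈ frontier K) (hp : ⟪T (p - c), p - c⟫ ≤ 1) : ⟪T (p - c), p - c⟫ = 1 := by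
  refine le_antisymm hp ?_
  by_contra hlt
  push Not at hlt
  rw [hcl.frontier_eq] at hpf
  exact hpf.2 (interior_maximal (fun z hz => hS z (le_of_lt hz)) (open_quad T c) hlt)

/-- The gradient at a touching point is an outer normal of `K`. -/
lemma support (hcl : IsClosed K) (hc : Convex ℝ K) (hT : ∀ x y, ⟪T x, y⟫ = ⟪x, T y⟫)
    (hS : ∀ z, ⟪T (z - c), z - c⟫ ≤ 1 → z ∈ K) (hpf : p ∈ frontier K)
    (hp : ⟪T (p - c), p - c⟫ = 1) : ∀ z ∈ K, ⟪T (p - c), z - p⟫ ≤ 0 := by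
  intro z hz
  by_contra hlt
  push Not at hlt
  set w := p - z with hw
  have hgw : ⟪T (p - c), w⟫ < 0 := by
    have : w = -(z - p) := by rw [hw]; abel
    rw [this, inner_neg_right]
    linarith
  have hlim : ∀ᶠ ε in 𝓝 (0 : ℝ), 2 * ⟪T (p - c), w⟫ + ε * ⟪T w, w⟫ < 0 := by
    have h1 : Continuous (fun ε : ℝ => 2 * ⟪T (p - c), w⟫ + ε * ⟪T w, w⟫) := by fun_prop
    exact (h1.tendsto 0).eventually (gt_mem_nhds (by
      simp only [zero_mul, add_zero]; linarith))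
  obtain ⟨ε, hε, hε0⟩ := ((hlim.filter_mono nhdsWithin_le_nhds).and
    (self_mem_nhdsWithin (a := (0 : ℝ)) (s := Ioi 0))).exists
  have hε0' : (0 : ℝ) < ε := hε0
  have hy : p + ε • w ∈ interior K := by
    refine interior_maximal (fun z hz => hS z (le_of_lt hz)) (open_quad T c) ?_
    have h3 : p + ε • w - c = (p - c) + ε • w := by abel
    show ⟪T (p + ε • w - c), p + ε • w - c⟫ < 1
    rw [h3, quad_expand hT, hp, map_smul, inner_smul_right, inner_smul_left, inner_smul_right]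
    simp only [RCLike.conj_to_real]
    nlinarith
  rw [hcl.frontier_eq] at hpf
  apply hpf.2
  have h4 := hc.combo_self_interior_mem_interior hz hy (a := ε / (1 + ε)) (b := 1 / (1 + ε))
    (by positivity) (by positivity) (by field_simp; ring)
  have h5 : p = (ε / (1 + ε)) • z + (1 / (1 + ε)) • (p + ε • w) := by
    have h6 : (1 + ε) • p = (1 + ε) • ((ε / (1 + ε)) • z + (1 / (1 + ε)) • (p + ε • w)) := by
      rw [smul_add, smul_smul, smul_smul, mul_div_cancel₀ _ (by positivity),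
        mul_div_cancel₀ _ (by positivity), hw]
      module
    exact smul_right_injective F (by positivity : (1 + ε) ≠ 0) h6
  rw [h5]
  exact h4

end Quad

section Ell

variable {F : Type} [NormedAddCommGroup F] [InnerProductSpace ℝ F] [FiniteDimensional ℝ F]

lemma star_inner_self (V : Submodule ℝ F) (w : F) :
    ⟪V.starProjection w, w⟫ = ‖V.starProjection w‖ ^ 2 := by
  rw [← real_inner_self_eq_norm_sq, Submodule.inner_starProjection_left_eq_right V w
    (V.starProjection w), Submodule.starProjection_eq_self_iff.2 (Submodule.starProjection_apply_mem _ _)]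
  rw [real_inner_comm]

lemma star_add (V : Submodule ℝ F) (w : F) :
    V.starProjection w + Vᗮ.starProjection w = w :=
  Submodule.starProjection_add_starProjection_orthogonal w

lemma norm_sq_split (V : Submodule ℝ F) (w : F) :
    ‖w‖ ^ 2 = ‖V.starProjection w‖ ^ 2 + ‖Vᗮ.starProjection w‖ ^ 2 := by
  rw [← star_inner_self V w, ← star_inner_self Vᗮ w, ← inner_add_left, star_add,
    real_inner_self_eq_norm_sq]

/-- Quadratic form of the ellipsoids around a disc. -/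
noncomputable def qf (V : Submodule ℝ F) (c : F) (L t : ℝ) (z : F) : ℝ :=
  ‖V.starProjection (z - c)‖ ^ 2 / (max L t) ^ 2 + ‖Vᗮ.starProjection (z - c)‖ ^ 2 / t ^ 2

lemma qf_mono (V : Submodule ℝ F) (c : F) {L s t : ℝ} (hL : 0 < L) (hs : 0 < s) (hst : s ≤ t)
    (z : F) : qf V c L t z ≤ qf V c L s z := by
  unfold qf
  have h1 : 0 < max L s := lt_max_of_lt_left hL
  have h2 : max L s ≤ max L t := max_le_max le_rfl hst
  gcongr

lemma qf_scale (V : Submodule ℝ F) (c : F) {L s t : ℝ} (hL : 0 < L) (hs : 0 < s) (hst : s ≤ t)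
    (z : F) : qf V c L s (c + (s / t) • (z - c)) ≤ qf V c L t z := by
  unfold qf
  have ht : 0 < t := hs.trans_le hst
  have h1 : 0 < max L s := lt_max_of_lt_left hL
  have h2 : 0 < max L t := lt_max_of_lt_left hL
  have h3 : s * max L t ≤ t * max L s := by
    rcases le_total L t with hLt | hLt
    · rw [max_eq_right hLt, mul_comm]
      exact mul_le_mul_of_nonneg_left (le_max_right _ _) ht.le
    · rw [max_eq_left hLt, max_eq_left (hst.trans hLt)]
      exact mul_le_mul_of_nonneg_right hst hL.le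
  rw [add_sub_cancel_left, map_smul, map_smul, norm_smul, norm_smul, Real.norm_eq_abs,
    abs_of_pos (div_pos hs ht)]
  refine add_le_add ?_ ?_
  · rw [mul_pow, div_pow, div_mul_eq_mul_div, div_div,
      div_le_div_iff₀ (by positivity) (by positivity)]
    have h4 : (s * max L t) ^ 2 ≤ (t * max L s) ^ 2 := by gcongr
    nlinarith [mul_le_mul_of_nonneg_left h4 (sq_nonneg ‖V.starProjection (z - c)‖)]
  · rw [mul_pow, div_pow]
    apply le_of_eq
    field_simp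

/-- A largest ellipsoid in the family touches the boundary. -/
theorem exists_max {K : Set F} (hcl : IsClosed K) (hne : K ≠ univ) (V : Submodule ℝ F) (c : F)
    {L : ℝ} (hL : 0 < L) (hD : ∀ x ∈ V, ‖x‖ ≤ L → c + x ∈ interior K) :
    ∃ T : ℝ, 0 < T ∧ (∀ z, qf V c L T z ≤ 1 → z ∈ K) ∧ ∃ p ∈ frontier K, qf V c L T p ≤ 1 := by
  set J : Set ℝ := {t | 0 < t ∧ ∀ z, qf V c L t z ≤ 1 → z ∈ K} with hJ
  -- nonempty
  have hJne : J.Nonempty := by
    have hcomp : IsCompact ((fun x => c + x) '' ((V : Set F) ∩ Metric.closedBall 0 L)) := by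
      refine IsCompact.image ?_ (by fun_prop)
      exact (isCompact_closedBall (0 : F) L).inter_left V.closed_of_finiteDimensional
    obtain ⟨δ, hδ, hsub⟩ := hcomp.exists_thickening_subset_open isOpen_interior (by
      rintro _ ⟨x, ⟨hxV, hx⟩, rfl⟩
      exact hD x hxV (by simpa using hx))
    refine ⟨min (δ / 2) L, lt_min (by linarith) hL, fun z hz => ?_⟩
    set t := min (δ / 2) L with ht
    have ht0 : 0 < t := lt_min (by linarith) hL
    have htL : t ≤ L := min_le_right _ _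
    unfold qf at hz
    rw [max_eq_left htL] at hz
    have hx : ‖V.starProjection (z - c)‖ ≤ L := by
      have h1 : ‖V.starProjection (z - c)‖ ^ 2 / L ^ 2 ≤ 1 := by
        have : 0 ≤ ‖Vᗮ.starProjection (z - c)‖ ^ 2 / t ^ 2 := by positivity
        linarith
      rw [div_le_one (by positivity)] at h1
      exact (pow_le_pow_iff_left₀ (norm_nonneg _) hL.le (by norm_num)).1 h1
    have hy : ‖Vᗮ.starProjection (z - c)‖ ≤ t := by
      have h1 : ‖Vᗮ.starProjection (z - c)‖ ^ 2 / t ^ 2 ≤ 1 := by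
        have : 0 ≤ ‖V.starProjection (z - c)‖ ^ 2 / L ^ 2 := by positivity
        linarith
      rw [div_le_one (by positivity)] at h1
      exact (pow_le_pow_iff_left₀ (norm_nonneg _) ht0.le (by norm_num)).1 h1
    apply interior_subset
    apply hsub
    rw [Metric.mem_thickening_iff]
    refine ⟨c + V.starProjection (z - c), ⟨_, ⟨Submodule.starProjection_apply_mem _ _, by simpa using hx⟩, rfl⟩, ?_⟩
    rw [dist_eq_norm]
    have h2 : z - (c + V.starProjection (z - c)) = Vᗮ.starProjection (z - c) := by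
      have := star_add V (z - c)
      have h3 : Vᗮ.starProjection (z - c) = (z - c) - V.starProjection (z - c) := by
        rw [eq_sub_iff_add_eq, add_comm]; exact this
      rw [h3]; abel
    rw [h2]
    have : t ≤ δ / 2 := min_le_left _ _
    linarith
  obtain ⟨z₁, hz₁⟩ : ∃ z, z ∉ K := by
    by_contra hno
    push Not at hno
    exact hne (eq_univ_of_forall hno)
  have hJb : BddAbove J := by
    refine ⟨max L ‖z₁ - c‖, fun t ht => ?_⟩
    by_contra hlt
    push Not at hlt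
    apply hz₁
    apply ht.2
    have h1 : L < t := (le_max_left _ _).trans_lt hlt
    have h2 : ‖z₁ - c‖ < t := (le_max_right _ _).trans_lt hlt
    unfold qf
    rw [max_eq_right h1.le, ← add_div, ← norm_sq_split, div_le_one (by have := ht.1; positivity)]
    have := norm_nonneg (z₁ - c)
    gcongr
  set T := sSup J with hT
  have hT0 : 0 < T := by
    obtain ⟨t, ht⟩ := hJne
    exact ht.1.trans_le (le_csSup hJb ht)
  have hmax : 0 < max L T := lt_max_of_lt_left hL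
  have hTK : ∀ z, qf V c L T z ≤ 1 → z ∈ K := by
    intro z hz
    have hlim : Tendsto (fun μ : ℝ => c + μ • (z - c)) (𝓝[<] 1) (𝓝 z) := by
      have h1 : Continuous (fun μ : ℝ => c + μ • (z - c)) := by fun_prop
      have h2 := h1.tendsto 1
      rw [one_smul, add_sub_cancel] at h2
      exact h2.mono_left nhdsWithin_le_nhds
    refine hcl.mem_of_tendsto hlim ?_
    have h0 : ∀ᶠ μ in 𝓝[<] (1 : ℝ), 0 < μ :=
      (eventually_gt_nhds (by norm_num : (0 : ℝ) < 1)).filter_mono nhdsWithin_le_nhds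
    filter_upwards [h0, self_mem_nhdsWithin] with μ hμ0 hμ1
    have hμ1' : μ < 1 := hμ1
    have h1 : μ * T < T := by nlinarith
    obtain ⟨s, hsJ, hs⟩ := exists_lt_of_lt_csSup hJne h1
    apply hsJ.2
    have h2 : 0 < μ * T := mul_pos hμ0 hT0
    refine (qf_mono V c hL h2 hs.le _).trans ?_
    have h3 := qf_scale V c hL h2 h1.le z
    have h4 : μ * T / T = μ := by field_simp
    rw [h4] at h3
    exact h3.trans hz
  refine ⟨T, hT0, hTK, ?_⟩
  have hex : ∀ k : ℕ, ∃ z, qf V c L (T + 1 / (k + 1)) z ≤ 1 ∧ z ∉ K := by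
    intro k
    by_contra hno
    push Not at hno
    have h1 : (0 : ℝ) < 1 / (k + 1) := by positivity
    have h2 : T + 1 / (k + 1) ∈ J := ⟨by linarith, hno⟩
    have h3 := le_csSup hJb h2
    linarith
  choose z hz hzK using hex
  have hbd : ∀ k, z k ∈ Metric.closedBall c (max L (T + 1)) := by
    intro k
    rw [mem_closedBall_iff_norm]
    set t := T + 1 / ((k : ℝ) + 1) with ht
    have h1 : (0 : ℝ) < 1 / (k + 1) := by positivity
    have h1' : (1 : ℝ) / (k + 1) ≤ 1 := by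
      rw [div_le_one (by positivity)]
      linarith [(Nat.cast_nonneg k : (0 : ℝ) ≤ k)]
    have ht0 : 0 < t := by linarith
    have hm0 : 0 < max L t := lt_max_of_lt_left hL
    have h2 : ‖z k - c‖ ^ 2 ≤ (max L t) ^ 2 := by
      have h3 : ‖z k - c‖ ^ 2 / (max L t) ^ 2 ≤ qf V c L t (z k) := by
        unfold qf
        rw [norm_sq_split V (z k - c), add_div]
        have h4 : t ≤ max L t := le_max_right _ _
        gcongr
      have h4 := h3.trans (hz k)
      rwa [div_le_one (by positivity)] at h4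
    have h3 := (pow_le_pow_iff_left₀ (norm_nonneg _) hm0.le (by norm_num)).1 h2
    refine h3.trans (max_le_max le_rfl ?_)
    linarith
  obtain ⟨p, -, φ, hφ, hlim⟩ := (isCompact_closedBall c (max L (T + 1))).tendsto_subseq hbd
  have hpT : qf V c L T p ≤ 1 := by
    have hcont : ContinuousAt (fun w : ℝ × F => qf V c L w.1 w.2) (T, p) := by
      unfold qf
      have h1 : ((max L T) ^ 2 : ℝ) ≠ 0 := by positivity
      have h2 : ((T, p) : ℝ × F).1 ^ 2 ≠ 0 := by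
        show T ^ 2 ≠ 0
        positivity
      refine ContinuousAt.add (ContinuousAt.div ?_ ?_ h1) (ContinuousAt.div ?_ ?_ h2)
      all_goals fun_prop
    have h1 : Tendsto (fun k => (T + 1 / (((φ k : ℕ) : ℝ) + 1), z (φ k))) atTop (𝓝 (T, p)) := by
      refine Tendsto.prodMk_nhds ?_ hlim
      have h2 : Tendsto (fun k : ℕ => T + 1 / ((k : ℝ) + 1)) atTop (𝓝 (T + 0)) :=
        tendsto_const_nhds.add tendsto_one_div_add_atTop_nhds_zero_nat
      rw [add_zero] at h2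
      exact h2.comp hφ.tendsto_atTop
    have h2 := hcont.tendsto.comp h1
    exact le_of_tendsto h2 (Eventually.of_forall fun k => hz (φ k))
  refine ⟨p, ?_, hpT⟩
  rw [frontier_eq_closure_inter_closure]
  refine ⟨subset_closure (hTK p hpT), ?_⟩
  exact mem_closure_of_tendsto hlim (Eventually.of_forall fun k => hzK (φ k))

/-- The operator of the quadratic form. -/
noncomputable def qop (V : Submodule ℝ F) (L t : ℝ) : F →L[ℝ] F :=
  ((max L t) ^ 2)⁻¹ • V.starProjection + (t ^ 2)⁻¹ • Vᗮ.starProjection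

lemma qop_apply (V : Submodule ℝ F) (L t : ℝ) (w : F) : qop V L t w
    = ((max L t) ^ 2)⁻¹ • V.starProjection w + (t ^ 2)⁻¹ • Vᗮ.starProjection w := rfl

lemma qop_symm (V : Submodule ℝ F) (L t : ℝ) (x y : F) :
    ⟪qop V L t x, y⟫ = ⟪x, qop V L t y⟫ := by
  rw [qop_apply, qop_apply, inner_add_left, inner_add_right, real_inner_smul_left,
    real_inner_smul_left, inner_smul_right, inner_smul_right,
    Submodule.inner_starProjection_left_eq_right, Submodule.inner_starProjection_left_eq_right]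

lemma qop_quad (V : Submodule ℝ F) (L t : ℝ) (w : F) : ⟪qop V L t w, w⟫
    = ‖V.starProjection w‖ ^ 2 / (max L t) ^ 2 + ‖Vᗮ.starProjection w‖ ^ 2 / t ^ 2 := by
  rw [qop_apply, inner_add_left, real_inner_smul_left, real_inner_smul_left, star_inner_self,
    star_inner_self]
  ring

end Ell

section Frame

lemma exists_frame {n : ℕ} (hn : 0 < n) {ν e₀ : E (n + 1)} (hν : ‖ν‖ = 1) (he₀ : ‖e₀‖ = 1)
    (h : ⟪e₀, ν⟫ = 0) : ∃ e : Fin n → E (n + 1), Orthonormal ℝ e ∧ (∀ i, ⟪e i, ν⟫ = 0) ∧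
      e ⟨0, hn⟩ = e₀ := by
  classical
  set v : Fin (n + 1) → E (n + 1) := fun i => if i = Fin.last n then ν else e₀ with hv
  have h0 : (0 : Fin (n + 1)) ≠ Fin.last n := by
    intro h
    have := congrArg Fin.val h
    simp at this
    omega
  have hor : Orthonormal ℝ (({0, Fin.last n} : Set (Fin (n + 1))).restrict v) := by
    rw [orthonormal_iff_ite]
    rintro ⟨i, hi⟩ ⟨j, hj⟩
    rw [mem_insert_iff, mem_singleton_iff] at hi hj
    change ⟪v i, v j⟫ = _
    simp only [Subtype.mk.injEq, hv]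
    have h' : ⟪ν, e₀⟫ = 0 := by rw [real_inner_comm]; exact h
    rcases hi with rfl | rfl <;> rcases hj with rfl | rfl
    · simp [h0, he₀]
    · simp [h0, h]
    · simp [h0, h0.symm, h']
    · simp [hν]
  obtain ⟨b, hb⟩ := hor.exists_orthonormalBasis_extension_of_card_eq (by simp)
  have hlast : b (Fin.last n) = ν := by
    rw [hb _ (by simp)]; simp [hv]
  refine ⟨fun i => b i.castSucc, b.orthonormal.comp _ (Fin.castSucc_injective n), ?_, ?_⟩
  · intro i
    rw [← hlast]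
    exact b.orthonormal.2 (Fin.castSucc_lt_last i).ne
  · have h1 : (⟨0, hn⟩ : Fin n).castSucc = 0 := rfl
    show b (⟨0, hn⟩ : Fin n).castSucc = e₀
    rw [h1, hb 0 (by simp)]
    simp [hv, h0]

lemma exists_frame' {n : ℕ} {ν : E (n + 1)} (hν : ‖ν‖ = 1) :
    ∃ e : Fin n → E (n + 1), Orthonormal ℝ e ∧ (∀ i, ⟪e i, ν⟫ = 0) := by
  classical
  set v : Fin (n + 1) → E (n + 1) := fun _ => ν with hv
  have hor : Orthonormal ℝ (({Fin.last n} : Set (Fin (n + 1))).restrict v) := by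
    rw [orthonormal_iff_ite]
    rintro ⟨i, hi⟩ ⟨j, hj⟩
    rw [mem_singleton_iff] at hi hj
    subst hi hj
    change ⟪v (Fin.last n), v (Fin.last n)⟫ = _
    simp [hv, hν]
  obtain ⟨b, hb⟩ := hor.exists_orthonormalBasis_extension_of_card_eq (by simp)
  have hlast : b (Fin.last n) = ν := by
    rw [hb _ (by simp)]
  refine ⟨fun i => b i.castSucc, b.orthonormal.comp _ (Fin.castSucc_injective n), ?_⟩
  intro i
  rw [← hlast]
  exact b.orthonormal.2 (Fin.castSucc_lt_last i).ne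

/-- In a plane `Vᗮ`, a unit vector orthogonal to `y₀`; the rest is parallel to `y₀`. -/
lemma exists_perp {F : Type} [NormedAddCommGroup F] [InnerProductSpace ℝ F]
    [FiniteDimensional ℝ F] (W : Submodule ℝ F) (hW : Module.finrank ℝ W = 2) {y₀ : F}
    (hy₀ : y₀ ∈ W) (hne : y₀ ≠ 0) :
    ∃ e₀ ∈ W, ‖e₀‖ = 1 ∧ ⟪e₀, y₀⟫ = 0 ∧
      ∀ y ∈ W, ⟪e₀, y⟫ = 0 → ‖y‖ * ‖y₀‖ = |⟪y, y₀⟫| := by
  classical
  have hn : 0 < ‖y₀‖ := norm_pos_iff.2 hne
  set v : Fin 2 → W := fun _ => ‖y₀‖⁻¹ • ⟨y₀, hy₀⟩ with hv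
  have hv1 : ‖‖y₀‖⁻¹ • (⟨y₀, hy₀⟩ : W)‖ = 1 := by
    rw [norm_smul, norm_inv, norm_norm]
    show ‖y₀‖⁻¹ * ‖y₀‖ = 1
    exact inv_mul_cancel₀ hn.ne'
  have hor : Orthonormal ℝ (({0} : Set (Fin 2)).restrict v) := by
    rw [orthonormal_iff_ite]
    rintro ⟨i, hi⟩ ⟨j, hj⟩
    rw [mem_singleton_iff] at hi hj
    subst hi hj
    change ⟪v 0, v 0⟫ = _
    simp only [hv, if_true]
    rw [real_inner_self_eq_norm_sq, hv1, one_pow]
  obtain ⟨b, hb⟩ := hor.exists_orthonormalBasis_extension_of_card_eq (by simp [hW])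
  have hb0 : b 0 = ‖y₀‖⁻¹ • (⟨y₀, hy₀⟩ : W) := hb 0 (by simp)
  have hy : (⟨y₀, hy₀⟩ : W) = ‖y₀‖ • b 0 := by
    rw [hb0, smul_smul, mul_inv_cancel₀ hn.ne', one_smul]
  refine ⟨b 1, (b 1).2, ?_, ?_, ?_⟩
  · rw [Submodule.norm_coe]
    exact b.orthonormal.1 1
  · have h1 : ⟪b 1, (⟨y₀, hy₀⟩ : W)⟫ = 0 := by
      rw [hy, inner_smul_right, b.orthonormal.2 (by norm_num), mul_zero]
    exact h1
  · intro y hyW h0
    have h1 : ⟪b 1, (⟨y, hyW⟩ : W)⟫ = 0 := h0
    have h2 := b.sum_repr' (⟨y, hyW⟩ : W)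
    rw [Fin.sum_univ_two, h1, zero_smul, add_zero] at h2
    set β := ⟪b 0, (⟨y, hyW⟩ : W)⟫ with hβ
    have h3 : ‖y‖ = |β| := by
      have : ‖(⟨y, hyW⟩ : W)‖ = |β| := by
        rw [← h2, norm_smul, b.orthonormal.1 0, mul_one, Real.norm_eq_abs]
      exact this
    have h4 : ⟪y, y₀⟫ = β * ‖y₀‖ := by
      have : ⟪(⟨y, hyW⟩ : W), (⟨y₀, hy₀⟩ : W)⟫ = β * ‖y₀‖ := by
        rw [← h2, hy, inner_smul_right, real_inner_smul_left, real_inner_self_eq_norm_sq,
          b.orthonormal.1 0]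
        ring
      exact this
    rw [h3, h4, abs_mul, abs_of_pos hn]

end Frame

lemma rest_bound {L T X Y Y₀ G : ℝ} (hL0 : 0 < L) (hT0 : 0 < T) (hX : 0 ≤ X) (hY : 0 ≤ Y)
    (hY₀ : 0 ≤ Y₀) (hXY : X ^ 2 + Y ^ 2 = 1) (hy34 : 3 / 4 * T ^ 2 ≤ Y₀ ^ 2)
    (h6 : Y * Y₀ / T ^ 2 ≤ X / (2 * L)) (hgn : 1 / (2 * T) ≤ G) :
    X ^ 2 / L ^ 2 + Y ^ 2 / T ^ 2 ≤ 3 * T / L ^ 2 * G := by
  have h7 : Y ^ 2 / T ^ 2 ≤ 1 / 3 * (X ^ 2 / L ^ 2) := by
    have h8 : (Y * Y₀ / T ^ 2) ^ 2 ≤ (X / (2 * L)) ^ 2 := by gcongr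
    have h9 : (Y ^ 2 / T ^ 2) * (Y₀ ^ 2 / T ^ 2) ≤ 1 / 4 * (X ^ 2 / L ^ 2) := by
      refine le_trans (le_of_eq ?_) (h8.trans (le_of_eq ?_))
      · ring
      · rw [div_pow, mul_pow]
        field_simp
        ring
    have h10 : 3 / 4 ≤ Y₀ ^ 2 / T ^ 2 := by
      rw [le_div_iff₀ (by positivity)]; exact hy34
    have h11 : 0 ≤ Y ^ 2 / T ^ 2 := by positivity
    nlinarith [mul_le_mul_of_nonneg_left h10 h11]
  have h8 : X ^ 2 / L ^ 2 ≤ 1 / L ^ 2 := by
    have : X ^ 2 ≤ 1 := by nlinarith [sq_nonneg Y]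
    gcongr
  have h9 : 3 * T / L ^ 2 * (1 / (2 * T)) ≤ 3 * T / L ^ 2 * G :=
    mul_le_mul_of_nonneg_left hgn (by positivity)
  have h10 : 3 * T / L ^ 2 * (1 / (2 * T)) = 3 / 2 * (1 / L ^ 2) := by
    field_simp
  have h11 : 0 ≤ 1 / L ^ 2 := by positivity
  linarith

lemma inner_parts {F : Type} [NormedAddCommGroup F] [InnerProductSpace ℝ F]
    {V : Submodule ℝ F} {L T : ℝ} {x₀ y₀ g : F} (hx₀V : x₀ ∈ V) (hy₀V : y₀ ∈ Vᗮ)
    (hgdef : g = (L ^ 2)⁻¹ • x₀ + (T ^ 2)⁻¹ • y₀) :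
    (∀ x ∈ V, ⟪g, x⟫ = ⟪x₀, x⟫ / L ^ 2) ∧ (∀ y ∈ Vᗮ, ⟪g, y⟫ = ⟪y₀, y⟫ / T ^ 2) := by
  have horth : ∀ x ∈ V, ∀ y ∈ Vᗮ, ⟪x, y⟫ = 0 := fun x hx y hy =>
    (Submodule.mem_orthogonal V y).1 hy x hx
  constructor
  · intro x hx
    have h1 : ⟪y₀, x⟫ = 0 := by rw [real_inner_comm]; exact horth x hx y₀ hy₀V
    rw [hgdef, inner_add_left, real_inner_smul_left, real_inner_smul_left, h1]
    ring
  · intro y hy
    rw [hgdef, inner_add_left, real_inner_smul_left, real_inner_smul_left,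
      horth x₀ hx₀V y hy]
    ring

lemma rest_curv {F : Type} [NormedAddCommGroup F] [InnerProductSpace ℝ F]
    [FiniteDimensional ℝ F] (V : Submodule ℝ F) {L T : ℝ} (hL0 : 0 < L) (hT0 : 0 < T)
    (hLT : T < L) {x₀ y₀ g : F} (hx₀V : x₀ ∈ V) (hy₀V : y₀ ∈ Vᗮ)
    (hgdef : g = (L ^ 2)⁻¹ • x₀ + (T ^ 2)⁻¹ • y₀) (hx₀L : ‖x₀‖ ≤ L / 2)
    (hy34 : 3 / 4 * T ^ 2 ≤ ‖y₀‖ ^ 2) (hgn : 1 / (2 * T) ≤ ‖g‖) {e₀ : F} (he₀V : e₀ ∈ Vᗮ)
    (hpar : ∀ y ∈ Vᗮ, ⟪e₀, y⟫ = 0 → ‖y‖ * ‖y₀‖ = |⟪y, y₀⟫|) {w : F} (hw1 : ‖w‖ = 1)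
    (hw0 : ⟪e₀, w⟫ = 0) (hwg : ⟪g, w⟫ = 0) : ⟪qop V L T w, w⟫ ≤ 3 * T / L ^ 2 * ‖g‖ := by
  obtain ⟨hgx, hgy⟩ := inner_parts hx₀V hy₀V hgdef
  rw [qop_quad, max_eq_left hLT.le]
  have h0 : ‖V.starProjection w‖ ^ 2 + ‖Vᗮ.starProjection w‖ ^ 2 = 1 := by
    rw [← norm_sq_split, hw1, one_pow]
  have hadd' := star_add V w
  have hxV : V.starProjection w ∈ V := Submodule.starProjection_apply_mem _ _
  have hyV : Vᗮ.starProjection w ∈ Vᗮ := Submodule.starProjection_apply_mem _ _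
  have hex : ⟪e₀, V.starProjection w⟫ = 0 := by
    rw [real_inner_comm]
    exact (Submodule.mem_orthogonal V e₀).1 he₀V _ hxV
  rw [← hadd', inner_add_right, hex, zero_add] at hw0
  rw [← hadd', inner_add_right, hgx _ hxV, hgy _ hyV] at hwg
  generalize V.starProjection w = x at *
  generalize Vᗮ.starProjection w = y at *
  have h5 := hpar y hyV hw0
  have h6 : ‖y‖ * ‖y₀‖ / T ^ 2 ≤ ‖x‖ / (2 * L) := by
    have h7 : |⟪y₀, y⟫| / T ^ 2 = |⟪x₀, x⟫| / L ^ 2 := by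
      have h8 : ⟪y₀, y⟫ / T ^ 2 = -(⟪x₀, x⟫ / L ^ 2) := by linarith
      have h9 := congrArg abs h8
      rwa [abs_neg, abs_div, abs_div, abs_of_pos (by positivity : 0 < T ^ 2),
        abs_of_pos (by positivity : 0 < L ^ 2)] at h9
    rw [h5, real_inner_comm, h7]
    have h8 : |⟪x₀, x⟫| ≤ L / 2 * ‖x‖ :=
      (abs_real_inner_le_norm _ _).trans
        (mul_le_mul_of_nonneg_right hx₀L (norm_nonneg _))
    rw [div_le_div_iff₀ (by positivity) (by positivity)]
    nlinarith [mul_le_mul_of_nonneg_right h8 hL0.le]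
  exact rest_bound hL0 hT0 (norm_nonneg _) (norm_nonneg _) (norm_nonneg _) h0 hy34 h6 hgn

lemma final_num {k : ℕ} {L T : ℝ} (hk : (1 : ℝ) ≤ k) (hL : L = 4 * ((k + 1 : ℕ) : ℝ))
    (hT0 : 0 < T) (hLT : T < L)
    (h1 : 1 ≤ (∑ i : Fin (k + 1), (Fin.cons (2 / T) (fun _ => 3 * T / L ^ 2) : Fin (k + 1) → ℝ) i) ^ 2
      - ∑ i : Fin (k + 1), (Fin.cons (2 / T) (fun _ => 3 * T / L ^ 2) : Fin (k + 1) → ℝ) i ^ 2) :
    False := by
  have hL0 : 0 < L := hT0.trans hLT
  rw [Fin.sum_univ_succ, Fin.sum_univ_succ] at h1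
  simp only [Fin.cons_zero, Fin.cons_succ, Finset.sum_const, Finset.card_univ,
    Fintype.card_fin, nsmul_eq_mul] at h1
  have h2 : (2 / T + (k : ℝ) * (3 * T / L ^ 2)) ^ 2
      - ((2 / T) ^ 2 + (k : ℝ) * (3 * T / L ^ 2) ^ 2)
      = 12 * k / L ^ 2 + 9 * (k ^ 2 - k) / L ^ 2 * (T ^ 2 / L ^ 2) := by
    field_simp
    ring
  rw [h2] at h1
  have h3 : T ^ 2 / L ^ 2 ≤ 1 := by
    rw [div_le_one (by positivity)]
    gcongr
  have h4 : 0 ≤ 9 * ((k : ℝ) ^ 2 - k) / L ^ 2 := by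
    have : 0 ≤ (k : ℝ) ^ 2 - k := by nlinarith
    positivity
  have h5 : 9 * ((k : ℝ) ^ 2 - k) / L ^ 2 * (T ^ 2 / L ^ 2) ≤ 9 * ((k : ℝ) ^ 2 - k) / L ^ 2 :=
    mul_le_of_le_one_right h4 h3
  have h6 : 12 * (k : ℝ) / L ^ 2 + 9 * ((k : ℝ) ^ 2 - k) / L ^ 2 < 1 := by
    rw [← add_div, div_lt_one (by positivity), hL]
    push_cast
    nlinarith
  linarith

/-- A boundary with scalar curvature at least one bounds no large flat disc of dimension
`n - 1`. -/
theorem no_disc {n : ℕ} (hn : 2 ≤ n) {K : Set (E (n + 1))} (hcl : IsClosed K) (hc : Convex ℝ K)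
    (hs : SmoothBoundary K) (hne : K ≠ univ)
    (hscal : ∀ (U : Set (E n)) (φ : E n → E (n + 1)), IsLocalParam (frontier K) U φ →
      ∀ x ∈ U, 1 ≤ scal (induced φ) x)
    {c : E (n + 1)} {V : Submodule ℝ (E (n + 1))} (hV : Module.finrank ℝ V + 1 = n)
    (hD : ∀ x ∈ V, ‖x‖ ≤ 8 * n → c + x ∈ interior K) : False := by
  have hnR : (2 : ℝ) ≤ n := by exact_mod_cast hn
  set L : ℝ := 4 * n with hL
  have hL0 : 0 < L := by positivity
  obtain ⟨T, hT0, hTK, p, hp, hpT⟩ := exists_max hcl hne V c hL0 (fun x hx hxL =>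
    hD x hx (by linarith))
  set m : ℝ := max L T with hm
  have hm0 : 0 < m := lt_max_of_lt_left hL0
  have hqf : ∀ z, ⟪qop V L T (z - c), z - c⟫ = qf V c L T z := fun z => by
    rw [qop_quad]; rfl
  have hS : ∀ z, ⟪qop V L T (z - c), z - c⟫ ≤ 1 → z ∈ K := fun z hz => hTK z (by rwa [hqf] at hz)
  have hp1 : ⟪qop V L T (p - c), p - c⟫ = 1 := quad_eq_one hcl hS hp (by rw [hqf]; exact hpT)
  have hsup := support hcl hc (qop_symm V L T) hS hp hp1
  set g := qop V L T (p - c) with hg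
  have hg0 : g ≠ 0 := by
    intro h
    rw [h, inner_zero_left] at hp1
    norm_num at hp1
  have hR : 0 < ‖g‖ := norm_pos_iff.2 hg0
  set ν : E (n + 1) := ‖g‖⁻¹ • g with hν
  have hν1 : ‖ν‖ = 1 := by
    rw [hν, norm_smul, norm_inv, norm_norm, inv_mul_cancel₀ hR.ne']
  have hsupν : ∀ z ∈ K, ⟪ν, z - p⟫ ≤ 0 := by
    intro z hz
    rw [hν, real_inner_smul_left]
    exact mul_nonpos_of_nonneg_of_nonpos (inv_nonneg.2 hR.le) (hsup z hz)
  have hperp : ∀ w : E (n + 1), ⟪w, ν⟫ = 0 → ⟪g, w⟫ = 0 := by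
    intro w hw
    rw [hν, inner_smul_right] at hw
    rcases mul_eq_zero.1 hw with h | h
    · exact absurd h (inv_ne_zero hR.ne')
    · rw [real_inner_comm]; exact h
  -- reduction to an estimate of the curvatures
  have main : ∀ (e : Fin n → E (n + 1)) (A : Fin n → ℝ), Orthonormal ℝ e →
      (∀ i, ⟪e i, ν⟫ = 0) → (∀ i, ⟪qop V L T (e i), e i⟫ / ‖g‖ ≤ A i) →
      1 ≤ (∑ i, A i) ^ 2 - ∑ i, A i ^ 2 := by
    intro e A he heν hA
    obtain ⟨U, φ, hφ, x, hx, hle⟩ := touch hcl hc hs hp hν1 hsupν he heν (A := A) (by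
      intro i a ha
      exact parab (qop_symm V L T) hS hp1 (hperp _ (heν i)) hg0 ((hA i).trans_lt ha))
    exact (hscal U φ hφ x hx).trans hle
  have hadd : V.starProjection (p - c) + Vᗮ.starProjection (p - c) = p - c := star_add V _
  set x₀ := V.starProjection (p - c) with hx₀
  set y₀ := Vᗮ.starProjection (p - c) with hy₀
  have hq : ‖x₀‖ ^ 2 / m ^ 2 + ‖y₀‖ ^ 2 / T ^ 2 = 1 := by
    rw [← hp1, hg, qop_quad]
  rcases le_or_gt L T with hLT | hLT
  · -- the ball case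
    have hmT : m = T := max_eq_right hLT
    have hop : ∀ w, qop V L T w = (T ^ 2)⁻¹ • w := by
      intro w
      rw [qop_apply, ← hm, hmT, ← smul_add, star_add]
    have hgT : g = (T ^ 2)⁻¹ • (p - c) := hop _
    have hpc : ‖p - c‖ = T := by
      have h1 : ‖p - c‖ ^ 2 / T ^ 2 = 1 := by
        rw [norm_sq_split V (p - c), add_div, ← hq, hmT]
      rw [div_eq_one_iff_eq (by positivity)] at h1
      exact (pow_left_inj₀ (norm_nonneg _) hT0.le (by norm_num)).1 h1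
    have hgn : ‖g‖ = T⁻¹ := by
      rw [hgT, norm_smul, hpc, norm_inv, norm_pow, Real.norm_eq_abs, abs_of_pos hT0]
      field_simp
    obtain ⟨e, he, heν⟩ := exists_frame' hν1
    have h1 := main e (fun _ => T⁻¹) he heν (by
      intro i
      rw [hop, real_inner_smul_left, real_inner_self_eq_norm_sq, he.1 i, hgn]
      apply le_of_eq
      field_simp)
    rw [Finset.sum_const, Finset.sum_const, Finset.card_univ, Fintype.card_fin, nsmul_eq_mul,
      nsmul_eq_mul] at h1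
    have h2 : (n : ℝ) * T⁻¹ ≤ 1 / 4 := by
      rw [← div_eq_mul_inv, div_le_div_iff₀ hT0 (by norm_num)]
      linarith
    have h3 : 0 ≤ (n : ℝ) * T⁻¹ := by positivity
    have h4 : 0 ≤ (n : ℝ) * T⁻¹ ^ 2 := by positivity
    nlinarith
  · -- the flat case
    have hmL : m = L := max_eq_left hLT.le
    rw [hmL] at hq
    have hgdef : g = (L ^ 2)⁻¹ • x₀ + (T ^ 2)⁻¹ • y₀ := by
      rw [hg, qop_apply, ← hm, hmL]
    have hx₀V : x₀ ∈ V := Submodule.starProjection_apply_mem _ _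
    have hy₀V : y₀ ∈ Vᗮ := Submodule.starProjection_apply_mem _ _
    obtain ⟨hgx, hgy⟩ := inner_parts hx₀V hy₀V hgdef
    have hx₀L : ‖x₀‖ ≤ L / 2 := by
      rcases eq_or_ne x₀ 0 with h0 | h0
      · rw [h0, norm_zero]; linarith
      · have hxp : 0 < ‖x₀‖ := norm_pos_iff.2 h0
        have h1 := hsup (c + (2 * L / ‖x₀‖) • x₀) (interior_subset (hD _
          (V.smul_mem _ hx₀V) (by
            rw [norm_smul, Real.norm_eq_abs, abs_of_pos (by positivity),
              div_mul_cancel₀ _ hxp.ne']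
            linarith)))
        have h2 : c + (2 * L / ‖x₀‖) • x₀ - p = (2 * L / ‖x₀‖) • x₀ - (p - c) := by abel
        rw [h2, inner_sub_right, hp1, inner_smul_right, hgx _ hx₀V,
          real_inner_self_eq_norm_sq] at h1
        have h3 : 2 * L / ‖x₀‖ * (‖x₀‖ ^ 2 / L ^ 2) = 2 * ‖x₀‖ / L := by
          field_simp
        rw [h3] at h1
        have h4 : 2 * ‖x₀‖ / L ≤ 1 := by linarith
        rw [div_le_one hL0] at h4
        linarith
    have hx4 : ‖x₀‖ ^ 2 / L ^ 2 ≤ 1 / 4 := by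
      rw [div_le_div_iff₀ (by positivity) (by norm_num)]
      have := mul_self_le_mul_self (norm_nonneg x₀) hx₀L
      nlinarith
    have hy34 : 3 / 4 * T ^ 2 ≤ ‖y₀‖ ^ 2 := by
      have h1 : 3 / 4 ≤ ‖y₀‖ ^ 2 / T ^ 2 := by linarith
      rwa [le_div_iff₀ (by positivity)] at h1
    have hy₀0 : y₀ ≠ 0 := by
      intro h
      rw [h, norm_zero] at hy34
      have : 0 < T ^ 2 := by positivity
      norm_num at hy34
      linarith
    have hyp : 0 < ‖y₀‖ := norm_pos_iff.2 hy₀0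
    have hyT : T / 2 ≤ ‖y₀‖ := by
      rw [← pow_le_pow_iff_left₀ (by positivity) (norm_nonneg _) (n := 2) (by norm_num)]
      nlinarith
    have hgn : 1 / (2 * T) ≤ ‖g‖ := by
      have h1 : ⟪g, y₀⟫ ≤ ‖g‖ * ‖y₀‖ := real_inner_le_norm _ _
      rw [hgy _ hy₀V, real_inner_self_eq_norm_sq] at h1
      have h2 : ‖y₀‖ / T ^ 2 ≤ ‖g‖ := by
        rw [← mul_le_mul_iff_left₀ hyp]
        refine le_trans (le_of_eq ?_) h1
        ring
      refine le_trans ?_ h2
      rw [div_le_div_iff₀ (by positivity) (by positivity)]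
      nlinarith
    have hW : Module.finrank ℝ Vᗮ = 2 := by
      have h1 := V.finrank_add_finrank_orthogonal
      have h2 : Module.finrank ℝ (E (n + 1)) = n + 1 := by simp
      omega
    obtain ⟨e₀, he₀V, he₀1, he₀y, hpar⟩ := exists_perp Vᗮ hW hy₀V hy₀0
    have he₀ν : ⟪e₀, ν⟫ = 0 := by
      rw [hν, inner_smul_right, real_inner_comm, hgy _ he₀V, real_inner_comm, he₀y]
      simp
    obtain ⟨e, he, heν, he0⟩ := exists_frame (by omega : 0 < n) hν1 he₀1 he₀ν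
    obtain ⟨k, rfl⟩ : ∃ k, n = k + 1 := ⟨n - 1, by omega⟩
    have he0' : e 0 = e₀ := he0
    have h1 := main e (Fin.cons (2 / T) fun _ => 3 * T / L ^ 2) he heν (by
      intro i
      rw [div_le_iff₀ hR]
      refine Fin.cases ?_ (fun j => ?_) i
      · rw [he0', Fin.cons_zero, qop_quad]
        have h2 : V.starProjection e₀ = 0 := by
          rw [Submodule.starProjection_apply_eq_zero_iff]; exact he₀V
        have h3 : Vᗮ.starProjection e₀ = e₀ := Submodule.starProjection_eq_self_iff.2 he₀V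
        rw [h2, h3, norm_zero, he₀1]
        have h4 : 2 / T * (1 / (2 * T)) ≤ 2 / T * ‖g‖ :=
          mul_le_mul_of_nonneg_left hgn (by positivity)
        refine le_trans (le_of_eq ?_) h4
        field_simp
        ring
      · rw [Fin.cons_succ]
        refine rest_curv V hL0 hT0 hLT hx₀V hy₀V hgdef hx₀L hy34 hgn he₀V hpar (he.1 _) ?_
          (hperp _ (heν _))
        rw [← he0']
        exact he.2 (Fin.succ_ne_zero j).symm)
    refine final_num (by push_cast at hnR; linarith) hL hT0 hLT h1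

end Vale.Agent.P210.Cvx
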