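import Vale.Agent.P210.H684.Defs
import Mathlib.Analysis.InnerProductSpace.Projection.Minimal
import Mathlib.Analysis.LocallyConvex.Separation

set_option linter.all false

open scoped ENNReal ContDiff Topology NNReal RealInnerProductSpace
open Set

namespace Vale.Agent.P210.Cvx

variable {N : ℕ}

/-- The metric projection onto a closed convex set. -/
theorem exists_proj {K : Set (E N)} (hK : IsClosed K) (hc : Convex ℝ K) (hne : K.Nonempty) :
    ∃ P : E N → E N, (∀ z, P z ∈ K) ∧ (∀ z ∈ K, P z = z) ∧ LipschitzWith 1 P ∧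
      ∀ z, z ∉ interior K → P z ∈ frontier K := by
  have h := fun u => exists_norm_eq_iInf_of_complete_convex hne hK.isComplete hc u
  choose P hP using h
  have hin : ∀ z, ∀ w ∈ K, ⟪z - P z, w - P z⟫ ≤ 0 := fun z =>
    (norm_eq_iInf_iff_real_inner_le_zero hc (hP z).1).1 (hP z).2
  have hfix : ∀ z ∈ K, P z = z := by
    intro z hz
    have h1 := hin z z hz
    rw [real_inner_self_eq_norm_sq] at h1
    have h2 : ‖z - P z‖ = 0 := by nlinarith [norm_nonneg (z - P z)]
    exact (sub_eq_zero.1 (norm_eq_zero.1 h2)).symm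
  refine ⟨P, fun z => (hP z).1, hfix, ?_, ?_⟩
  · refine LipschitzWith.of_dist_le_mul fun z z' => ?_
    rw [NNReal.coe_one, one_mul, dist_eq_norm, dist_eq_norm]
    have h1 := hin z (P z') (hP z').1
    have h2 := hin z' (P z) (hP z).1
    have h3 : ‖P z - P z'‖ ^ 2 ≤ ⟪z - z', P z - P z'⟫ := by
      rw [← real_inner_self_eq_norm_sq]
      have h4 : ⟪z - z', P z - P z'⟫ - ⟪P z - P z', P z - P z'⟫
          = -⟪z - P z, P z' - P z⟫ - ⟪z' - P z', P z - P z'⟫ := by
        have e1 : z - z' = (z - P z) + (P z - P z') - (z' - P z') := by abel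
        have e2 : P z' - P z = -(P z - P z') := by abel
        rw [e1, inner_sub_left, inner_add_left, e2, inner_neg_right]
        ring
      linarith
    have h5 := real_inner_le_norm (z - z') (P z - P z')
    rcases eq_or_lt_of_le (norm_nonneg (P z - P z')) with h0 | h0
    · rw [← h0]; exact norm_nonneg _
    · have : ‖P z - P z'‖ * ‖P z - P z'‖ ≤ ‖z - z'‖ * ‖P z - P z'‖ := by nlinarith
      exact le_of_mul_le_mul_right this h0
  · intro z hz
    rw [frontier, hK.closure_eq]
    refine ⟨(hP z).1, fun hint => ?_⟩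
    by_cases hzK : z ∈ K
    · rw [hfix z hzK] at hint
      exact hz hint
    · have hne' : z - P z ≠ 0 := fun h0 => hzK (by
        rw [sub_eq_zero.1 h0]; exact (hP z).1)
      have hcont : Filter.Tendsto (fun t : ℝ => P z + t • (z - P z)) (𝓝[>] 0) (𝓝 (P z)) := by
        have : Filter.Tendsto (fun t : ℝ => P z + t • (z - P z)) (𝓝 0)
            (𝓝 (P z + (0 : ℝ) • (z - P z))) :=
          (continuous_const.add (continuous_id.smul continuous_const)).tendsto 0
        rw [zero_smul, add_zero] at this
        exact this.mono_left nhdsWithin_le_nhds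
      have hev : ∀ᶠ t : ℝ in 𝓝[>] 0, P z + t • (z - P z) ∈ K :=
        hcont (mem_interior_iff_mem_nhds.1 hint)
      obtain ⟨t, ht, htp⟩ := (hev.and self_mem_nhdsWithin).exists
      have htp' : (0 : ℝ) < t := htp
      have h1 := hin z _ ht
      rw [add_sub_cancel_left, real_inner_smul_right, real_inner_self_eq_norm_sq] at h1
      have h2 : 0 < ‖z - P z‖ := norm_pos_iff.2 hne'
      have : 0 < t * ‖z - P z‖ ^ 2 := by positivity
      linarith

lemma intrinsicDist_le {M : Set (E N)} {γ : ℝ → E N} {C : ℝ≥0} (hγ : LipschitzWith C γ)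
    (hM : ∀ t ∈ Icc (0 : ℝ) 1, γ t ∈ M) : intrinsicDist M (γ 0) (γ 1) ≤ C := by
  refine (iInf₂_le γ ⟨hγ.continuous.continuousOn, rfl, rfl, hM⟩).trans ?_
  have h1 : eVariationOn (γ ∘ id) (Icc (0 : ℝ) 1) ≤ C * eVariationOn (id : ℝ → ℝ) (Icc 0 1) :=
    LipschitzOnWith.comp_eVariationOn_le (t := univ) (hγ.lipschitzOnWith) (mapsTo_univ _ _)
  have h2 : eVariationOn (id : ℝ → ℝ) (Icc 0 1) ≤ 1 := by
    have := (monotone_id.monotoneOn (Icc (0 : ℝ) 1)).eVariationOn_le
      (left_mem_Icc.2 zero_le_one) (right_mem_Icc.2 zero_le_one)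
    simpa using this
  rw [Function.comp_id] at h1
  calc eVariationOn γ (Icc 0 1) ≤ C * eVariationOn (id : ℝ → ℝ) (Icc 0 1) := h1
    _ ≤ C * 1 := by gcongr
    _ = C := mul_one _

/-- The first clamp function of the polygonal path. -/
noncomputable def cf (t : ℝ) : ℝ := min (3 * t) (min 1 (3 * (1 - t)))

/-- The second clamp function of the polygonal path. -/
noncomputable def cg (t : ℝ) : ℝ := max 0 (min 1 (3 * t - 1))

lemma lip_cf : LipschitzWith 3 cf := by
  have h1 : LipschitzWith 3 (fun t : ℝ => 3 * t) := LipschitzWith.of_dist_le_mul fun s t => by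
    rw [Real.dist_eq, Real.dist_eq, ← mul_sub, abs_mul]; norm_num
  have h2 : LipschitzWith 3 (fun t : ℝ => 3 * (1 - t)) := LipschitzWith.of_dist_le_mul fun s t => by
    rw [Real.dist_eq, Real.dist_eq, ← mul_sub, abs_mul,
      show (1 - s - (1 - t)) = -(s - t) by ring, abs_neg]
    norm_num
  have h3 : LipschitzWith 3 (fun _ : ℝ => (1 : ℝ)) := (LipschitzWith.const 1).weaken (by norm_num)
  have h4 := h1.min (h3.min h2)
  have h5 : cf = fun x => min (3 * x) (min 1 (3 * (1 - x))) := rfl
  rw [h5]
  simpa using h4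

lemma lip_cg : LipschitzWith 3 cg := by
  have h1 : LipschitzWith 3 (fun t : ℝ => 3 * t - 1) := LipschitzWith.of_dist_le_mul fun s t => by
    rw [Real.dist_eq, Real.dist_eq, show (3 * s - 1 - (3 * t - 1)) = 3 * (s - t) by ring, abs_mul]
    norm_num
  have h3 : LipschitzWith 3 (fun _ : ℝ => (1 : ℝ)) := (LipschitzWith.const 1).weaken (by norm_num)
  have h0 : LipschitzWith 3 (fun _ : ℝ => (0 : ℝ)) := (LipschitzWith.const 0).weaken (by norm_num)
  have h4 := h0.max (h3.min h1)
  have h5 : cg = fun x => max 0 (min 1 (3 * x - 1)) := rfl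
  rw [h5]
  simpa using h4

/-- Fibres of the projection along three thin directions have small intrinsic diameter. -/
theorem dist_fibre {K : Set (E N)} (hK : IsClosed K) (hc : Convex ℝ K)
    {p₀ : E N} {D : ℝ} (hD : 0 < D) {f : Fin 3 → E N} (hf : Orthonormal ℝ f)
    (hw : ∀ z ∈ K, ∀ i, |⟪f i, z - p₀⟫| ≤ D) {a b : E N} (ha : a ∈ frontier K)
    (hb : b ∈ frontier K) (hab : b - a ∈ Submodule.span ℝ (range f)) :
    intrinsicDist (frontier K) a b ≤ ENNReal.ofReal (39 * D) := by
  have haK : a ∈ K := by rw [← hK.closure_eq]; exact frontier_subset_closure ha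
  have hbK : b ∈ K := by rw [← hK.closure_eq]; exact frontier_subset_closure hb
  have hai : a ∉ interior K := ha.2
  have hbi : b ∉ interior K := hb.2
  obtain ⟨la, hla⟩ := geometric_hahn_banach_open_point hc.interior isOpen_interior hai
  obtain ⟨lb, hlb⟩ := geometric_hahn_banach_open_point hc.interior isOpen_interior hbi
  -- a unit vector in the span of `f` on which both functionals vanish
  obtain ⟨c, hc1, hca, hcb⟩ : ∃ c : Fin 3 → ℝ, ∑ i, c i ^ 2 = 1 ∧ ∑ i, c i * la (f i) = 0 ∧
      ∑ i, c i * lb (f i) = 0 := by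
    let T : (Fin 3 → ℝ) →ₗ[ℝ] (Fin 2 → ℝ) :=
      { toFun := fun c => ![∑ i, c i * la (f i), ∑ i, c i * lb (f i)]
        map_add' := by
          intro x y
          ext j
          fin_cases j <;> simp [Finset.sum_add_distrib, add_mul]
        map_smul' := by
          intro r x
          ext j
          fin_cases j <;> simp [Finset.mul_sum, mul_assoc] }
    have hker : LinearMap.ker T ≠ ⊥ := LinearMap.ker_ne_bot_of_finrank_lt (by simp)
    obtain ⟨c, hcT, hc0⟩ := (Submodule.ne_bot_iff _).1 hker
    have hs : 0 < ∑ i, c i ^ 2 := by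
      obtain ⟨i, hi⟩ := Function.ne_iff.1 hc0
      have : 0 < c i ^ 2 := by
        have : c i ≠ 0 := hi
        positivity
      exact lt_of_lt_of_le this
        (Finset.single_le_sum (f := fun i => c i ^ 2) (fun _ _ => sq_nonneg _) (Finset.mem_univ i))
    have h0 : T c = 0 := hcT
    have ha0 : ∑ i, c i * la (f i) = 0 := by simpa [T] using congrFun h0 0
    have hb0 : ∑ i, c i * lb (f i) = 0 := by simpa [T] using congrFun h0 1
    set s := Real.sqrt (∑ i, c i ^ 2) with hs'
    have hsp : 0 < s := Real.sqrt_pos.2 hs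
    refine ⟨fun i => c i / s, ?_, ?_, ?_⟩
    · simp_rw [div_pow]
      rw [← Finset.sum_div, hs', Real.sq_sqrt hs.le]
      exact div_self hs.ne'
    · have : ∀ i, c i / s * la (f i) = (1 / s) * (c i * la (f i)) := fun i => by ring
      simp_rw [this]
      rw [← Finset.mul_sum, ha0, mul_zero]
    · have : ∀ i, c i / s * lb (f i) = (1 / s) * (c i * lb (f i)) := fun i => by ring
      simp_rw [this]
      rw [← Finset.mul_sum, hb0, mul_zero]
  set w : E N := ∑ i, c i • f i with hwdef
  have hci : ∀ i, |c i| ≤ 1 := by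
    intro i
    have : c i ^ 2 ≤ 1 := by
      rw [← hc1]
      exact Finset.single_le_sum (f := fun i => c i ^ 2) (fun _ _ => sq_nonneg _)
        (Finset.mem_univ i)
    rwa [sq_le_one_iff_abs_le_one] at this
  have hww : ⟪w, w⟫ = 1 := by
    rw [hwdef, hf.inner_sum]
    simp only [conj_trivial]
    rw [← hc1]
    exact Finset.sum_congr rfl fun i _ => by ring
  have hwn : ‖w‖ = 1 := by
    have : ‖w‖ ^ 2 = 1 := by rw [← real_inner_self_eq_norm_sq, hww]
    nlinarith [norm_nonneg w]
  have hlaw : la w = 0 := by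
    rw [hwdef, map_sum]
    simpa using hca
  have hlbw : lb w = 0 := by
    rw [hwdef, map_sum]
    simpa using hcb
  have hslab : ∀ z ∈ K, |⟪w, z - p₀⟫| ≤ 3 * D := by
    intro z hz
    rw [hwdef, sum_inner]
    refine (Finset.abs_sum_le_sum_abs _ _).trans ?_
    calc ∑ i, |⟪c i • f i, z - p₀⟫| ≤ ∑ i : Fin 3, D := by
          refine Finset.sum_le_sum fun i _ => ?_
          rw [real_inner_smul_left, abs_mul]
          calc |c i| * |⟪f i, z - p₀⟫| ≤ 1 * D :=
                mul_le_mul (hci i) (hw z hz i) (abs_nonneg _) zero_le_one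
            _ = D := one_mul D
      _ = 3 * D := by simp
  -- bound of `‖b - a‖`
  have hba : ‖b - a‖ ≤ 6 * D := by
    have hrep : b - a = ∑ i, ⟪f i, b - a⟫ • f i := by
      obtain ⟨d, hd⟩ := (Submodule.mem_span_range_iff_exists_fun ℝ).1 hab
      have h1 : ∀ i, ⟪f i, b - a⟫ = d i := by
        intro i
        rw [← hd]
        exact hf.inner_right_fintype d i
      simp_rw [h1]
      exact hd.symm
    rw [hrep]
    refine (norm_sum_le _ _).trans ?_
    calc ∑ i, ‖⟪f i, b - a⟫ • f i‖ ≤ ∑ i : Fin 3, 2 * D := by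
          refine Finset.sum_le_sum fun i _ => ?_
          rw [norm_smul, hf.1 i, mul_one, Real.norm_eq_abs]
          have e : ⟪f i, b - a⟫ = ⟪f i, b - p₀⟫ - ⟪f i, a - p₀⟫ := by
            rw [← inner_sub_right]; congr 1; abel
          rw [e]
          have h1 := hw b hbK i
          have h2 := hw a haK i
          rw [abs_le] at h1 h2 ⊢
          constructor <;> linarith [h1.1, h1.2, h2.1, h2.2]
      _ = 6 * D := by simp; ring
  obtain ⟨P, hPK, hPfix, hPlip, hPfr⟩ := exists_proj hK hc ⟨a, haK⟩
  set L : ℝ → E N := fun t => a + (cf t) • ((7 * D) • w) + (cg t) • (b - a) with hL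
  have hL0 : L 0 = a := by simp [hL, cf, cg]
  have hL1 : L 1 = b := by
    have h1 : cf 1 = 0 := by simp [cf]
    have h2 : cg 1 = 1 := by simp [cg]; norm_num
    simp [hL, h1, h2]
  have hnot : ∀ t ∈ Icc (0 : ℝ) 1, L t ∉ interior K := by
    intro t ht hint
    rcases le_total t (1 / 3) with h1 | h1
    · have e2 : cg t = 0 := by
        unfold cg
        rw [max_eq_left]
        exact (min_le_right _ _).trans (by linarith)
      have := hla _ hint
      simp only [hL, e2, map_add, map_smul, hlaw, smul_zero, zero_smul, add_zero] at this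
      exact lt_irrefl _ this
    · rcases le_total t (2 / 3) with h2 | h2
      · have e1 : cf t = 1 := by
          unfold cf
          rw [min_eq_left (a := (1 : ℝ)) (by linarith), min_eq_right (by linarith)]
        have e2 : cg t = 3 * t - 1 := by
          unfold cg
          rw [min_eq_right (by linarith), max_eq_right (by linarith)]
        have hz := hslab _ (interior_subset hint)
        have e3 : L t - p₀ = (1 - (3 * t - 1)) • (a - p₀) + (3 * t - 1) • (b - p₀)
            + (7 * D) • w := by
          simp only [hL, e1, e2, one_smul]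
          rw [sub_smul (1 : ℝ), one_smul]
          rw [show b - a = (b - p₀) - (a - p₀) by abel, smul_sub (3 * t - 1)]
          abel
        rw [e3, inner_add_right, inner_add_right, real_inner_smul_right, real_inner_smul_right,
          real_inner_smul_right, hww] at hz
        have ha' := (abs_le.1 (hslab a haK)).1
        have hb' := (abs_le.1 (hslab b hbK)).1
        have hz' := (abs_le.1 hz).2
        nlinarith
      · have e1 : cg t = 1 := by
          unfold cg
          rw [min_eq_left (by linarith), max_eq_right zero_le_one]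
        have := hlb _ hint
        simp only [hL, e1, map_add, map_smul, hlbw, smul_zero, one_smul, map_sub] at this
        linarith
  have hLlip : LipschitzWith (Real.toNNReal (39 * D)) L := by
    refine LipschitzWith.of_dist_le_mul fun s t => ?_
    rw [Real.coe_toNNReal _ (by positivity), dist_eq_norm, Real.dist_eq]
    have e : L s - L t = (cf s - cf t) • ((7 * D) • w) + (cg s - cg t) • (b - a) := by
      simp only [hL, sub_smul]
      abel
    rw [e]
    have h1 : |cf s - cf t| ≤ 3 * |s - t| := by
      have := lip_cf.dist_le_mul s t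
      simpa [Real.dist_eq] using this
    have h2 : |cg s - cg t| ≤ 3 * |s - t| := by
      have := lip_cg.dist_le_mul s t
      simpa [Real.dist_eq] using this
    calc ‖(cf s - cf t) • ((7 * D) • w) + (cg s - cg t) • (b - a)‖
        ≤ ‖(cf s - cf t) • ((7 * D) • w)‖ + ‖(cg s - cg t) • (b - a)‖ := norm_add_le _ _
      _ = |cf s - cf t| * (7 * D) + |cg s - cg t| * ‖b - a‖ := by
          rw [norm_smul, norm_smul, norm_smul, hwn, Real.norm_eq_abs, Real.norm_eq_abs,
            Real.norm_eq_abs, abs_of_pos (by positivity : 0 < 7 * D), mul_one]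
      _ ≤ (3 * |s - t|) * (7 * D) + (3 * |s - t|) * (6 * D) := by
          gcongr
      _ = 39 * D * |s - t| := by ring
  have hfin := intrinsicDist_le (M := frontier K) (γ := P ∘ L) (C := 1 * Real.toNNReal (39 * D))
    (hPlip.comp hLlip) (fun t ht => hPfr _ (hnot t ht))
  have e0 : (P ∘ L) 0 = a := by simp only [Function.comp, hL0]; exact hPfix a haK
  have e1 : (P ∘ L) 1 = b := by simp only [Function.comp, hL1]; exact hPfix b hbK
  rw [e0, e1, one_mul] at hfin
  exact hfin

end Vale.Agent.P210.Cvx
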