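import Vale.Agent.P210.H684.Defs
import Mathlib.Analysis.InnerProductSpace.Projection.Basic
import Mathlib.Analysis.InnerProductSpace.PiL2
import Mathlib.Analysis.Convex.Combination

set_option linter.all false

open scoped ENNReal ContDiff Topology NNReal RealInnerProductSpace
open Set

namespace Vale.Agent.P210.Cvx

variable {F : Type} [NormedAddCommGroup F] [InnerProductSpace ℝ F] [FiniteDimensional ℝ F]

/-- The span of the first `k` vectors of a sequence. -/
def Wk (u : ℕ → F) (k : ℕ) : Submodule ℝ F := Submodule.span ℝ (u '' Iio k)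

lemma Wk_zero (u : ℕ → F) : Wk u 0 = ⊥ := by
  unfold Wk
  rw [show (Iio 0 : Set ℕ) = ∅ from by ext; simp, image_empty, Submodule.span_empty]

lemma Wk_succ (u : ℕ → F) (k : ℕ) : Wk u (k + 1) = Wk u k ⊔ Submodule.span ℝ {u k} := by
  unfold Wk
  rw [← Submodule.span_union, show (Iio (k + 1) : Set ℕ) = Iio k ∪ {k} from by
    ext x; simp [Order.lt_add_one_iff, le_iff_lt_or_eq, or_comm], image_union, image_singleton]

lemma finrank_Wk_le (u : ℕ → F) (k : ℕ) : Module.finrank ℝ (Wk u k) ≤ k := by
  classical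
  have h : u '' Iio k = ((Finset.range k).image u : Set F) := by
    ext x; simp
  unfold Wk
  rw [h]
  exact (finrank_span_finset_le_card _).trans
    (Finset.card_image_le.trans (Finset.card_range k).le)

/-- `u k` is a farthest point of `X` from the span of the previous ones. -/
def Greedy (X : Set F) (u : ℕ → F) (m : ℕ) : Prop :=
  ∀ k < m, u k ∈ X ∧ ∀ z ∈ X, ‖(Wk u k)ᗮ.starProjection z‖ ≤ ‖(Wk u k)ᗮ.starProjection (u k)‖

lemma exists_greedy {X : Set F} (hX : IsCompact X) (hne : X.Nonempty) (m : ℕ) :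
    ∃ u : ℕ → F, Greedy X u m := by
  classical
  induction m with
  | zero => exact ⟨fun _ => 0, fun k hk => absurd hk (Nat.not_lt_zero k)⟩
  | succ m ih =>
    obtain ⟨u, hu⟩ := ih
    obtain ⟨v, hv, hmax⟩ := hX.exists_isMaxOn hne
      (f := fun z => ‖(Wk u m)ᗮ.starProjection z‖)
      ((Wk u m)ᗮ.starProjection.continuous.norm.continuousOn)
    refine ⟨Function.update u m v, ?_⟩
    have hW : ∀ k ≤ m, Wk (Function.update u m v) k = Wk u k := by
      intro k hk
      unfold Wk
      congr 1
      apply image_congr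
      intro i hi
      have : i ≠ m := by
        have : i < k := hi
        omega
      exact Function.update_of_ne this _ _
    intro k hk
    have hWk := hW k (by omega)
    rcases eq_or_ne k m with rfl | hkm
    · simp only [Function.update_self, hWk]
      exact ⟨hv, fun z hz => hmax hz⟩
    · simp only [Function.update_of_ne hkm, hWk]
      exact hu k (by omega)

/-- Either some span of fewer than `m` vectors is close to `X`, or `X` contains an `m`-disc. -/
theorem thin {X : Set F} (hX : IsCompact X) (hc : Convex ℝ X) (h0 : (0 : F) ∈ X) {m : ℕ}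
    (hm : 0 < m) {r : ℝ} (hr : 0 < r) :
    (∃ W : Submodule ℝ F, Module.finrank ℝ W < m ∧
      ∀ z ∈ X, ‖Wᗮ.starProjection z‖ ≤ 2 * m * 2 ^ m * r) ∨
    ∃ (c : F) (W : Submodule ℝ F), Module.finrank ℝ W = m ∧ ∀ w ∈ W, ‖w‖ ≤ r → c + w ∈ X := by
  classical
  obtain ⟨u, hu⟩ := exists_greedy hX ⟨0, h0⟩ m
  set H : ℝ := 2 * m * 2 ^ m * r with hH
  have hmR : (1 : ℝ) ≤ m := by exact_mod_cast hm
  have hHp : 0 < H := by positivity
  by_cases hex : ∃ k < m, ‖(Wk u k)ᗮ.starProjection (u k)‖ ≤ H
  · obtain ⟨k, hk, hkH⟩ := hex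
    exact Or.inl ⟨Wk u k, (finrank_Wk_le u k).trans_lt hk, fun z hz =>
      ((hu k hk).2 z hz).trans hkH⟩
  push Not at hex
  right
  -- dimension
  have hdim : ∀ k ≤ m, k ≤ Module.finrank ℝ (Wk u k) := by
    intro k
    induction k with
    | zero => intro _; exact Nat.zero_le _
    | succ k ih =>
      intro hk
      have h1 := ih (by omega)
      have hlt : Wk u k < Wk u (k + 1) := by
        rw [Wk_succ]
        refine lt_of_le_of_ne le_sup_left fun heq => ?_
        have hmem : u k ∈ Wk u k := by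
          rw [heq]
          exact le_sup_right (a := Wk u k) (Submodule.mem_span_singleton_self (u k))
        have h2 : (Wk u k)ᗮ.starProjection (u k) = 0 := by
          rw [Submodule.starProjection_apply_eq_zero_iff, Submodule.orthogonal_orthogonal]
          exact hmem
        have h3 := hex k (by omega)
        rw [h2, norm_zero] at h3
        linarith
      have h2 := Submodule.finrank_lt_finrank_of_lt hlt
      omega
  have hfin : Module.finrank ℝ (Wk u m) = m := le_antisymm (finrank_Wk_le u m) (hdim m le_rfl)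
  refine ⟨∑ k ∈ Finset.range m, (1 / (2 * (m : ℝ))) • u k, Wk u m, hfin, ?_⟩
  intro w hw hwr
  -- extraction of coefficients
  have key : ∀ i ≤ m, ∃ b : ℕ → ℝ, w - ∑ k ∈ Finset.Ico (m - i) m, b k • u k ∈ Wk u (m - i) ∧
      ∑ k ∈ Finset.Ico (m - i) m, |b k| ≤ (2 ^ i - 1) * (r / H) := by
    intro i
    induction i with
    | zero => intro _; exact ⟨fun _ => 0, by simpa using hw, by simp⟩
    | succ i ih =>
      intro hi
      obtain ⟨b, hb, hbs⟩ := ih (by omega)
      set j := m - (i + 1) with hj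
      have hj1 : m - i = j + 1 := by omega
      have hjm : j < m := by omega
      rw [hj1] at hb hbs
      rw [Wk_succ] at hb
      obtain ⟨y, hy, x, hx, hyx⟩ := Submodule.mem_sup.1 hb
      obtain ⟨β, rfl⟩ := Submodule.mem_span_singleton.1 hx
      set Q := (Wk u j)ᗮ.starProjection with hQ
      have hQy : Q y = 0 := by
        rw [hQ, Submodule.starProjection_apply_eq_zero_iff, Submodule.orthogonal_orthogonal]
        exact hy
      have hdj := hex j hjm
      have hβ : |β| * ‖Q (u j)‖ ≤ r + (∑ k ∈ Finset.Ico (j + 1) m, |b k|) * ‖Q (u j)‖ := by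
        have h1 : Q (β • u j) = Q w - ∑ k ∈ Finset.Ico (j + 1) m, b k • Q (u k) := by
          have : Q (y + β • u j) = Q (w - ∑ k ∈ Finset.Ico (j + 1) m, b k • u k) := by rw [hyx]
          rw [map_add, hQy, zero_add, map_sub, map_sum] at this
          simpa using this
        have h2 : |β| * ‖Q (u j)‖ = ‖Q (β • u j)‖ := by
          rw [map_smul, norm_smul, Real.norm_eq_abs]
        rw [h2, h1]
        refine (norm_sub_le _ _).trans ?_
        have h3 : ‖Q w‖ ≤ r := (Submodule.norm_starProjection_apply_le _ _).trans hwr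
        have h4 : ‖∑ k ∈ Finset.Ico (j + 1) m, b k • Q (u k)‖
            ≤ (∑ k ∈ Finset.Ico (j + 1) m, |b k|) * ‖Q (u j)‖ := by
          refine (norm_sum_le _ _).trans ?_
          rw [Finset.sum_mul]
          refine Finset.sum_le_sum fun k hk => ?_
          rw [norm_smul, Real.norm_eq_abs]
          have hkm : k < m := (Finset.mem_Ico.1 hk).2
          exact mul_le_mul_of_nonneg_left ((hu j hjm).2 _ (hu k hkm).1) (abs_nonneg _)
        linarith
      have hβ' : |β| ≤ r / H + ∑ k ∈ Finset.Ico (j + 1) m, |b k| := by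
        have hpos : 0 < ‖Q (u j)‖ := lt_trans hHp hdj
        have h1 : |β| ≤ r / ‖Q (u j)‖ + ∑ k ∈ Finset.Ico (j + 1) m, |b k| := by
          rw [← mul_le_mul_iff_left₀ hpos, add_mul, div_mul_cancel₀ _ hpos.ne']
          exact hβ
        have h2 : r / ‖Q (u j)‖ ≤ r / H := div_le_div_of_nonneg_left hr.le hHp hdj.le
        linarith
      refine ⟨Function.update b j β, ?_, ?_⟩
      · rw [Finset.sum_eq_sum_Ico_succ_bot hjm, Function.update_self]
        have h1 : ∑ k ∈ Finset.Ico (j + 1) m, Function.update b j β k • u k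
            = ∑ k ∈ Finset.Ico (j + 1) m, b k • u k := by
          refine Finset.sum_congr rfl fun k hk => ?_
          rw [Function.update_of_ne (by have := (Finset.mem_Ico.1 hk).1; omega)]
        rw [h1]
        have h2 : w - (β • u j + ∑ k ∈ Finset.Ico (j + 1) m, b k • u k) = y := by
          have : y = w - ∑ k ∈ Finset.Ico (j + 1) m, b k • u k - β • u j := by
            rw [← hyx]; abel
          rw [this]; abel
        rw [h2]
        exact hy
      · rw [Finset.sum_eq_sum_Ico_succ_bot hjm, Function.update_self]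
        have h1 : ∑ k ∈ Finset.Ico (j + 1) m, |Function.update b j β k|
            = ∑ k ∈ Finset.Ico (j + 1) m, |b k| := by
          refine Finset.sum_congr rfl fun k hk => ?_
          rw [Function.update_of_ne (by have := (Finset.mem_Ico.1 hk).1; omega)]
        rw [h1, pow_succ]
        linarith
  obtain ⟨b, hb, hbs⟩ := key m le_rfl
  rw [Nat.sub_self, Wk_zero, Submodule.mem_bot, sub_eq_zero] at hb
  rw [Nat.sub_self] at hbs
  have hIco : Finset.Ico 0 m = Finset.range m := by rw [Finset.range_eq_Ico]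
  rw [hIco] at hb hbs
  have hsum : ∑ k ∈ Finset.range m, |b k| ≤ 1 / (2 * m) := by
    refine hbs.trans ?_
    have h1 : ((2 : ℝ) ^ m - 1) * (r / H) ≤ 2 ^ m * (r / H) := by
      have : 0 < r / H := by positivity
      nlinarith
    refine h1.trans (le_of_eq ?_)
    rw [hH]
    field_simp
  set a : ℕ → ℝ := fun k => 1 / (2 * m) + b k with ha
  have ha0 : ∀ k ∈ Finset.range m, 0 ≤ a k := by
    intro k hk
    have h1 : |b k| ≤ ∑ k ∈ Finset.range m, |b k| :=
      Finset.single_le_sum (f := fun k => |b k|) (fun _ _ => abs_nonneg _) hk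
    have h2 := neg_abs_le (b k)
    simp only [ha]
    linarith
  have has : ∑ k ∈ Finset.range m, a k ≤ 1 := by
    simp only [ha]
    rw [Finset.sum_add_distrib, Finset.sum_const, Finset.card_range, nsmul_eq_mul]
    have h1 : (m : ℝ) * (1 / (2 * m)) = 1 / 2 := by field_simp
    have h2 : ∑ k ∈ Finset.range m, b k ≤ ∑ k ∈ Finset.range m, |b k| :=
      Finset.sum_le_sum fun _ _ => le_abs_self _
    have h3 : 1 / (2 * (m : ℝ)) ≤ 1 / 2 := by
      apply one_div_le_one_div_of_le (by norm_num)
      linarith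
    rw [h1]
    linarith
  have hrep : (∑ k ∈ Finset.range m, (1 / (2 * (m : ℝ))) • u k) + w
      = ∑ k ∈ Finset.range m, a k • u k := by
    rw [hb, ← Finset.sum_add_distrib]
    refine Finset.sum_congr rfl fun k _ => ?_
    simp only [ha]
    rw [add_smul]
  rw [hrep]
  set S := ∑ k ∈ Finset.range m, a k with hS
  have hS0 : 0 ≤ S := Finset.sum_nonneg ha0
  rcases eq_or_lt_of_le hS0 with hS' | hS'
  · have h1 : ∀ k ∈ Finset.range m, a k = 0 := (Finset.sum_eq_zero_iff_of_nonneg ha0).1 hS'.symm
    rw [Finset.sum_eq_zero (fun k hk => by rw [h1 k hk, zero_smul])]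
    exact h0
  · have h1 : ∑ k ∈ Finset.range m, (a k / S) • u k ∈ X := by
      apply hc.sum_mem
      · intro k hk
        exact div_nonneg (ha0 k hk) hS'.le
      · rw [← Finset.sum_div]
        exact div_self hS'.ne'
      · intro k hk
        exact (hu k (Finset.mem_range.1 hk)).1
    have h2 : ∑ k ∈ Finset.range m, a k • u k = S • ∑ k ∈ Finset.range m, (a k / S) • u k := by
      rw [Finset.smul_sum]
      refine Finset.sum_congr rfl fun k _ => ?_
      rw [smul_smul, mul_div_cancel₀ _ hS'.ne']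
    rw [h2]
    exact hc.smul_mem_of_zero_mem h0 h1 ⟨hS0, has⟩

/-- Passage to a closed set: three orthonormal thin directions. -/
theorem exists_thin_directions {K : Set F} {p₀ : F} {D : ℝ}
    (h : ∀ q : ℕ, ∃ W : Submodule ℝ F, Module.finrank ℝ W + 3 ≤ Module.finrank ℝ F ∧
      ∀ z ∈ K, ‖z - p₀‖ ≤ q → ‖Wᗮ.starProjection (z - p₀)‖ ≤ D) :
    ∃ f : Fin 3 → F, Orthonormal ℝ f ∧ ∀ z ∈ K, ∀ i, |⟪f i, z - p₀⟫| ≤ D := by
  have h1 : ∀ q : ℕ, ∃ f : Fin 3 → F, Orthonormal ℝ f ∧
      ∀ z ∈ K, ‖z - p₀‖ ≤ q → ∀ i, |⟪f i, z - p₀⟫| ≤ D := by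
    intro q
    obtain ⟨W, hW, hz⟩ := h q
    have h3 : 3 ≤ Module.finrank ℝ Wᗮ := by
      have := W.finrank_add_finrank_orthogonal
      omega
    set b := stdOrthonormalBasis ℝ Wᗮ with hb
    refine ⟨fun i => (b (Fin.castLE h3 i) : F), ?_, ?_⟩
    · have h4 : Orthonormal ℝ (fun i => (b i : F)) :=
        b.orthonormal.comp_linearIsometry Wᗮ.subtypeₗᵢ
      exact h4.comp _ (Fin.castLE_injective h3)
    · intro z hzK hzq i
      have h4 := hz z hzK hzq
      set v : F := (b (Fin.castLE h3 i) : F) with hv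
      have hvW : v ∈ Wᗮ := (b (Fin.castLE h3 i)).2
      have h5 : ⟪v, z - p₀⟫ = ⟪v, Wᗮ.starProjection (z - p₀)⟫ := by
        rw [← Submodule.inner_starProjection_left_eq_right,
          Submodule.starProjection_eq_self_iff.2 hvW]
      rw [h5]
      refine (abs_real_inner_le_norm _ _).trans ?_
      have : ‖v‖ = 1 := by
        rw [hv, Submodule.norm_coe]
        exact b.orthonormal.1 _
      rw [this, one_mul]
      exact h4
  choose f hf hfz using h1
  have hcomp : IsCompact (Set.pi univ fun _ : Fin 3 => Metric.closedBall (0 : F) 1) :=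
    isCompact_univ_pi fun _ => isCompact_closedBall 0 1
  obtain ⟨g, -, φ, hφ, hlim⟩ := hcomp.tendsto_subseq (x := f) (fun q => by
    intro i _
    rw [mem_closedBall_zero_iff, (hf q).1 i])
  have hlim' : ∀ i, Filter.Tendsto (fun q => f (φ q) i) Filter.atTop (𝓝 (g i)) := fun i =>
    (tendsto_pi_nhds.1 hlim) i
  refine ⟨g, ?_, ?_⟩
  · rw [orthonormal_iff_ite]
    intro i j
    have h2 : Filter.Tendsto (fun q => ⟪f (φ q) i, f (φ q) j⟫) Filter.atTop (𝓝 ⟪g i, g j⟫) :=
      (hlim' i).inner (hlim' j)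
    have h3 : (fun q => ⟪f (φ q) i, f (φ q) j⟫) = fun _ => if i = j then (1 : ℝ) else 0 := by
      funext q
      exact orthonormal_iff_ite.1 (hf (φ q)) i j
    rw [h3] at h2
    exact tendsto_nhds_unique h2 tendsto_const_nhds |>.symm ▸ rfl
  · intro z hz i
    have h2 : Filter.Tendsto (fun q => |⟪f (φ q) i, z - p₀⟫|) Filter.atTop
        (𝓝 |⟪g i, z - p₀⟫|) := ((hlim' i).inner tendsto_const_nhds).abs
    refine le_of_tendsto h2 ?_
    obtain ⟨q₀, hq₀⟩ := exists_nat_ge ‖z - p₀‖
    filter_upwards [Filter.eventually_ge_atTop q₀] with q hq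
    apply hfz (φ q) z hz
    refine hq₀.trans ?_
    exact_mod_cast hq.trans (hφ.id_le q)

end Vale.Agent.P210.Cvx
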