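import Vale.Agent.P210.H684.Disc
import Vale.Agent.P210.H684.Path
import Vale.Agent.P210.H684.Thin
import Vale.Agent.P210.TP.Prod1_646
import Vale.Agent.P210.TP.Prod2_646

set_option linter.all false

open scoped ENNReal ContDiff Topology RealInnerProductSpace
open Set Filter

namespace Vale.Agent.P210.Cvx

open Vale.Agent.P210.TP

/-- `k` continuous functions give barycentric coordinates of dimension `k`. -/
lemma exists_bary (X : Type) [TopologicalSpace X] (k : ℕ) :
    ∀ t : Fin k → X → ℝ, (∀ i, Continuous (t i)) → ∃ (V : Type) (lam : V → X → ℝ),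
      Bary X V k lam ∧ ∀ x y, (∀ v, lam v x = lam v y) → ∀ i, t i x = t i y := by
  induction k with
  | zero =>
    intro t _
    refine ⟨Unit, fun _ _ => 1, ⟨fun _ => continuous_const, fun _ _ => zero_le_one,
      locallyFinite_of_finite _, fun x => ?_, fun x => ?_⟩, fun x y _ i => Fin.elim0 i⟩
    · rw [finsum_unique]
    · refine (Set.ncard_le_card _).trans ?_
      simp
  | succ k ih =>
    intro t ht
    obtain ⟨V, lam, hB, hlam⟩ := ih (fun i => t i.castSucc) (fun i => ht _)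
    obtain ⟨mu, hM, hmu⟩ := prod1 X V k lam hB (t (Fin.last k)) (ht _)
    refine ⟨V × ℤ, mu, hM, fun x y hxy i => ?_⟩
    obtain ⟨h1, h2⟩ := hmu x y hxy
    refine Fin.lastCases h2 (fun j => ?_) i
    exact hlam x y h1 j

/-- Width from continuous functions. -/
lemma width_of_coords {N k : ℕ} {Ω : Set (E N)} {d : E N → E N → ℝ≥0∞} {C : ℝ}
    (t : Fin k → E N → ℝ) (ht : ∀ i, Continuous (t i))
    (h : ∀ x ∈ Ω, ∀ y ∈ Ω, (∀ i, t i x = t i y) → d x y ≤ ENNReal.ofReal C) :
    UrysohnWidthLE Ω d k C := by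
  obtain ⟨V, lam, hB, hlam⟩ := exists_bary Ω k (fun i x => t i x) (fun i =>
    (ht i).comp continuous_subtype_val)
  obtain ⟨f, hf, hfl⟩ := prod2 Ω V k lam hB
  refine ⟨V, skel V k, f, fun s hs => hs.2, hf, fun x y hxy => ?_⟩
  apply h x x.2 y y.2
  apply hlam x y
  intro v
  rw [← hfl, ← hfl, hxy]

/-- The thinness constant. -/
noncomputable def thinC (n : ℕ) : ℝ := 2 * ((n - 1 : ℕ) : ℝ) * 2 ^ (n - 1) * (9 * n)

theorem main {n : ℕ} (hn : 3 ≤ n) {K : Set (E (n + 1))} (hcl : IsClosed K) (hc : Convex ℝ K)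
    (hint : (interior K).Nonempty) (hne : K ≠ univ) (hs : SmoothBoundary K)
    (hscal : ∀ (U : Set (E n)) (φ : E n → E (n + 1)), IsLocalParam (frontier K) U φ →
      ∀ x ∈ U, 1 ≤ scal (induced φ) x) :
    UrysohnWidthLE (frontier K) (intrinsicDist (frontier K)) (n - 2) (39 * thinC n) ∧
      ∃ f : Fin 3 → E (n + 1), Orthonormal ℝ f ∧
        ∀ x ∈ K, ∀ y ∈ K, ∀ i, |⟪f i, x - y⟫| ≤ 2 * thinC n := by
  have hnR : (3 : ℝ) ≤ n := by exact_mod_cast hn
  have hfr : (frontier K).Nonempty := by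
    rw [nonempty_iff_ne_empty]
    intro hem
    rcases isClopen_iff.1 (isClopen_iff_frontier_eq_empty.2 hem) with h | h
    · rw [h, interior_empty] at hint
      exact not_nonempty_empty hint
    · exact hne h
  obtain ⟨p₀, hp₀⟩ := hfr
  have hp₀K : p₀ ∈ K := hcl.frontier_subset hp₀
  obtain ⟨o, ho⟩ := hint
  have hD0 : 0 < thinC n := by
    unfold thinC
    have h1 : (0 : ℝ) < ((n - 1 : ℕ) : ℝ) := by
      have : 0 < n - 1 := by omega
      exact_mod_cast this
    positivity
  have hthin : ∀ q : ℕ, ∃ W : Submodule ℝ (E (n + 1)),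
      Module.finrank ℝ W + 3 ≤ Module.finrank ℝ (E (n + 1)) ∧
      ∀ z ∈ K, ‖z - p₀‖ ≤ q → ‖Wᗮ.starProjection (z - p₀)‖ ≤ thinC n := by
    intro q
    set X : Set (E (n + 1)) := (fun z => p₀ + z) ⁻¹' K ∩ Metric.closedBall 0 q with hX
    have hXc : IsCompact X := by
      rw [hX, inter_comm]
      exact (isCompact_closedBall _ _).inter_right (hcl.preimage (by fun_prop))
    have hXv : Convex ℝ X := by
      refine Convex.inter ?_ (convex_closedBall _ _)
      exact hc.affine_preimage (AffineMap.const ℝ _ p₀ + AffineMap.id ℝ _ : E (n + 1) →ᵃ[ℝ] E (n + 1))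
    have hX0 : (0 : E (n + 1)) ∈ X := by
      refine ⟨?_, by simp⟩
      show p₀ + 0 ∈ K
      rwa [add_zero]
    rcases thin hXc hXv hX0 (m := n - 1) (by omega) (r := 9 * n) (by positivity) with
      ⟨W, hW, hWz⟩ | ⟨c, W, hW, hWd⟩
    · refine ⟨W, ?_, fun z hz hzq => hWz (z - p₀) ⟨?_, ?_⟩⟩
      · rw [finrank_euclideanSpace, Fintype.card_fin]
        omega
      · show p₀ + (z - p₀) ∈ K
        rwa [add_sub_cancel]
      · rwa [mem_closedBall_zero_iff]
    · exfalso
      refine no_disc (by omega) hcl hc hs hne hscal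
        (c := (8 / 9 : ℝ) • (p₀ + c) + (1 / 9 : ℝ) • o) (V := W) (by omega) ?_
      intro w hw hwn
      have h1 : p₀ + (c + (9 / 8 : ℝ) • w) ∈ K := (hWd _ (W.smul_mem _ hw) (by
        rw [norm_smul, Real.norm_eq_abs, abs_of_pos (by norm_num)]
        linarith)).1
      have h2 := hc.combo_self_interior_mem_interior h1 ho (a := 8 / 9) (b := 1 / 9)
        (by norm_num) (by norm_num) (by norm_num)
      have h3 : (8 / 9 : ℝ) • (p₀ + c) + (1 / 9 : ℝ) • o + w
          = (8 / 9 : ℝ) • (p₀ + (c + (9 / 8 : ℝ) • w)) + (1 / 9 : ℝ) • o := by module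
      rw [h3]
      exact h2
  obtain ⟨f, hf, hfz⟩ := exists_thin_directions hthin
  set S := Submodule.span ℝ (range f) with hS
  have hSr : Module.finrank ℝ S = 3 := by
    rw [hS, finrank_span_eq_card hf.linearIndependent, Fintype.card_fin]
  have hSo : Module.finrank ℝ Sᗮ = n - 2 := by
    have h1 := S.finrank_add_finrank_orthogonal
    rw [finrank_euclideanSpace, Fintype.card_fin] at h1
    omega
  set b := (stdOrthonormalBasis ℝ Sᗮ).reindex (finCongr hSo) with hb
  refine ⟨?_, f, hf, ?_⟩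
  swap
  · intro x hx y hy i
    have h1 : x - y = (x - p₀) - (y - p₀) := by abel
    rw [h1, inner_sub_right]
    have h2 := abs_sub (⟪f i, x - p₀⟫) (⟪f i, y - p₀⟫)
    have h3 := hfz x hx i
    have h4 := hfz y hy i
    linarith
  refine width_of_coords (fun i x => ⟪(b i : E (n + 1)), x⟫) (fun i => by fun_prop) ?_
  intro x hx y hy hxy
  refine dist_fibre hcl hc hD0 hf hfz hx hy ?_
  rw [← hS, ← Submodule.orthogonal_orthogonal S, Submodule.mem_orthogonal]
  intro u hu
  have h1 := b.sum_repr' ⟨u, hu⟩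
  have h2 : u = ∑ i, ⟪b i, (⟨u, hu⟩ : Sᗮ)⟫ • (b i : E (n + 1)) := by
    have := congrArg (fun v : Sᗮ => (v : E (n + 1))) h1
    simp only [Submodule.coe_sum, Submodule.coe_smul] at this
    exact this.symm
  rw [h2, sum_inner]
  refine Finset.sum_eq_zero fun i _ => ?_
  rw [real_inner_smul_left, inner_sub_right]
  have := hxy i
  rw [this, sub_self, mul_zero]

end Vale.Agent.P210.Cvx
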