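import Vale.Agent.P210.H684.Local
import Vale.Agent.P210.H684.Final

set_option linter.all false

open scoped ENNReal ContDiff Topology RealInnerProductSpace
open Set Filter Metric

namespace Vale.Agent.P210.Cvx

variable {n : ℕ}

lemma interior_nonempty {K : Set (E (n + 1))} (hcl : IsClosed K) (hs : SmoothBoundary K)
    {p : E (n + 1)} (hp : p ∈ frontier K) : (interior K).Nonempty := by
  obtain ⟨V, ρ, hV, hpV, hρ, hne, hK⟩ := hs p hp
  obtain ⟨d, hd⟩ : ∃ d, fderiv ℝ ρ p d < 0 := by
    by_contra hno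
    push Not at hno
    apply hne
    ext d
    have h1 := hno d
    have h2 := hno (-d)
    rw [map_neg] at h2
    have : fderiv ℝ ρ p d = 0 := le_antisymm (by linarith) h1
    simpa using this
  obtain ⟨s, hs'⟩ := (dir_interior (rho_eq_zero hcl hp hV hpV hρ hK).le hV hpV hρ hK hd).exists
  exact ⟨_, hs'⟩

theorem main_ricci (hn : 3 ≤ n) {K : Set (E (n + 1))} (hcl : IsClosed K)
    (hs : SmoothBoundary K) (hconn : IsConnected (frontier K)) (hyp : CurvHyp K) :
    UrysohnWidthLE (frontier K) (intrinsicDist (frontier K)) (n - 2) (39 * thinC n) ∧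
      ∃ f : Fin 3 → E (n + 1), Orthonormal ℝ f ∧
        ∀ x ∈ frontier K, ∀ y ∈ frontier K, ∀ i, |⟪f i, x - y⟫| ≤ 2 * thinC n := by
  obtain ⟨p, hp⟩ := hconn.nonempty
  rcases global_convex hcl hs hconn.isPreconnected hyp with hc | hc
  · have hne : K ≠ univ := by
      rintro rfl
      simp at hp
    obtain ⟨h1, f, hf, h2⟩ := main hn hcl hc (interior_nonempty hcl hs hp) hne hs
      fun U φ hφ x hx => (hyp U φ hφ x hx).2
    exact ⟨h1, f, hf, fun x hx y hy => h2 x (hcl.frontier_subset hx) y (hcl.frontier_subset hy)⟩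
  · obtain ⟨hfr, hs'⟩ := compl_smooth hcl hs
    have hcl' : IsClosed (interior K)ᶜ := isOpen_interior.isClosed_compl
    have hne : (interior K)ᶜ ≠ univ := by
      intro h
      rw [← hfr, h] at hp
      simp at hp
    obtain ⟨h1, f, hf, h2⟩ := main hn hcl' hc (interior_nonempty hcl' hs' (by rw [hfr]; exact hp))
      hne hs' (fun U φ hφ x hx => (hyp U φ (by rwa [hfr] at hφ) x hx).2)
    rw [hfr] at h1
    refine ⟨h1, f, hf, fun x hx y hy => h2 x ?_ y ?_⟩
    · rw [← hfr] at hx; exact hcl'.frontier_subset hx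
    · rw [← hfr] at hy; exact hcl'.frontier_subset hy

theorem main_all (hn : 3 ≤ n) {K : Set (E (n + 1))} (hcl : IsClosed K)
    (hs : SmoothBoundary K)
    (hscal : ∀ (U : Set (E n)) (φ : E n → E (n + 1)), IsLocalParam (frontier K) U φ →
      ∀ x ∈ U, 1 ≤ scal (induced φ) x)
    (hyp : Convex ℝ K ∨ (IsConnected (frontier K) ∧
      ∀ (U : Set (E n)) (φ : E n → E (n + 1)), IsLocalParam (frontier K) U φ →
        ∀ x ∈ U, ∀ w : Fin n → ℝ, 0 ≤ ∑ i, ∑ j, ricci (induced φ) i j x * w i * w j)) :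
    UrysohnWidthLE (frontier K) (intrinsicDist (frontier K)) (n - 2) (39 * thinC n) ∧
      ∃ f : Fin 3 → E (n + 1), Orthonormal ℝ f ∧
        ∀ x ∈ frontier K, ∀ y ∈ frontier K, ∀ i, |⟪f i, x - y⟫| ≤ 2 * thinC n := by
  rcases hyp with hc | ⟨hconn, hric⟩
  · rcases (frontier K).eq_empty_or_nonempty with hem | ⟨p, hp⟩
    · refine ⟨width_of_coords (fun _ _ => 0) (fun _ => continuous_const) ?_,
        fun i => EuclideanSpace.single (Fin.castLE (by omega) i) 1, ?_, ?_⟩
      · intro x hx
        rw [hem] at hx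
        exact absurd hx (notMem_empty x)
      · have h1 : Orthonormal ℝ (fun i : Fin (n + 1) =>
            (EuclideanSpace.single i (1 : ℝ) : E (n + 1))) := EuclideanSpace.orthonormal_single
        exact h1.comp _ (Fin.castLE_injective _)
      · intro x hx
        rw [hem] at hx
        exact absurd hx (notMem_empty x)
    · have hne : K ≠ univ := by
        rintro rfl
        simp at hp
      obtain ⟨h1, f, hf, h2⟩ := main hn hcl hc (interior_nonempty hcl hs hp) hne hs hscal
      exact ⟨h1, f, hf, fun x hx y hy =>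
        h2 x (hcl.frontier_subset hx) y (hcl.frontier_subset hy)⟩
  · exact main_ricci hn hcl hs hconn fun U φ hφ x hx => ⟨hric U φ hφ x hx, hscal U φ hφ x hx⟩

end Vale.Agent.P210.Cvx
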