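import Vale.Agent.P210.H684.Defs
import Mathlib.Analysis.Calculus.MeanValue
import Mathlib.Analysis.Convex.Topology
import Mathlib.Data.Real.Sign
import Mathlib.Analysis.InnerProductSpace.PiL2

set_option linter.all false

open scoped ENNReal ContDiff Topology RealInnerProductSpace
open Set Filter Metric

namespace Vale.Agent.P210.Cvx

variable {N : ℕ}

/-- `M` is a smooth hypersurface near each of its points. -/
def IsHypersurface (M : Set (E N)) : Prop :=
  ∀ p ∈ M, ∃ (V : Set (E N)) (ρ : E N → ℝ), IsOpen V ∧ p ∈ V ∧ ContDiffOn ℝ ∞ ρ V ∧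
    fderiv ℝ ρ p ≠ 0 ∧ ∀ z ∈ V, z ∈ M ↔ ρ z = 0

/-- `s` is the sign of a defining function of `M` near `z`. -/
def SideAt (M : Set (E N)) (s : E N → ℝ) (z : E N) : Prop :=
  ∃ (V : Set (E N)) (ρ : E N → ℝ), IsOpen V ∧ z ∈ V ∧ ContDiffOn ℝ ∞ ρ V ∧
    (∀ y ∈ V, y ∈ M ↔ ρ y = 0) ∧ (∀ y ∈ V, y ∈ M → fderiv ℝ ρ y ≠ 0) ∧
    ∀ y ∈ V, s y = Real.sign (ρ y)

lemma SideAt.eventually {M : Set (E N)} {s : E N → ℝ} {z : E N} (h : SideAt M s z) :
    ∀ᶠ y in 𝓝 z, SideAt M s y := by
  obtain ⟨V, ρ, hV, hz, h1, h2, h3, h4⟩ := h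
  filter_upwards [hV.mem_nhds hz] with y hy
  exact ⟨V, ρ, hV, hy, h1, h2, h3, h4⟩

lemma SideAt.congr {M : Set (E N)} {s s' : E N → ℝ} {z : E N} (h : SideAt M s z)
    (he : s' =ᶠ[𝓝 z] s) : SideAt M s' z := by
  obtain ⟨V, ρ, hV, hz, h1, h2, h3, h4⟩ := h
  obtain ⟨W, hW, hWo, hzW⟩ := _root_.eventually_nhds_iff.1 he
  refine ⟨V ∩ W, ρ, hV.inter hWo, ⟨hz, hzW⟩, h1.mono inter_subset_left,
    fun y hy => h2 y hy.1, fun y hy => h3 y hy.1, fun y hy => ?_⟩
  rw [hW y hy.2]
  exact h4 y hy.1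

lemma SideAt.neg {M : Set (E N)} {s : E N → ℝ} {z : E N} (h : SideAt M s z) :
    SideAt M (fun y => -s y) z := by
  obtain ⟨V, ρ, hV, hz, h1, h2, h3, h4⟩ := h
  refine ⟨V, fun y => -ρ y, hV, hz, h1.neg, fun y hy => ?_, fun y hy hM => ?_, fun y hy => ?_⟩
  · rw [h2 y hy, neg_eq_zero]
  · rw [fderiv_fun_neg]
    exact neg_ne_zero.2 (h3 y hy hM)
  · beta_reduce
    rw [h4 y hy, Real.sign_neg]

lemma exists_side {M : Set (E N)} (hcl : IsClosed M) (hM : IsHypersurface M) (z : E N) :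
    ∃ s, SideAt M s z := by
  by_cases hz : z ∈ M
  · obtain ⟨V, ρ, hV, hzV, h1, h2, h3⟩ := hM z hz
    have h4 : ContDiffOn ℝ ∞ (fderiv ℝ ρ) V := h1.fderiv_of_isOpen hV (by simp)
    have hV' : IsOpen (V ∩ fderiv ℝ ρ ⁻¹' {0}ᶜ) :=
      h4.continuousOn.isOpen_inter_preimage hV isOpen_compl_singleton
    exact ⟨fun y => Real.sign (ρ y), V ∩ fderiv ℝ ρ ⁻¹' {0}ᶜ, ρ, hV', ⟨hzV, h2⟩,
      h1.mono inter_subset_left, fun y hy => h3 y hy.1, fun y hy _ => hy.2, fun y _ => rfl⟩
  · refine ⟨fun _ => 1, Mᶜ, fun _ => 1, hcl.isOpen_compl, hz, contDiffOn_const,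
      fun y hy => ?_, fun y hy hM => absurd hM hy, fun y _ => ?_⟩
    · exact ⟨fun h => absurd h hy, fun h => absurd h one_ne_zero⟩
    · rw [Real.sign_of_pos one_pos]

/-- Strict monotonicity along a direction. -/
lemma mono_dir {ρ : E N → ℝ} {p ν : E N} {δ : ℝ}
    (hd : ∀ y ∈ ball p δ, DifferentiableAt ℝ ρ y) (hpos : ∀ y ∈ ball p δ, 0 < fderiv ℝ ρ y ν)
    {a : E N} (ha : a ∈ ball p δ) {t : ℝ} (ht : 0 < t) (hat : a + t • ν ∈ ball p δ) :
    ρ a < ρ (a + t • ν) := by
  have hin : ∀ τ ∈ Icc (0 : ℝ) t, a + τ • ν ∈ ball p δ := by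
    intro τ hτ
    have h1 := (convex_ball p δ) ha hat (a := 1 - τ / t) (b := τ / t)
      (by rw [sub_nonneg, div_le_one ht]; exact hτ.2) (div_nonneg hτ.1 ht.le) (by ring)
    have h2 : (1 - τ / t) • a + (τ / t) • (a + t • ν) = a + τ • ν := by
      have h3 : τ = τ / t * t := by field_simp
      nth_rewrite 3 [h3]
      module
    rwa [h2] at h1
  have hder : ∀ τ ∈ Icc (0 : ℝ) t, HasDerivAt (fun τ : ℝ => ρ (a + τ • ν))
      (fderiv ℝ ρ (a + τ • ν) ν) τ := by
    intro τ hτ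
    have h2 : HasDerivAt (fun τ : ℝ => a + τ • ν) ν τ := by
      simpa using ((hasDerivAt_id τ).smul_const ν).const_add a
    exact (hd _ (hin τ hτ)).hasFDerivAt.comp_hasDerivAt τ h2
  obtain ⟨c, hc, hceq⟩ := exists_hasDerivAt_eq_slope (fun τ : ℝ => ρ (a + τ • ν))
    (fun τ => fderiv ℝ ρ (a + τ • ν) ν) ht
    (fun τ hτ => (hder τ hτ).continuousAt.continuousWithinAt)
    (fun τ hτ => hder τ ⟨hτ.1.le, hτ.2.le⟩)
  have h1 := hpos _ (hin c ⟨hc.1.le, hc.2.le⟩)
  simp only [zero_smul, add_zero, sub_zero] at hceq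
  have h2 : 0 < (ρ (a + t • ν) - ρ a) / t := by rw [← hceq]; exact h1
  have h3 := (div_pos_iff_of_pos_right ht).1 h2
  linarith

/-- Two defining functions increasing in the same direction have the same sign. -/
lemma sign_eq_of_dir {M V V' : Set (E N)} {ρ ρ' : E N → ℝ} {p ν : E N} (hV : IsOpen V)
    (hV' : IsOpen V') (hp : p ∈ V) (hp' : p ∈ V') (h1 : ContDiffOn ℝ ∞ ρ V)
    (h1' : ContDiffOn ℝ ∞ ρ' V') (h2 : ∀ y ∈ V, y ∈ M ↔ ρ y = 0)
    (h2' : ∀ y ∈ V', y ∈ M ↔ ρ' y = 0) (hpM : p ∈ M) (hpos : 0 < fderiv ℝ ρ p ν)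
    (hpos' : 0 < fderiv ℝ ρ' p ν) : ∀ᶠ y in 𝓝 p, Real.sign (ρ y) = Real.sign (ρ' y) := by
  have hcont : ∀ {V : Set (E N)} {ρ : E N → ℝ}, IsOpen V → p ∈ V → ContDiffOn ℝ ∞ ρ V →
      ContinuousAt (fun z => fderiv ℝ ρ z ν) p := by
    intro V ρ hV hp h1
    have h4 : ContDiffOn ℝ ∞ (fderiv ℝ ρ) V := h1.fderiv_of_isOpen hV (by simp)
    exact (h4.continuousOn.continuousAt (hV.mem_nhds hp)).clm_apply continuousAt_const
  obtain ⟨δ, hδ, hδV⟩ := Metric.eventually_nhds_iff_ball.1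
    ((((hcont hV hp h1).eventually (lt_mem_nhds hpos)).and (hV.mem_nhds hp)).and
    (((hcont hV' hp' h1').eventually (lt_mem_nhds hpos')).and (hV'.mem_nhds hp')))
  have hd : ∀ y ∈ ball p δ, DifferentiableAt ℝ ρ y := fun y hy =>
    (h1.contDiffAt (hV.mem_nhds (hδV y hy).1.2)).differentiableAt (by simp)
  have hd' : ∀ y ∈ ball p δ, DifferentiableAt ℝ ρ' y := fun y hy =>
    (h1'.contDiffAt (hV'.mem_nhds (hδV y hy).2.2)).differentiableAt (by simp)
  have hm : ∀ y ∈ ball p δ, 0 < fderiv ℝ ρ y ν := fun y hy => (hδV y hy).1.1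
  have hm' : ∀ y ∈ ball p δ, 0 < fderiv ℝ ρ' y ν := fun y hy => (hδV y hy).2.1
  -- a small step
  set τ : ℝ := δ / (2 * (1 + ‖ν‖)) with hτ
  have hτ0 : 0 < τ := by positivity
  have hτν : τ * ‖ν‖ < δ / 2 := by
    rw [hτ, div_mul_eq_mul_div, div_lt_div_iff₀ (by positivity) (by norm_num)]
    nlinarith [norm_nonneg ν]
  have hρp : ρ p = 0 := (h2 p hp).1 hpM
  have hstep : ∀ y ∈ ball p (δ / 2), ∀ t ∈ Icc (0 : ℝ) τ, y + t • ν ∈ ball p δ ∧
      y - t • ν ∈ ball p δ := by
    intro y hy t ht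
    rw [mem_ball_iff_norm] at hy
    have h3 : ‖t • ν‖ < δ / 2 := by
      rw [norm_smul, Real.norm_eq_abs, abs_of_nonneg ht.1]
      nlinarith [norm_nonneg ν, ht.2]
    constructor
    · rw [mem_ball_iff_norm, show y + t • ν - p = (y - p) + t • ν by abel]
      exact (norm_add_le _ _).trans_lt (by linarith)
    · rw [mem_ball_iff_norm, show y - t • ν - p = (y - p) - t • ν by abel]
      exact (norm_sub_le _ _).trans_lt (by linarith)
  have hpb : p ∈ ball p (δ / 2) := mem_ball_self (by positivity)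
  have hτI : τ ∈ Icc (0 : ℝ) τ := ⟨hτ0.le, le_rfl⟩
  have hup : 0 < ρ (p + τ • ν) := by
    have := mono_dir hd hm (ball_subset_ball (by linarith) hpb) hτ0 (hstep p hpb τ hτI).1
    linarith
  have hdn : ρ (p - τ • ν) < 0 := by
    have h3 := mono_dir hd hm (hstep p hpb τ hτI).2 hτ0 (by
      rw [sub_add_cancel]; exact ball_subset_ball (by linarith) hpb)
    rw [sub_add_cancel, hρp] at h3
    exact h3
  have c1 : ∀ᶠ y in 𝓝 p, 0 < ρ (y + τ • ν) := by
    have h3 : ContinuousAt (fun y => ρ (y + τ • ν)) p :=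
      ContinuousAt.comp (f := fun y : E N => y + τ • ν) (hd _ (hstep p hpb τ hτI).1).continuousAt
        (by fun_prop)
    exact h3.eventually (lt_mem_nhds hup)
  have c2 : ∀ᶠ y in 𝓝 p, ρ (y - τ • ν) < 0 := by
    have h3 : ContinuousAt (fun y => ρ (y - τ • ν)) p :=
      ContinuousAt.comp (f := fun y : E N => y - τ • ν) (hd _ (hstep p hpb τ hτI).2).continuousAt
        (by fun_prop)
    exact h3.eventually (gt_mem_nhds hdn)
  filter_upwards [c1, c2, ball_mem_nhds p (by positivity : (0 : ℝ) < δ / 2)] with y hy1 hy2 hyb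
  have hyδ : y ∈ ball p δ := ball_subset_ball (by linarith) hyb
  rcases lt_trichotomy (ρ y) 0 with h | h | h
  · -- a zero above
    have hc : ContinuousOn (fun t : ℝ => ρ (y + t • ν)) (Icc 0 τ) := by
      intro t ht
      exact (ContinuousAt.comp (f := fun t : ℝ => y + t • ν)
        (hd _ (hstep y hyb t ht).1).continuousAt (by fun_prop)).continuousWithinAt
    obtain ⟨t, ht, ht0⟩ := intermediate_value_Icc hτ0.le hc
      (show (0 : ℝ) ∈ Icc (ρ (y + (0 : ℝ) • ν)) (ρ (y + τ • ν)) by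
        rw [zero_smul, add_zero]; exact ⟨h.le, hy1.le⟩)
    have ht1 : 0 < t := by
      rcases eq_or_lt_of_le ht.1 with h3 | h3
      · simp only [← h3, zero_smul, add_zero] at ht0
        exact absurd ht0 h.ne
      · exact h3
    have hb := (hstep y hyb t ht).1
    have h4 : ρ' (y + t • ν) = 0 := (h2' _ (hδV _ hb).2.2).1 ((h2 _ (hδV _ hb).1.2).2 ht0)
    have h5 := mono_dir hd' hm' hyδ ht1 hb
    rw [h4] at h5
    rw [Real.sign_of_neg h, Real.sign_of_neg h5]
  · have h4 : ρ' y = 0 := (h2' _ (hδV _ hyδ).2.2).1 ((h2 _ (hδV _ hyδ).1.2).2 h)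
    rw [h, h4]
  · have hc : ContinuousOn (fun t : ℝ => ρ (y - t • ν)) (Icc 0 τ) := by
      intro t ht
      exact (ContinuousAt.comp (f := fun t : ℝ => y - t • ν)
        (hd _ (hstep y hyb t ht).2).continuousAt (by fun_prop)).continuousWithinAt
    obtain ⟨t, ht, ht0⟩ := intermediate_value_Icc' hτ0.le hc
      (show (0 : ℝ) ∈ Icc (ρ (y - τ • ν)) (ρ (y - (0 : ℝ) • ν)) by
        rw [zero_smul, sub_zero]; exact ⟨hy2.le, h.le⟩)
    have ht1 : 0 < t := by
      rcases eq_or_lt_of_le ht.1 with h3 | h3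
      · simp only [← h3, zero_smul, sub_zero] at ht0
        exact absurd ht0 h.ne'
      · exact h3
    have hb := (hstep y hyb t ht).2
    have h4 : ρ' (y - t • ν) = 0 := (h2' _ (hδV _ hb).2.2).1 ((h2 _ (hδV _ hb).1.2).2 ht0)
    have h5 := mono_dir hd' hm' hb ht1 (by rw [sub_add_cancel]; exact hyδ)
    rw [h4, sub_add_cancel] at h5
    rw [Real.sign_of_pos h, Real.sign_of_pos h5]

/-- Side functions are unique up to sign. -/
lemma side_unique {M : Set (E N)} {s s' : E N → ℝ} {z : E N} (h : SideAt M s z)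
    (h' : SideAt M s' z) : s =ᶠ[𝓝 z] s' ∨ s =ᶠ[𝓝 z] fun y => -s' y := by
  obtain ⟨V, ρ, hV, hz, h1, h2, h3, h4⟩ := h
  obtain ⟨V', ρ', hV', hz', h1', h2', h3', h4'⟩ := h'
  have hs : s =ᶠ[𝓝 z] fun y => Real.sign (ρ y) := by
    filter_upwards [hV.mem_nhds hz] with y hy using h4 y hy
  have hs' : s' =ᶠ[𝓝 z] fun y => Real.sign (ρ' y) := by
    filter_upwards [hV'.mem_nhds hz'] with y hy using h4' y hy
  suffices hkey : (∀ᶠ y in 𝓝 z, Real.sign (ρ y) = Real.sign (ρ' y)) ∨
      (∀ᶠ y in 𝓝 z, Real.sign (ρ y) = -Real.sign (ρ' y)) by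
    rcases hkey with hk | hk
    · left
      filter_upwards [hs, hs', hk] with y e1 e2 e3
      rw [e1, e2, e3]
    · right
      filter_upwards [hs, hs', hk] with y e1 e2 e3
      rw [e1, e2, e3]
  by_cases hzM : z ∈ M
  · have hd := h3 z hz hzM
    have hd' := h3' z hz' hzM
    -- a common transversal direction
    obtain ⟨ν, hν, hν'⟩ : ∃ ν, 0 < fderiv ℝ ρ z ν ∧ fderiv ℝ ρ' z ν ≠ 0 := by
      obtain ⟨a, ha⟩ : ∃ a, 0 < fderiv ℝ ρ z a := by
        by_contra hno
        push Not at hno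
        apply hd
        ext d
        have e1 := hno d
        have e2 := hno (-d)
        rw [map_neg] at e2
        have : fderiv ℝ ρ z d = 0 := le_antisymm e1 (by linarith)
        simpa using this
      obtain ⟨b, hb⟩ : ∃ b, fderiv ℝ ρ' z b ≠ 0 := by
        by_contra hno
        push Not at hno
        apply hd'
        ext d
        simpa using hno d
      by_cases h0 : fderiv ℝ ρ' z a = 0
      · set ε : ℝ := fderiv ℝ ρ z a / (2 * (1 + |fderiv ℝ ρ z b|)) with hε
        have hε0 : 0 < ε := by positivity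
        refine ⟨a + ε • b, ?_, ?_⟩
        · rw [map_add, map_smul, smul_eq_mul]
          have e1 : ε * |fderiv ℝ ρ z b| ≤ fderiv ℝ ρ z a / 2 := by
            rw [hε, div_mul_eq_mul_div, div_le_div_iff₀ (by positivity) (by norm_num)]
            nlinarith [abs_nonneg (fderiv ℝ ρ z b)]
          have e2 := neg_abs_le (fderiv ℝ ρ z b)
          nlinarith
        · rw [map_add, map_smul, smul_eq_mul, h0, zero_add]
          exact mul_ne_zero hε0.ne' hb
      · exact ⟨a, ha, h0⟩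
    rcases lt_or_gt_of_ne hν' with hneg | hpos
    · right
      have h5 := sign_eq_of_dir (M := M) (ρ' := fun y => -ρ' y) hV hV' hz hz' h1 h1'.neg h2
        (fun y hy => by rw [h2' y hy, neg_eq_zero]) hzM hν (by
          rw [fderiv_fun_neg, ContinuousLinearMap.neg_apply]; linarith)
      filter_upwards [h5] with y hy
      rw [hy, Real.sign_neg]
    · left
      exact sign_eq_of_dir hV hV' hz hz' h1 h1' h2 h2' hzM hν hpos
  · have hne : ρ z ≠ 0 := fun h => hzM ((h2 z hz).2 h)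
    have hne' : ρ' z ≠ 0 := fun h => hzM ((h2' z hz').2 h)
    have hc : ContinuousAt ρ z := (h1.contDiffAt (hV.mem_nhds hz)).continuousAt
    have hc' : ContinuousAt ρ' z := (h1'.contDiffAt (hV'.mem_nhds hz')).continuousAt
    rcases lt_or_gt_of_ne hne with ha | ha <;> rcases lt_or_gt_of_ne hne' with hb | hb
    · left
      filter_upwards [hc.eventually (gt_mem_nhds ha), hc'.eventually (gt_mem_nhds hb)]
        with y e1 e2
      rw [Real.sign_of_neg e1, Real.sign_of_neg e2]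
    · right
      filter_upwards [hc.eventually (gt_mem_nhds ha), hc'.eventually (lt_mem_nhds hb)]
        with y e1 e2
      rw [Real.sign_of_neg e1, Real.sign_of_pos e2]
    · right
      filter_upwards [hc.eventually (lt_mem_nhds ha), hc'.eventually (gt_mem_nhds hb)]
        with y e1 e2
      rw [Real.sign_of_pos e1, Real.sign_of_neg e2, neg_neg]
    · left
      filter_upwards [hc.eventually (lt_mem_nhds ha), hc'.eventually (lt_mem_nhds hb)]
        with y e1 e2
      rw [Real.sign_of_pos e1, Real.sign_of_pos e2]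

/-- Both signs occur near a point of the hypersurface. -/
lemma side_signs {M : Set (E N)} {s : E N → ℝ} {z : E N} (h : SideAt M s z) (hz : z ∈ M) :
    s z = 0 ∧ (∃ᶠ y in 𝓝 z, s y = 1) ∧ ∃ᶠ y in 𝓝 z, s y = -1 := by
  obtain ⟨V, ρ, hV, hzV, h1, h2, h3, h4⟩ := h
  have hρz : ρ z = 0 := (h2 z hzV).1 hz
  have hd := h3 z hzV hz
  have hdiff : DifferentiableAt ℝ ρ z := (h1.contDiffAt (hV.mem_nhds hzV)).differentiableAt (by simp)
  have key : ∀ ε : ℝ, (ε = 1 ∨ ε = -1) → ∃ᶠ y in 𝓝 z, 0 < ε * ρ y := by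
    intro ε hε hcon
    apply hd
    rcases hε with rfl | rfl
    · have hmax : IsLocalMax ρ z := by
        filter_upwards [hcon] with y hy
        rw [hρz]
        linarith
      exact hmax.fderiv_eq_zero
    · have hmin : IsLocalMin ρ z := by
        filter_upwards [hcon] with y hy
        rw [hρz]
        linarith
      exact hmin.fderiv_eq_zero
  refine ⟨by rw [h4 z hzV, hρz, Real.sign_zero], ?_, ?_⟩
  · refine ((key 1 (Or.inl rfl)).and_eventually (hV.mem_nhds hzV)).mono fun y hy => ?_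
    rw [h4 y hy.2, Real.sign_of_pos (by linarith [hy.1])]
  · refine ((key (-1) (Or.inr rfl)).and_eventually (hV.mem_nhds hzV)).mono fun y hy => ?_
    rw [h4 y hy.2, Real.sign_of_neg (by linarith [hy.1])]

lemma side_off {M : Set (E N)} {s : E N → ℝ} {z : E N} (h : SideAt M s z) (hz : z ∉ M) :
    (∀ᶠ y in 𝓝 z, s y = 1) ∨ ∀ᶠ y in 𝓝 z, s y = -1 := by
  obtain ⟨V, ρ, hV, hzV, h1, h2, h3, h4⟩ := h
  have hne : ρ z ≠ 0 := fun h => hz ((h2 z hzV).2 h)
  have hc : ContinuousAt ρ z := (h1.contDiffAt (hV.mem_nhds hzV)).continuousAt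
  rcases lt_or_gt_of_ne hne with ha | ha
  · right
    filter_upwards [hc.eventually (gt_mem_nhds ha), hV.mem_nhds hzV] with y e1 e2
    rw [h4 y e2, Real.sign_of_neg e1]
  · left
    filter_upwards [hc.eventually (lt_mem_nhds ha), hV.mem_nhds hzV] with y e1 e2
    rw [h4 y e2, Real.sign_of_pos e1]

lemma side_not_both {M : Set (E N)} {s s' : E N → ℝ} {z : E N} (h : SideAt M s z)
    (h1 : s =ᶠ[𝓝 z] s') (h2 : s =ᶠ[𝓝 z] fun y => -s' y) : False := by
  have h3 : ∀ᶠ y in 𝓝 z, s y = 0 := by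
    filter_upwards [h1, h2] with y e1 e2
    rw [e1] at e2 ⊢
    linarith
  by_cases hz : z ∈ M
  · obtain ⟨y, hy1, hy2⟩ := ((side_signs h hz).2.1.and_eventually h3).exists
    rw [hy2] at hy1
    norm_num at hy1
  · rcases side_off h hz with h4 | h4
    · obtain ⟨y, hy1, hy2⟩ := (h4.and h3).exists
      rw [hy2] at hy1
      norm_num at hy1
    · obtain ⟨y, hy1, hy2⟩ := (h4.and h3).exists
      rw [hy2] at hy1
      norm_num at hy1

/-- Equality of side functions propagates along connected sets. -/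
lemma side_propagate {M C : Set (E N)} (hC : IsPreconnected C) {s s' : E N → ℝ}
    (h : ∀ z ∈ C, SideAt M s z) (h' : ∀ z ∈ C, SideAt M s' z) {z₀ : E N} (hz₀ : z₀ ∈ C)
    (he : s =ᶠ[𝓝 z₀] s') : ∀ z ∈ C, s =ᶠ[𝓝 z] s' := by
  have ho1 : IsOpen {z | s =ᶠ[𝓝 z] s'} := isOpen_setOf_eventually_nhds
  have ho2 : IsOpen {z | s =ᶠ[𝓝 z] fun y => -s' y} := isOpen_setOf_eventually_nhds
  have hcov : C ⊆ {z | s =ᶠ[𝓝 z] s'} ∪ {z | s =ᶠ[𝓝 z] fun y => -s' y} := fun z hz =>
    side_unique (h z hz) (h' z hz)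
  intro z hz
  rcases hcov hz with h1 | h1
  · exact h1
  · exfalso
    obtain ⟨y, hy, hy1, hy2⟩ := hC _ _ ho1 ho2 hcov ⟨z₀, hz₀, he⟩ ⟨z, hz, h1⟩
    exact side_not_both (h y hy) hy1 hy2

/-- Continuation of a side function along a segment from the origin. -/
lemma side_segment {M : Set (E N)} (hcl : IsClosed M) (hM : IsHypersurface M) {s₀ : E N → ℝ}
    (h₀ : SideAt M s₀ 0) (v : E N) :
    ∃ s : E N → ℝ, s =ᶠ[𝓝 0] s₀ ∧ ∀ t ∈ Icc (0 : ℝ) 1, SideAt M s (t • v) := by
  classical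
  by_cases hv : v = 0
  · refine ⟨s₀, EventuallyEq.rfl, fun t _ => ?_⟩
    rw [hv, smul_zero]
    exact h₀
  have hv0 : 0 < ‖v‖ := norm_pos_iff.2 hv
  choose σ hσ using fun w => exists_side hcl hM w
  choose O hOσ hOo hOw using fun w => _root_.eventually_nhds_iff.1 (hσ w).eventually
  have hcomp : IsCompact ((fun t : ℝ => t • v) '' Icc 0 1) := isCompact_Icc.image (by fun_prop)
  obtain ⟨δ, hδ, hball⟩ := lebesgue_number_lemma_of_metric hcomp (c := O) hOo
    (fun w _ => mem_iUnion.2 ⟨w, hOw w⟩)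
  obtain ⟨m, hm⟩ := exists_nat_gt (‖v‖ / δ)
  have hmR : (0 : ℝ) < m := lt_of_le_of_lt (by positivity) hm
  have hstep : ‖v‖ / m < δ := by
    rw [div_lt_iff₀ hmR]
    rw [div_lt_iff₀ hδ] at hm
    linarith
  have key : ∀ k : ℕ, k ≤ m → ∃ s : E N → ℝ, s =ᶠ[𝓝 0] s₀ ∧
      ∀ t ∈ Icc (0 : ℝ) (k / m), SideAt M s (t • v) := by
    intro k
    induction k with
    | zero =>
      intro _
      refine ⟨s₀, EventuallyEq.rfl, fun t ht => ?_⟩
      rw [Nat.cast_zero, zero_div] at ht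
      have : t = 0 := le_antisymm ht.2 ht.1
      rw [this, zero_smul]
      exact h₀
    | succ k ih =>
      intro hk
      obtain ⟨s, hs0, hs⟩ := ih (by omega)
      have hkI : ((k : ℝ) / m) ∈ Icc (0 : ℝ) 1 := by
        refine ⟨by positivity, ?_⟩
        rw [div_le_one hmR]
        exact_mod_cast (by omega : k ≤ m)
      obtain ⟨w, hw⟩ := hball _ (mem_image_of_mem (fun t : ℝ => t • v) hkI)
      set a : E N := ((k : ℝ) / m) • v with ha
      have hσO : ∀ y ∈ ball a δ, SideAt M (σ w) y := fun y hy => hOσ w y (hw hy)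
      have hsa : SideAt M s a := hs _ ⟨hkI.1, le_rfl⟩
      -- the matching sign
      obtain ⟨τ, hτ, hτs⟩ : ∃ τ : E N → ℝ, (∀ y ∈ ball a δ, SideAt M τ y) ∧ s =ᶠ[𝓝 a] τ := by
        rcases side_unique hsa (hσO a (mem_ball_self hδ)) with h1 | h1
        · exact ⟨σ w, hσO, h1⟩
        · exact ⟨fun y => -σ w y, fun y hy => (hσO y hy).neg, h1⟩
      set s' : E N → ℝ := fun y => if ⟪v, y - a⟫ ≤ 0 then s y else τ y with hs'
      have hc : Continuous (fun y : E N => ⟪v, y - a⟫) := by fun_prop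
      have e1 : ∀ y : E N, ⟪v, y - a⟫ < 0 → s' =ᶠ[𝓝 y] s := by
        intro y hy
        filter_upwards [(hc.tendsto y).eventually (gt_mem_nhds hy)] with x hx
        simp only [hs']
        rw [if_pos hx.le]
      have e2 : ∀ y : E N, 0 < ⟪v, y - a⟫ → s' =ᶠ[𝓝 y] τ := by
        intro y hy
        filter_upwards [(hc.tendsto y).eventually (lt_mem_nhds hy)] with x hx
        simp only [hs']
        rw [if_neg (not_le.2 hx)]
      have e3 : s' =ᶠ[𝓝 a] s := by
        filter_upwards [hτs] with x hx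
        simp only [hs']
        split_ifs
        · rfl
        · exact hx.symm
      have hin : ∀ t : ℝ, ⟪v, t • v - a⟫ = (t - (k : ℝ) / m) * ‖v‖ ^ 2 := by
        intro t
        rw [ha, ← sub_smul, inner_smul_right, real_inner_self_eq_norm_sq]
      refine ⟨s', ?_, fun t ht => ?_⟩
      · rcases Nat.eq_zero_or_pos k with h0 | h0
        · have ha0 : a = 0 := by rw [ha, h0]; simp
          rw [ha0] at e3
          exact e3.trans hs0
        · refine (e1 0 ?_).trans hs0
          have h1 := hin 0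
          rw [zero_smul] at h1
          rw [h1]
          have h2 : (0 : ℝ) < (k : ℝ) / m := by
            have : (0 : ℝ) < k := by exact_mod_cast h0
            positivity
          have h3 : 0 < ‖v‖ ^ 2 := by positivity
          nlinarith
      · rcases lt_trichotomy t ((k : ℝ) / m) with hlt | heq | hgt
        · refine (hs t ⟨ht.1, hlt.le⟩).congr (e1 _ ?_)
          rw [hin]
          exact mul_neg_of_neg_of_pos (by linarith) (by positivity)
        · rw [heq]
          exact hsa.congr e3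
        · refine SideAt.congr (s := τ) (hτ _ ?_) (e2 _ ?_)
          · rw [mem_ball_iff_norm, ha, ← sub_smul, norm_smul, Real.norm_eq_abs,
              abs_of_pos (by linarith)]
            have h2 : t - (k : ℝ) / m ≤ 1 / m := by
              have := ht.2
              push_cast at this
              have h3 : ((k : ℝ) + 1) / m = k / m + 1 / m := by ring
              linarith
            have h4 : (t - (k : ℝ) / m) * ‖v‖ ≤ 1 / m * ‖v‖ :=
              mul_le_mul_of_nonneg_right h2 hv0.le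
            have h5 : 1 / (m : ℝ) * ‖v‖ = ‖v‖ / m := by ring
            linarith
          · rw [hin]
            exact mul_pos (by linarith) (by positivity)
  obtain ⟨s, hs0, hs⟩ := key m le_rfl
  rw [div_self hmR.ne'] at hs
  exact ⟨s, hs0, hs⟩

/-- A global side function. -/
theorem exists_global_side {M : Set (E N)} (hcl : IsClosed M) (hM : IsHypersurface M) :
    ∃ s : E N → ℝ, ∀ z, SideAt M s z := by
  obtain ⟨s₀, h₀⟩ := exists_side hcl hM 0
  choose s hs0 hs using fun v => side_segment hcl hM h₀ v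
  refine ⟨fun z => s z z, fun z => ?_⟩
  have hcomp : IsCompact ((fun t : ℝ => t • z) '' Icc 0 1) := isCompact_Icc.image (by fun_prop)
  have hop : IsOpen {y | SideAt M (s z) y} := by
    rw [isOpen_iff_mem_nhds]
    intro y hy
    exact SideAt.eventually hy
  obtain ⟨δ, hδ, hsub⟩ := hcomp.exists_thickening_subset_open hop (by
    rintro _ ⟨t, ht, rfl⟩
    exact hs z t ht)
  have hsz : SideAt M (s z) z := by
    have := hs z 1 (by simp)
    rwa [one_smul] at this
  refine hsz.congr ?_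
  filter_upwards [ball_mem_nhds z hδ] with z' hz'
  have hC : IsPreconnected ((fun t : ℝ => t • z') '' Icc (0 : ℝ) 1) :=
    isPreconnected_Icc.image _ (by fun_prop)
  have h1 : ∀ y ∈ (fun t : ℝ => t • z') '' Icc (0 : ℝ) 1, SideAt M (s z) y := by
    rintro _ ⟨t, ht, rfl⟩
    apply hsub
    rw [mem_thickening_iff]
    refine ⟨t • z, mem_image_of_mem _ ht, ?_⟩
    rw [dist_eq_norm, ← smul_sub, norm_smul, Real.norm_eq_abs, abs_of_nonneg ht.1]
    rw [mem_ball_iff_norm] at hz'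
    nlinarith [norm_nonneg (z' - z), ht.2]
  have h2 : ∀ y ∈ (fun t : ℝ => t • z') '' Icc (0 : ℝ) 1, SideAt M (s z') y := by
    rintro _ ⟨t, ht, rfl⟩
    exact hs z' t ht
  have h3 : (0 : E N) ∈ (fun t : ℝ => t • z') '' Icc (0 : ℝ) 1 := ⟨0, by simp, by simp⟩
  have h4 := side_propagate hC h2 h1 h3 ((hs0 z').trans (hs0 z).symm) z' ⟨1, by simp, by simp⟩
  exact h4.self_of_nhds

/-- A closed smooth hypersurface of Euclidean space bounds a closed set. -/
theorem exists_region {M : Set (E N)} (hcl : IsClosed M) (hM : IsHypersurface M) :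
    ∃ K : Set (E N), IsClosed K ∧ SmoothBoundary K ∧ frontier K = M := by
  obtain ⟨s, hs⟩ := exists_global_side hcl hM
  have hK : IsClosed {z | s z ≤ 0} := by
    rw [← isOpen_compl_iff, isOpen_iff_mem_nhds]
    intro z hz
    have hz' : 0 < s z := not_le.1 hz
    have hzM : z ∉ M := fun h => by
      rw [(side_signs (hs z) h).1] at hz'
      exact lt_irrefl _ hz'
    rcases side_off (hs z) hzM with h1 | h1
    · filter_upwards [h1] with y hy
      show ¬ (s y ≤ 0)
      rw [hy]; norm_num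
    · have := h1.self_of_nhds
      rw [this] at hz'
      norm_num at hz'
  have hfr : frontier {z | s z ≤ 0} = M := by
    ext z
    rw [hK.frontier_eq]
    constructor
    · rintro ⟨h1, h2⟩
      by_contra hzM
      rcases side_off (hs z) hzM with h3 | h3
      · have : s z ≤ 0 := h1
        rw [h3.self_of_nhds] at this
        norm_num at this
      · apply h2
        rw [mem_interior_iff_mem_nhds]
        filter_upwards [h3] with y hy
        show s y ≤ 0
        rw [hy]; norm_num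
    · intro hz
      obtain ⟨h1, h2, -⟩ := side_signs (hs z) hz
      refine ⟨h1.le, fun hint => ?_⟩
      obtain ⟨y, hy1, hy2⟩ := (h2.and_eventually (mem_interior_iff_mem_nhds.1 hint)).exists
      have : s y ≤ 0 := hy2
      rw [hy1] at this
      norm_num at this
  refine ⟨_, hK, ?_, hfr⟩
  intro p hp
  rw [hfr] at hp
  obtain ⟨V, ρ, hV, hz, h1, h2, h3, h4⟩ := hs p
  refine ⟨V, ρ, hV, hz, h1, h3 p hz hp, fun y hy => ?_⟩
  show s y ≤ 0 ↔ ρ y ≤ 0
  rw [h4 y hy]
  rcases lt_trichotomy (ρ y) 0 with h | h | h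
  · rw [Real.sign_of_neg h]
    exact ⟨fun _ => h.le, fun _ => by norm_num⟩
  · rw [h, Real.sign_zero]
  · rw [Real.sign_of_pos h]
    exact ⟨fun h' => absurd h' (by norm_num), fun h' => absurd h (not_lt.2 h')⟩

end Vale.Agent.P210.Cvx
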