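import Vale.Agent.P210.H684.FinalR
import Vale.Agent.P210.H684.Sep

set_option linter.all false

open scoped ENNReal ContDiff Topology RealInnerProductSpace
open Set Filter Metric

namespace Vale.Agent.P210.Cvx

variable {n : ℕ}

theorem main_hyp (hn : 3 ≤ n) {M : Set (E (n + 1))} (hcl : IsClosed M) (hM : IsHypersurface M)
    (hscal : ∀ (U : Set (E n)) (φ : E n → E (n + 1)), IsLocalParam M U φ →
      ∀ x ∈ U, 1 ≤ scal (induced φ) x)
    (hyp : (IsConnected M ∧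
      ∀ (U : Set (E n)) (φ : E n → E (n + 1)), IsLocalParam M U φ →
        ∀ x ∈ U, ∀ w : Fin n → ℝ, 0 ≤ ∑ i, ∑ j, ricci (induced φ) i j x * w i * w j) ∨
      ∃ K : Set (E (n + 1)), IsClosed K ∧ Convex ℝ K ∧ SmoothBoundary K ∧ frontier K = M) :
    UrysohnWidthLE M (intrinsicDist M) (n - 2) (39 * thinC n) ∧
      ∃ f : Fin 3 → E (n + 1), Orthonormal ℝ f ∧
        ∀ x ∈ M, ∀ y ∈ M, ∀ i, |⟪f i, x - y⟫| ≤ 2 * thinC n := by
  rcases hyp with ⟨hconn, hric⟩ | ⟨K, hK, hc, hs, rfl⟩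
  · obtain ⟨K, hK, hs, rfl⟩ := exists_region hcl hM
    exact main_all hn hK hs hscal (Or.inr ⟨hconn, hric⟩)
  · exact main_all hn hK hs hscal (Or.inl hc)

end Vale.Agent.P210.Cvx
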