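import Mathlib.Analysis.Convex.Topology
import Mathlib.Analysis.Normed.Module.Convex
import Mathlib.Topology.MetricSpace.Basic
import Mathlib.Tactic

set_option linter.all false

open scoped Topology
open Set Metric

namespace Vale.Agent.P210.Cvx

/-- A discretely concave function lies above its chord. -/
lemma discrete_concave {g : ℕ → ℝ} {N : ℕ} (hN : 0 < N) (h0 : 0 ≤ g 0) (h1 : 1 ≤ g N)
    (h : ∀ k, 0 < k → k < N → (g (k - 1) + g (k + 1)) / 2 ≤ g k) :
    ∀ k ≤ N, (k : ℝ) / N ≤ g k := by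
  classical
  by_contra hcon
  push Not at hcon
  obtain ⟨k₀, hk₀, hlt⟩ := hcon
  have hNR : (0 : ℝ) < N := by exact_mod_cast hN
  set φ : ℕ → ℝ := fun k => g k - (k : ℝ) / N with hφ
  obtain ⟨k₁, hk₁, hmin⟩ := Finset.exists_min_image (Finset.range (N + 1)) φ ⟨0, by simp⟩
  set m := φ k₁ with hm
  have hm0 : m < 0 := by
    have h2 := hmin k₀ (by simp; omega)
    have h3 : φ k₀ < 0 := by simp only [hφ]; linarith
    linarith
  have hex : ∃ k, k ≤ N ∧ φ k = m := ⟨k₁, by simp at hk₁; omega, rfl⟩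
  set k := Nat.find hex with hk
  obtain ⟨hkN, hkm⟩ := Nat.find_spec hex
  have hk0 : k ≠ 0 := by
    intro h2
    rw [← hk, h2] at hkm
    simp only [hφ, Nat.cast_zero, zero_div, sub_zero] at hkm
    linarith
  have hkN' : k ≠ N := by
    intro h2
    rw [← hk, h2] at hkm
    simp only [hφ] at hkm
    rw [div_self hNR.ne'] at hkm
    linarith
  have h2 : 0 < k := Nat.pos_of_ne_zero hk0
  have h3 : k < N := lt_of_le_of_ne hkN hkN'
  have h4 := h k h2 h3
  have h5 : m < φ (k - 1) := by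
    refine lt_of_le_of_ne (hmin _ (by simp; omega)) fun h6 => ?_
    exact Nat.find_min hex (show k - 1 < k by omega) ⟨by omega, h6.symm⟩
  have h6 : m ≤ φ (k + 1) := hmin _ (by simp; omega)
  have h7 : ((k - 1 : ℕ) : ℝ) = k - 1 := by
    rw [Nat.cast_sub (by omega), Nat.cast_one]
  simp only [hφ] at h5 h6 hkm
  rw [← hk] at hkm
  rw [h7] at h5
  push_cast at h6
  have h8 : ((k : ℝ) - 1) / N + (k + 1) / N = 2 * (k / N) := by ring
  linarith

variable {F : Type} [NormedAddCommGroup F] [NormedSpace ℝ F]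

/-- Segments from `b` can be moved. -/
lemma thin_triangle {C : Set F} (hC : IsClosed C) {b z : F} {ε : ℝ} (hε : 0 < ε)
    (hseg : ∀ t ∈ Icc (0 : ℝ) 1, b + t • (z - b) ∈ C)
    (hloc : ∀ t ∈ Icc (0 : ℝ) 1, Convex ℝ (C ∩ ball (b + t • (z - b)) ε))
    {z' : F} (hz' : z' ∈ C) (hd : ‖z' - z‖ < ε / 2) :
    ∀ t ∈ Icc (0 : ℝ) 1, b + t • (z' - b) ∈ C := by
  classical
  obtain ⟨N, hN⟩ := exists_nat_gt (‖z - b‖ / (ε / 2))
  have hNR : (0 : ℝ) < N := lt_of_le_of_lt (by positivity) hN
  have hN0 : 0 < N := by exact_mod_cast hNR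
  have hstep : ‖z - b‖ / N < ε / 2 := by
    rw [div_lt_iff₀ hNR]
    rw [div_lt_iff₀ (by positivity)] at hN
    linarith
  set u := z' - z with hu
  set w : ℕ → F := fun k => b + ((k : ℝ) / N) • (z - b) with hw
  have hkI : ∀ k ≤ N, ((k : ℝ) / N) ∈ Icc (0 : ℝ) 1 := by
    intro k hk
    refine ⟨by positivity, ?_⟩
    rw [div_le_one hNR]
    exact_mod_cast hk
  set H : ℕ → Set ℝ := fun k => {η | η ∈ Icc (0 : ℝ) 1 ∧ w k + η • u ∈ C} with hH
  have hHc : ∀ k, IsCompact (H k) := by
    intro k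
    have h1 : IsClosed {η : ℝ | w k + η • u ∈ C} := hC.preimage (by fun_prop)
    exact isCompact_Icc.inter_right h1
  have hH0 : ∀ k ≤ N, (0 : ℝ) ∈ H k := by
    intro k hk
    refine ⟨by simp, ?_⟩
    rw [zero_smul, add_zero]
    exact hseg _ (hkI k hk)
  set g : ℕ → ℝ := fun k => sSup (H k) with hg
  have hgm : ∀ k ≤ N, g k ∈ H k := fun k hk => (hHc k).sSup_mem ⟨0, hH0 k hk⟩
  have hgle : ∀ k, ∀ η ∈ H k, η ≤ g k := fun k η hη => le_csSup (hHc k).bddAbove hη
  have hball : ∀ (k j : ℕ) (η : ℝ), η ∈ Icc (0 : ℝ) 1 → |((j : ℝ) - k)| ≤ 1 →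
      w j + η • u ∈ ball (w k) ε := by
    intro k j η hη hjk
    rw [mem_ball_iff_norm]
    have h1 : w j + η • u - w k = (((j : ℝ) - k) / N) • (z - b) + η • u := by
      simp only [hw]
      module
    rw [h1]
    refine (norm_add_le _ _).trans_lt ?_
    rw [norm_smul, norm_smul, Real.norm_eq_abs, Real.norm_eq_abs, abs_div, abs_of_pos hNR,
      abs_of_nonneg hη.1]
    have h2 : |((j : ℝ) - k)| / N * ‖z - b‖ ≤ ‖z - b‖ / N := by
      rw [div_mul_eq_mul_div]
      apply div_le_div_of_nonneg_right _ hNR.le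
      nlinarith [norm_nonneg (z - b)]
    have h3 : η * ‖u‖ ≤ ‖u‖ := by nlinarith [norm_nonneg u, hη.2]
    linarith
  have hmid : ∀ k, 0 < k → k < N → (g (k - 1) + g (k + 1)) / 2 ≤ g k := by
    intro k h0 h1
    have ha := hgm (k - 1) (by omega)
    have hb := hgm (k + 1) (by omega)
    have hk1 : ((k - 1 : ℕ) : ℝ) = k - 1 := by
      rw [Nat.cast_sub (by omega), Nat.cast_one]
    apply hgle
    refine ⟨⟨by linarith [ha.1.1, hb.1.1], by linarith [ha.1.2, hb.1.2]⟩, ?_⟩
    have hcv := hloc _ (hkI k h1.le)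
    have e1 : w (k - 1) + g (k - 1) • u ∈ C ∩ ball (w k) ε :=
      ⟨ha.2, hball k (k - 1) _ ha.1 (by rw [hk1]; norm_num)⟩
    have e2 : w (k + 1) + g (k + 1) • u ∈ C ∩ ball (w k) ε :=
      ⟨hb.2, hball k (k + 1) _ hb.1 (by push_cast; norm_num)⟩
    have e3 := hcv e1 e2 (a := 1 / 2) (b := 1 / 2) (by norm_num) (by norm_num) (by norm_num)
    have e4 : w k + ((g (k - 1) + g (k + 1)) / 2) • u
        = (1 / 2 : ℝ) • (w (k - 1) + g (k - 1) • u) + (1 / 2 : ℝ) • (w (k + 1) + g (k + 1) • u) := by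
      simp only [hw, hk1]
      push_cast
      have e5 : (k : ℝ) / N = (1 / 2) * ((k - 1) / N) + (1 / 2) * ((k + 1) / N) := by ring
      rw [e5]
      module
    rw [e4]
    exact e3.1
  have hg0 : 0 ≤ g 0 := hgle 0 0 (hH0 0 (Nat.zero_le _))
  have hgN : 1 ≤ g N := by
    apply hgle
    refine ⟨by simp, ?_⟩
    have : w N + (1 : ℝ) • u = z' := by
      simp only [hw, hu]
      rw [div_self hNR.ne']
      module
    rw [this]
    exact hz'
  have hall := discrete_concave hN0 hg0 hgN hmid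
  have hp : ∀ k ≤ N, w k + ((k : ℝ) / N) • u ∈ C := by
    intro k hk
    have hcv := hloc _ (hkI k hk)
    have hgk := hgm k hk
    rcases eq_or_lt_of_le hgk.1.1 with h0 | h0
    · have h1 : (k : ℝ) / N = 0 := le_antisymm (by rw [h0]; exact hall k hk) (by positivity)
      rw [h1, zero_smul, add_zero]
      exact hseg _ (hkI k hk)
    · have e1 : w k ∈ C ∩ ball (w k) ε := ⟨hseg _ (hkI k hk), mem_ball_self hε⟩
      have e2 : w k + g k • u ∈ C ∩ ball (w k) ε := ⟨hgk.2, hball k k _ hgk.1 (by simp)⟩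
      set s := (k : ℝ) / N / g k with hs
      have hs0 : 0 ≤ s := by positivity
      have hs1 : s ≤ 1 := (div_le_one h0).2 (hall k hk)
      have e3 := hcv e1 e2 (a := 1 - s) (b := s) (by linarith) hs0 (by ring)
      have e4 : w k + ((k : ℝ) / N) • u = (1 - s) • w k + s • (w k + g k • u) := by
        have e5 : (k : ℝ) / N = s * g k := by rw [hs, div_mul_cancel₀ _ h0.ne']
        rw [e5]
        module
      rw [e4]
      exact e3.1
  intro t ht
  set k := ⌊t * N⌋₊ with hk
  have ht0 : 0 ≤ t * N := mul_nonneg ht.1 hNR.le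
  have hk1 : (k : ℝ) ≤ t * N := Nat.floor_le ht0
  have hk2 : t * N < k + 1 := Nat.lt_floor_add_one _
  have hkN : k ≤ N := by
    have : (k : ℝ) ≤ N := hk1.trans (by nlinarith [ht.2])
    exact_mod_cast this
  rcases eq_or_lt_of_le hkN with hkN' | hkN'
  · have h1 : t = 1 := by
      refine le_antisymm ht.2 ?_
      rw [hkN'] at hk1
      by_contra h2
      push Not at h2
      nlinarith
    rw [h1, one_smul, add_sub_cancel]
    exact hz'
  · have e1 : w k + ((k : ℝ) / N) • u ∈ C ∩ ball (w k) ε :=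
      ⟨hp k hkN, hball k k _ (hkI k hkN) (by simp)⟩
    have e2 : w (k + 1) + (((k + 1 : ℕ) : ℝ) / N) • u ∈ C ∩ ball (w k) ε :=
      ⟨hp _ hkN', hball k (k + 1) _ (hkI _ hkN') (by push_cast; norm_num)⟩
    have hcv := hloc _ (hkI k hkN)
    have e3 := hcv e1 e2 (a := 1 - (t * N - k)) (b := t * N - k) (by linarith) (by linarith)
      (by ring)
    have e4 : b + t • (z' - b) = (1 - (t * N - k)) • (w k + ((k : ℝ) / N) • u)
        + (t * N - k) • (w (k + 1) + (((k + 1 : ℕ) : ℝ) / N) • u) := by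
      simp only [hw, hu]
      push_cast
      have e5 : t = (1 - (t * N - k)) * (k / N) + (t * N - k) * ((k + 1) / N) := by
        field_simp
        ring
      have e6 : b + t • (z' - b) = b + ((1 - (t * N - k)) * (k / N)
          + (t * N - k) * ((k + 1) / N)) • (z' - b) := by rw [← e5]
      rw [e6]
      module
    rw [e4]
    exact e3.1

/-- The theorem of Tietze and Nakajima. -/
theorem tietze {C : Set F} (hC : IsClosed C) (hconn : IsPreconnected C)
    (hloc : ∀ z ∈ C, ∃ ε > 0, Convex ℝ (C ∩ ball z ε)) : Convex ℝ C := by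
  classical
  have hstar : ∀ b ∈ C, ∀ z ∈ C, ∀ t ∈ Icc (0 : ℝ) 1, b + t • (z - b) ∈ C := by
    intro b hb
    set T : Set F := {z | ∀ t ∈ Icc (0 : ℝ) 1, b + t • (z - b) ∈ C} with hT
    have hTc : IsClosed T := by
      have : T = ⋂ t ∈ Icc (0 : ℝ) 1, (fun z => b + t • (z - b)) ⁻¹' C := by
        ext z; simp [hT]
      rw [this]
      exact isClosed_biInter fun t _ => hC.preimage (by fun_prop)
    have hop : ∀ z ∈ T, ∃ δ > 0, ∀ z' ∈ C, z' ∈ ball z δ → z' ∈ T := by
      intro z hz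
      choose! r hr hrc using hloc
      have hcomp : IsCompact ((fun t : ℝ => b + t • (z - b)) '' Icc 0 1) :=
        isCompact_Icc.image (by fun_prop)
      obtain ⟨ε, hε, hball⟩ := lebesgue_number_lemma_of_metric hcomp
        (c := fun w : C => ball (w : F) (r w)) (fun w => isOpen_ball) (by
          rintro _ ⟨t, ht, rfl⟩
          exact mem_iUnion.2 ⟨⟨_, hz t ht⟩, mem_ball_self (hr _ (hz t ht))⟩)
      refine ⟨ε / 2, by positivity, fun z' hz' hzz => ?_⟩
      refine thin_triangle hC hε hz ?_ hz' (by rwa [← mem_ball_iff_norm])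
      intro t ht
      obtain ⟨w, hw⟩ := hball _ (mem_image_of_mem _ ht)
      have h1 : C ∩ ball (b + t • (z - b)) ε
          = (C ∩ ball (w : F) (r w)) ∩ ball (b + t • (z - b)) ε := by
        ext y
        constructor
        · rintro ⟨h1, h2⟩
          exact ⟨⟨h1, hw h2⟩, h2⟩
        · rintro ⟨⟨h1, _⟩, h2⟩
          exact ⟨h1, h2⟩
      rw [h1]
      exact (hrc w w.2).inter (convex_ball _ _)
    choose! δ hδ hδT using hop
    set u : Set F := ⋃ z ∈ T ∩ C, ball z (δ z) with hu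
    have huo : IsOpen u := isOpen_biUnion fun _ _ => isOpen_ball
    have hcov : C ⊆ T ∪ uᶜ := by
      intro z hz
      by_cases hzT : z ∈ T
      · exact Or.inl hzT
      · right
        intro hzu
        obtain ⟨y, hy, hzy⟩ := mem_iUnion₂.1 hzu
        exact hzT (hδT y hy.1 z hz hzy)
    have hbT : b ∈ T := by
      intro t _
      rw [sub_self, smul_zero, add_zero]
      exact hb
    have hcl := isPreconnected_closed_iff.1 hconn T uᶜ hTc huo.isClosed_compl hcov ⟨b, hb, hbT⟩
    intro z hz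
    rcases hcov hz with h1 | h1
    · exact h1
    · exfalso
      obtain ⟨y, hyC, hyT, hyu⟩ := hcl ⟨z, hz, h1⟩
      exact hyu (mem_iUnion₂.2 ⟨y, ⟨hyT, hyC⟩, mem_ball_self (hδ y hyT)⟩)
  intro x hx y hy a c ha hc hac
  have := hstar x hx y hy c ⟨hc, by linarith⟩
  have h2 : a • x + c • y = x + c • (y - x) := by
    rw [show a = 1 - c by linarith]
    module
  rw [h2]
  exact this

/-- A closed set with connected boundary is connected. -/
theorem preconnected_of_frontier {K : Set F} (hK : IsClosed K)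
    (hfr : IsPreconnected (frontier K)) : IsPreconnected K := by
  rw [isPreconnected_closed_iff]
  intro t t' ht ht' hcov hne hne'
  by_contra hemp
  have hsub : frontier K ⊆ K := hK.frontier_subset
  -- one of the two pieces misses the boundary
  have key : ∀ s s' : Set F, IsClosed s → IsClosed s' → K ⊆ s ∪ s' → (K ∩ s).Nonempty →
      (K ∩ s').Nonempty → ¬ (K ∩ (s ∩ s')).Nonempty → ¬ (frontier K ∩ s').Nonempty → False := by
    intro s s' hs hs' hc h1 h2 h3 h4
    have hop : IsOpen (K ∩ s') := by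
      rw [isOpen_iff_mem_nhds]
      rintro z ⟨hzK, hzs⟩
      have hzi : z ∈ interior K := by
        by_contra hni
        exact h4 ⟨z, by rw [hK.frontier_eq]; exact ⟨hzK, hni⟩, hzs⟩
      have hzs' : z ∉ s := fun h => h3 ⟨z, hzK, h, hzs⟩
      filter_upwards [isOpen_interior.mem_nhds hzi, hs.isOpen_compl.mem_nhds hzs'] with y hy hys
      have hyK := interior_subset hy
      exact ⟨hyK, (hc hyK).resolve_left hys⟩
    have hcl : IsClopen (K ∩ s') := ⟨hK.inter hs', hop⟩
    rcases isClopen_iff.1 hcl with h | h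
    · rw [h] at h2
      exact not_nonempty_empty h2
    · obtain ⟨y, hyK, hys⟩ := h1
      have : y ∈ K ∩ s' := by rw [h]; exact mem_univ y
      exact h3 ⟨y, hyK, hys, this.2⟩
  by_cases h1 : (frontier K ∩ t).Nonempty
  · by_cases h2 : (frontier K ∩ t').Nonempty
    · obtain ⟨z, hz, hz'⟩ := isPreconnected_closed_iff.1 hfr t t' ht ht' (hsub.trans hcov) h1 h2
      exact hemp ⟨z, hsub hz, hz'⟩
    · exact key t t' ht ht' hcov hne hne' hemp h2
  · refine key t' t ht' ht (by rwa [union_comm]) hne' hne (by rwa [inter_comm t' t]) h1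

end Vale.Agent.P210.Cvx
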