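import Vale.Agent.P210.H684.Chart
import Vale.Agent.P210.H684.Tietze

set_option linter.all false

open scoped ENNReal ContDiff Topology RealInnerProductSpace
open Set Filter Metric

namespace Vale.Agent.P210.Cvx

variable {n : ℕ}

/-- Nonnegative Ricci curvature and scalar curvature at least one. -/
def CurvHyp (K : Set (E (n + 1))) : Prop :=
  ∀ (U : Set (E n)) (φ : E n → E (n + 1)), IsLocalParam (frontier K) U φ →
    ∀ x ∈ U, (∀ w : Fin n → ℝ, 0 ≤ ∑ i, ∑ j, ricci (induced φ) i j x * w i * w j) ∧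
      1 ≤ scal (induced φ) x

lemma continuousOn_tau {U : Set (E n)} (hU : IsOpen U) {h : E n → ℝ}
    (hh : ContDiffOn ℝ ∞ h U) : ContinuousOn (tau h) U := by
  have c1 : ∀ k, ContinuousOn (pd k h) U := fun k => (contDiffOn_pd hU hh k).continuousOn
  have c2 : ∀ k l, ContinuousOn (pd k (pd l h)) U := fun k l =>
    (contDiffOn_pd hU (contDiffOn_pd hU hh l) k).continuousOn
  have hW : ContinuousOn (fun x => 1 + ∑ l, pd l h x ^ 2) U :=
    continuousOn_const.add (continuousOn_finset_sum _ fun l _ => (c1 l).pow 2)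
  have hW0 : ∀ x, (1 + ∑ l, pd l h x ^ 2) ≠ 0 := by
    intro x
    have : 0 ≤ ∑ l, pd l h x ^ 2 := Finset.sum_nonneg fun _ _ => sq_nonneg _
    positivity
  unfold tau
  refine ContinuousOn.sub (ContinuousOn.div (continuousOn_finset_sum _ fun k _ => c2 k k) hW
    fun x _ => hW0 x) (ContinuousOn.div (continuousOn_finset_sum _ fun k _ => (c1 k).mul
      (continuousOn_finset_sum _ fun l _ => (c1 l).mul (c2 k l))) (hW.pow 2)
      fun x _ => pow_ne_zero 2 (hW0 x))

lemma cX_gT {N : ℕ} {ν p : E N} {e : Fin n → E N} (he : Orthonormal ℝ e)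
    (heν : ∀ i, ⟪e i, ν⟫ = 0) (x : E n) (s : ℝ) : cX e p (p + gT e ν (x, s)) = x := by
  ext i
  simp only [cX]
  rw [add_sub_cancel_left, gT_apply, inner_sub_right, inner_smul_right, heν, mul_zero, sub_zero]
  exact he.inner_right_fintype (fun j => x j) i

lemma cS_gT {N : ℕ} {ν p : E N} {e : Fin n → E N} (hν : ‖ν‖ = 1)
    (heν : ∀ i, ⟪e i, ν⟫ = 0) (x : E n) (s : ℝ) : cS ν p (p + gT e ν (x, s)) = s := by
  unfold cS
  have h2 : ∑ i, ⟪ν, x i • e i⟫ = 0 := by
    refine Finset.sum_eq_zero fun i _ => ?_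
    rw [inner_smul_right, real_inner_comm, heν, mul_zero]
  rw [add_sub_cancel_left, gT_apply, inner_sub_right, inner_sum, h2, inner_smul_right,
    real_inner_self_eq_norm_sq, hν]
  ring

/-- Near a boundary point, either `K` or the closure of its complement is convex, not both. -/
theorem local_dichotomy {K : Set (E (n + 1))} (hcl : IsClosed K) (hs : SmoothBoundary K)
    (hyp : CurvHyp K) {p : E (n + 1)} (hp : p ∈ frontier K) :
    (∃ ε > 0, Convex ℝ (K ∩ ball p ε) ∨ Convex ℝ ((interior K)ᶜ ∩ ball p ε)) ∧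
      ∀ ε > 0, Convex ℝ (K ∩ ball p ε) → Convex ℝ ((interior K)ᶜ ∩ ball p ε) → False := by
  obtain ⟨ν, e, hν, he, heν, hco, r, ε, h, hr, hε, hh, hh0, hfr, hch⟩ := exists_chart hcl hs hp
  have hU : IsOpen (ball (0 : E n) r) := isOpen_ball
  have h0U : (0 : E n) ∈ ball (0 : E n) r := mem_ball_self hr
  obtain ⟨hφ, hg⟩ := graph_param hU hh hν he heν hfr
  have hsig : ∀ x ∈ ball (0 : E n) r, tau h x ≠ 0 ∧ ∀ w, 0 ≤ tau h x * hess h x w := by
    intro x hx
    obtain ⟨h1, h2⟩ := hyp _ _ hφ x hx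
    exact hess_sign hU hh hg hx h1 h2
  constructor
  · refine ⟨ε, hε, ?_⟩
    have hcont := continuousOn_tau hU hh
    have hsign : (∀ x ∈ ball (0 : E n) r, 0 < tau h x) ∨ (∀ x ∈ ball (0 : E n) r, tau h x < 0) := by
      by_contra hno
      push Not at hno
      obtain ⟨⟨x, hx, hx0⟩, ⟨y, hy, hy0⟩⟩ := hno
      obtain ⟨z, hz, hz0⟩ := (convex_ball (0 : E n) r).isPreconnected.intermediate_value hx hy
        hcont ⟨hx0, hy0⟩
      exact (hsig z hz).1 hz0
    rcases hsign with hpos | hneg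
    · left
      have hpos' : ∀ x ∈ ball (0 : E n) r, ∀ w, 0 ≤ (1 : ℝ) * hess h x w := by
        intro x hx w
        rw [one_mul]
        exact nonneg_of_mul_nonneg_right ((hsig x hx).2 w) (hpos x hx)
      rintro z₁ ⟨hz₁, hb₁⟩ z₂ ⟨hz₂, hb₂⟩ a c ha hc hac
      have hb := convex_ball p ε hb₁ hb₂ ha hc hac
      refine ⟨?_, hb⟩
      rw [(hch _ hb).2.1, cX_combo e p _ _ hac, cS_combo ν p _ _ hac]
      have h1 := convex_of_hess hU (convex_ball _ _) hh hpos' (hch _ hb₁).1 (hch _ hb₂).1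
        ha hc hac
      rw [one_mul, one_mul, one_mul] at h1
      have h2 := (hch _ hb₁).2.1.1 hz₁
      have h3 := (hch _ hb₂).2.1.1 hz₂
      have h4 := mul_le_mul_of_nonneg_left h2 ha
      have h5 := mul_le_mul_of_nonneg_left h3 hc
      linarith
    · right
      have hpos' : ∀ x ∈ ball (0 : E n) r, ∀ w, 0 ≤ (-1 : ℝ) * hess h x w := by
        intro x hx w
        have h1 := (hsig x hx).2 w
        have h2 := hneg x hx
        by_contra h3
        push Not at h3
        have h4 : 0 < hess h x w := by linarith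
        have := mul_neg_of_neg_of_pos h2 h4
        linarith
      rintro z₁ ⟨hz₁, hb₁⟩ z₂ ⟨hz₂, hb₂⟩ a c ha hc hac
      have hb := convex_ball p ε hb₁ hb₂ ha hc hac
      refine ⟨?_, hb⟩
      rw [mem_compl_iff, (hch _ hb).2.2, cX_combo e p _ _ hac, cS_combo ν p _ _ hac, not_lt]
      have h1 := convex_of_hess hU (convex_ball _ _) hh hpos' (hch _ hb₁).1 (hch _ hb₂).1
        ha hc hac
      have h2 : cS ν p z₁ ≤ h (cX e p z₁) := by
        rw [← not_lt, ← (hch _ hb₁).2.2]; exact hz₁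
      have h3 : cS ν p z₂ ≤ h (cX e p z₂) := by
        rw [← not_lt, ← (hch _ hb₂).2.2]; exact hz₂
      have h4 := mul_le_mul_of_nonneg_left h2 ha
      have h5 := mul_le_mul_of_nonneg_left h3 hc
      linarith
  · intro ε' hε' hc1 hc2
    have hz : ∀ v : E n, hess h 0 (fun i => v i) = 0 := by
      intro v
      apply hess_eq_zero hU h0U hh v
      have hlim : ∀ u : E n, ∀ᶠ t in 𝓝 (0 : ℝ), t • u ∈ ball (0 : E n) r ∧
          p + gT e ν (t • u, h (t • u)) ∈ ball p (min ε ε') := by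
        intro u
        have h1 : Tendsto (fun t : ℝ => t • u) (𝓝 0) (𝓝 0) := by
          have h2 : Continuous (fun t : ℝ => t • u) := by fun_prop
          have h3 := h2.tendsto 0
          rwa [zero_smul] at h3
        have h2 : ContinuousAt (fun x => p + gT e ν (x, h x)) (0 : E n) := by
          have h1 : ContinuousAt h 0 := (hh.contDiffAt (hU.mem_nhds h0U)).continuousAt
          exact ((gT e ν).continuous.continuousAt.comp (continuousAt_id.prodMk h1)).const_add p
        have h3 := h2.tendsto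
        beta_reduce at h3
        rw [hh0, show p + gT e ν ((0 : E n), (0 : ℝ)) = p from by rw [gT_apply]; simp] at h3
        exact (h1.eventually (hU.mem_nhds h0U)).and
          ((h3.comp h1).eventually (ball_mem_nhds p (lt_min hε hε')))
      filter_upwards [hlim v, hlim (-v)] with t ht1 ht2
      rw [smul_neg] at ht2
      set x := t • v with hx
      have hb1 := ball_subset_ball (min_le_left _ _) ht1.2
      have hb2 := ball_subset_ball (min_le_left _ _) ht2.2
      have hb1' := ball_subset_ball (min_le_right _ _) ht1.2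
      have hb2' := ball_subset_ball (min_le_right _ _) ht2.2
      have hf1 := hfr x ht1.1
      have hf2 := hfr (-x) ht2.1
      rw [hcl.frontier_eq] at hf1 hf2
      have hhalf : (0 : ℝ) ≤ 1 / 2 := by norm_num
      have hone : (1 / 2 : ℝ) + 1 / 2 = 1 := by norm_num
      have hb0 := (convex_ball p ε) hb1 hb2 hhalf hhalf hone
      have hK := (hc1 ⟨hf1.1, hb1'⟩ ⟨hf2.1, hb2'⟩ hhalf hhalf hone).1
      have hK' := (hc2 ⟨hf1.2, hb1'⟩ ⟨hf2.2, hb2'⟩ hhalf hhalf hone).1
      rw [(hch _ hb0).2.1, cX_combo e p _ _ hone, cS_combo ν p _ _ hone,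
        cX_gT he heν, cX_gT he heν, cS_gT hν heν, cS_gT hν heν] at hK
      rw [mem_compl_iff, (hch _ hb0).2.2, cX_combo e p _ _ hone,
        cS_combo ν p _ _ hone, cX_gT he heν, cX_gT he heν, cS_gT hν heν,
        cS_gT hν heν, not_lt] at hK'
      have h0 : (1 / 2 : ℝ) • x + (1 / 2 : ℝ) • (-x) = 0 := by module
      rw [h0, hh0] at hK hK'
      linarith
    apply (hsig 0 h0U).1
    have h1 : ∀ k, pd k (pd k h) 0 = 0 := by
      intro k
      have := hz (EuclideanSpace.single k 1)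
      unfold hess at this
      simpa [Pi.single_apply] using this
    have h2 : ∑ k, pd k h 0 * ∑ l, pd l h 0 * pd k (pd l h) 0 = 0 := by
      have := hz (WithLp.toLp 2 (fun k => pd k h 0))
      unfold hess at this
      rw [← this]
      refine Finset.sum_congr rfl fun k _ => ?_
      rw [Finset.mul_sum]
      refine Finset.sum_congr rfl fun l _ => ?_
      ring
    unfold tau
    rw [h2]
    simp [h1]

/-- The closure of the complement. -/
theorem compl_smooth {K : Set (E (n + 1))} (hcl : IsClosed K) (hs : SmoothBoundary K) :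
    frontier (interior K)ᶜ = frontier K ∧ SmoothBoundary (interior K)ᶜ := by
  have hfr : frontier (interior K)ᶜ = frontier K := by
    rw [frontier_compl, hcl.frontier_eq, isOpen_interior.frontier_eq]
    ext z
    constructor
    · rintro ⟨h1, h2⟩
      exact ⟨by
        have := closure_mono (interior_subset (s := K)) h1
        rwa [hcl.closure_eq] at this, h2⟩
    · rintro ⟨h1, h2⟩
      refine ⟨?_, h2⟩
      have hz : z ∈ frontier K := by rw [hcl.frontier_eq]; exact ⟨h1, h2⟩
      obtain ⟨V, ρ, hV, hpV, hρ, hne, hK⟩ := hs z hz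
      obtain ⟨d, hd⟩ : ∃ d, fderiv ℝ ρ z d < 0 := by
        by_contra hno
        push Not at hno
        apply hne
        ext d
        have h1 := hno d
        have h2 := hno (-d)
        rw [map_neg] at h2
        have : fderiv ℝ ρ z d = 0 := le_antisymm (by linarith) h1
        simpa using this
      have h3 := dir_interior (rho_eq_zero hcl hz hV hpV hρ hK).le hV hpV hρ hK hd
      have h4 : Tendsto (fun s : ℝ => z + s • d) (𝓝[>] 0) (𝓝 z) := by
        have h5 : Continuous (fun s : ℝ => z + s • d) := by fun_prop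
        have h6 := h5.tendsto 0
        rw [zero_smul, add_zero] at h6
        exact h6.mono_left nhdsWithin_le_nhds
      exact mem_closure_of_tendsto h4 h3
  refine ⟨hfr, ?_⟩
  intro p hp
  rw [hfr] at hp
  obtain ⟨V, ρ, hV, hpV, hρ, hne, hK⟩ := hs p hp
  have h1 : ContDiffOn ℝ ∞ (fderiv ℝ ρ) V := hρ.fderiv_of_isOpen hV (by simp)
  have hV' : IsOpen (V ∩ fderiv ℝ ρ ⁻¹' {0}ᶜ) :=
    h1.continuousOn.isOpen_inter_preimage hV isOpen_compl_singleton
  refine ⟨V ∩ fderiv ℝ ρ ⁻¹' {0}ᶜ, fun z => -ρ z, hV', ⟨hpV, hne⟩,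
    (hρ.mono inter_subset_left).neg, ?_, ?_⟩
  · rw [fderiv_fun_neg]
    exact neg_ne_zero.2 hne
  · rintro z ⟨hzV, hzd⟩
    constructor
    · intro hz
      by_contra hlt
      push Not at hlt
      apply hz
      have hVneg : IsOpen (V ∩ ρ ⁻¹' Iio 0) := hρ.continuousOn.isOpen_inter_preimage hV isOpen_Iio
      exact interior_maximal (fun z hz => (hK z hz.1).2 (le_of_lt hz.2)) hVneg
        ⟨hzV, by show ρ z < 0; linarith⟩
    · intro hle hint
      have h2 : ρ z = 0 := le_antisymm ((hK z hzV).1 (interior_subset hint)) (by linarith)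
      have hmax : IsLocalMax ρ z := by
        filter_upwards [mem_interior_iff_mem_nhds.1 hint, hV.mem_nhds hzV] with y h3 h4
        rw [h2]
        exact (hK y h4).1 h3
      exact hzd hmax.fderiv_eq_zero

lemma isOpen_locConvex {F : Type} [NormedAddCommGroup F] [NormedSpace ℝ F] (K : Set F) :
    IsOpen {q | ∃ ε > 0, Convex ℝ (K ∩ ball q ε)} := by
  rw [Metric.isOpen_iff]
  rintro q ⟨ε, hε, hc⟩
  refine ⟨ε, hε, fun q' hq' => ?_⟩
  have h1 : 0 < ε - dist q' q := sub_pos.2 hq'
  refine ⟨ε - dist q' q, h1, ?_⟩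
  have h2 : ball q' (ε - dist q' q) ⊆ ball q ε := ball_subset_ball' (by linarith)
  have h3 : K ∩ ball q' (ε - dist q' q) = (K ∩ ball q ε) ∩ ball q' (ε - dist q' q) := by
    ext y
    exact ⟨fun ⟨a, b⟩ => ⟨⟨a, h2 b⟩, b⟩, fun ⟨⟨a, _⟩, b⟩ => ⟨a, b⟩⟩
  rw [h3]
  exact hc.inter (convex_ball _ _)

lemma locConvex_shrink {F : Type} [NormedAddCommGroup F] [NormedSpace ℝ F] {K : Set F} {q : F}
    {ε δ : ℝ} (h : Convex ℝ (K ∩ ball q ε)) (hδ : δ ≤ ε) : Convex ℝ (K ∩ ball q δ) := by
  have h3 : K ∩ ball q δ = (K ∩ ball q ε) ∩ ball q δ := by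
    ext y
    exact ⟨fun ⟨a, b⟩ => ⟨⟨a, ball_subset_ball hδ b⟩, b⟩, fun ⟨⟨a, _⟩, b⟩ => ⟨a, b⟩⟩
  rw [h3]
  exact h.inter (convex_ball _ _)

/-- Local convexity at the boundary gives convexity. -/
lemma convex_of_loc {F : Type} [NormedAddCommGroup F] [NormedSpace ℝ F] {K : Set F}
    (hcl : IsClosed K) (hconn : IsPreconnected (frontier K))
    (h : ∀ q ∈ frontier K, ∃ ε > 0, Convex ℝ (K ∩ ball q ε)) : Convex ℝ K := by
  refine tietze hcl (preconnected_of_frontier hcl hconn) fun z hz => ?_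
  by_cases hi : z ∈ interior K
  · obtain ⟨ε, hε, hb⟩ := Metric.isOpen_iff.1 isOpen_interior z hi
    refine ⟨ε, hε, ?_⟩
    rw [inter_eq_right.2 (hb.trans interior_subset)]
    exact convex_ball _ _
  · exact h z (by rw [hcl.frontier_eq]; exact ⟨hz, hi⟩)

theorem global_convex {K : Set (E (n + 1))} (hcl : IsClosed K) (hs : SmoothBoundary K)
    (hconn : IsPreconnected (frontier K)) (hyp : CurvHyp K) :
    Convex ℝ K ∨ Convex ℝ (interior K)ᶜ := by
  set OA : Set (E (n + 1)) := {q | ∃ ε > 0, Convex ℝ (K ∩ ball q ε)} with hOA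
  set OB : Set (E (n + 1)) := {q | ∃ ε > 0, Convex ℝ ((interior K)ᶜ ∩ ball q ε)} with hOB
  have hcov : frontier K ⊆ OA ∪ OB := by
    intro q hq
    obtain ⟨ε, hε, h1⟩ := (local_dichotomy hcl hs hyp hq).1
    rcases h1 with h1 | h1
    · exact Or.inl ⟨ε, hε, h1⟩
    · exact Or.inr ⟨ε, hε, h1⟩
  have hdis : ¬ (frontier K ∩ (OA ∩ OB)).Nonempty := by
    rintro ⟨q, hq, ⟨ε₁, hε₁, h1⟩, ⟨ε₂, hε₂, h2⟩⟩
    exact (local_dichotomy hcl hs hyp hq).2 (min ε₁ ε₂) (lt_min hε₁ hε₂)
      (locConvex_shrink h1 (min_le_left _ _)) (locConvex_shrink h2 (min_le_right _ _))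
  have hpre := hconn OA OB (isOpen_locConvex K) (isOpen_locConvex _) hcov
  by_cases hA : (frontier K ∩ OA).Nonempty
  · have hB : ¬ (frontier K ∩ OB).Nonempty := fun hB => hdis (hpre hA hB)
    left
    refine convex_of_loc hcl hconn fun q hq => ?_
    exact (hcov hq).resolve_right fun h => hB ⟨q, hq, h⟩
  · right
    have hfr := (compl_smooth hcl hs).1
    refine convex_of_loc isOpen_interior.isClosed_compl (by rw [hfr]; exact hconn)
      fun q hq => ?_
    rw [hfr] at hq
    exact (hcov hq).resolve_left fun h => hA ⟨q, hq, h⟩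

end Vale.Agent.P210.Cvx
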