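import Vale.Agent.P210.H684.Defs
import Mathlib.Analysis.Calculus.FDeriv.Symmetric

set_option linter.all false

open scoped ENNReal ContDiff Topology
open Set

namespace Vale.Agent.P210.Cvx

variable {n : ℕ}

lemma pd_congr {i : Fin n} {f f' : E n → ℝ} {x : E n} (h : f =ᶠ[𝓝 x] f') : pd i f x = pd i f' x := by
  unfold pd
  rw [h.fderiv_eq]

lemma pd_mul {i : Fin n} {f f' : E n → ℝ} {x : E n} (h : DifferentiableAt ℝ f x)
    (h' : DifferentiableAt ℝ f' x) :
    pd i (fun y => f y * f' y) x = f x * pd i f' x + f' x * pd i f x := by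
  unfold pd
  rw [fderiv_fun_mul h h']
  simp

lemma pd_const_add {i : Fin n} {f : E n → ℝ} {x : E n} (c : ℝ) :
    pd i (fun y => c + f y) x = pd i f x := by
  unfold pd
  rw [fderiv_const_add]

lemma contDiffOn_pd {U : Set (E n)} (hU : IsOpen U) {f : E n → ℝ} (hf : ContDiffOn ℝ ∞ f U)
    (i : Fin n) : ContDiffOn ℝ ∞ (pd i f) U := by
  have h1 : ContDiffOn ℝ ∞ (fderiv ℝ f) U := hf.fderiv_of_isOpen hU (by simp)
  exact h1.clm_apply contDiffOn_const

lemma pd_symm {U : Set (E n)} (hU : IsOpen U) {f : E n → ℝ} (hf : ContDiffOn ℝ ∞ f U)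
    (i j : Fin n) {x : E n} (hx : x ∈ U) : pd i (pd j f) x = pd j (pd i f) x := by
  have hfx : ContDiffAt ℝ ∞ f x := hf.contDiffAt (hU.mem_nhds hx)
  have h2 : IsSymmSndFDerivAt ℝ f x := hfx.isSymmSndFDerivAt (by
    simp only [minSmoothness_of_isRCLikeNormedField]
    exact WithTop.coe_le_coe.2 le_top)
  have hd : DifferentiableAt ℝ (fderiv ℝ f) x := by
    have h1 : ContDiffOn ℝ ∞ (fderiv ℝ f) U := hf.fderiv_of_isOpen hU (by simp)
    exact (h1.contDiffAt (hU.mem_nhds hx)).differentiableAt (by simp)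
  have key : ∀ a b : Fin n, pd a (pd b f) x
      = fderiv ℝ (fderiv ℝ f) x (EuclideanSpace.single a 1) (EuclideanSpace.single b 1) := by
    intro a b
    unfold pd
    have : HasFDerivAt (fun y => fderiv ℝ f y (EuclideanSpace.single b 1))
        ((fderiv ℝ (fderiv ℝ f) x).flip (EuclideanSpace.single b 1)) x := by
      have := hd.hasFDerivAt.clm_apply
        (hasFDerivAt_const (EuclideanSpace.single b (1 : ℝ) : E n) x)
      simpa using this
    rw [this.fderiv]
    rfl
  rw [key, key]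
  exact h2.eq _ _

/-- Christoffel symbols of the metric `1 + ∇h ⊗ ∇h`. -/
lemma christoffel_graph {U : Set (E n)} (hU : IsOpen U) {h : E n → ℝ} (hh : ContDiffOn ℝ ∞ h U)
    {g : E n → Matrix (Fin n) (Fin n) ℝ}
    (hg : ∀ x ∈ U, ∀ i j, g x i j = (1 : Matrix (Fin n) (Fin n) ℝ) i j + pd i h x * pd j h x)
    (k i j : Fin n) {x : E n} (hx : x ∈ U) :
    christoffel g k i j x = pd i (pd j h) x * (pd k h x / (1 + ∑ l, pd l h x ^ 2)) := by
  have hd : ∀ a, DifferentiableAt ℝ (pd a h) x := fun a =>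
    ((contDiffOn_pd hU hh a).contDiffAt (hU.mem_nhds hx)).differentiableAt (by simp)
  have hgd : ∀ a b c, pd a (fun y => g y b c) x
      = pd b h x * pd a (pd c h) x + pd c h x * pd a (pd b h) x := by
    intro a b c
    have h1 : (fun y => g y b c) =ᶠ[𝓝 x]
        fun y => (1 : Matrix (Fin n) (Fin n) ℝ) b c + pd b h y * pd c h y := by
      filter_upwards [hU.mem_nhds hx] with y hy
      exact hg y hy b c
    rw [pd_congr h1, pd_const_add, pd_mul (hd b) (hd c)]
  have hs := fun a b => pd_symm hU hh a b hx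
  set v : Fin n → ℝ := fun l => pd l h x with hv
  set s : ℝ := ∑ l, v l ^ 2 with hs'
  have hs0 : 0 ≤ s := Finset.sum_nonneg fun _ _ => sq_nonneg _
  have hgx : g x = 1 + Matrix.vecMulVec v v := by
    ext a b
    rw [hg x hx]
    simp [Matrix.vecMulVec, hv]
  have hinv : (g x)⁻¹ = 1 - (1 / (1 + s)) • Matrix.vecMulVec v v := by
    apply Matrix.inv_eq_right_inv
    rw [hgx]
    have hvv : Matrix.vecMulVec v v * Matrix.vecMulVec v v = s • Matrix.vecMulVec v v := by
      ext a b
      simp only [Matrix.mul_apply, Matrix.vecMulVec_apply, Matrix.smul_apply, smul_eq_mul]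
      rw [hs', Finset.sum_mul]
      exact Finset.sum_congr rfl fun c _ => by ring
    have h1 : (1 + s) ≠ 0 := by positivity
    rw [add_mul, mul_sub, mul_sub, one_mul, one_mul, mul_one, Matrix.mul_smul, hvv, smul_smul]
    have : (1 / (1 + s)) * s = 1 - 1 / (1 + s) := by field_simp; ring
    rw [this, sub_smul, one_smul]
    abel
  unfold christoffel
  have hterm : ∀ l, (pd i (fun y => g y j l) x + pd j (fun y => g y i l) x
      - pd l (fun y => g y i j) x) = 2 * pd i (pd j h) x * v l := by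
    intro l
    rw [hgd, hgd, hgd, hs j i, hs l j, hs l i]
    simp only [hv]
    ring
  simp_rw [hterm]
  rw [hinv]
  have h3 : ∑ l, (1 - (1 / (1 + s)) • Matrix.vecMulVec v v) k l * (2 * pd i (pd j h) x * v l)
      = 2 * pd i (pd j h) x * (v k - (1 / (1 + s)) * v k * s) := by
    have : ∀ l, (1 - (1 / (1 + s)) • Matrix.vecMulVec v v) k l * (2 * pd i (pd j h) x * v l)
        = 2 * pd i (pd j h) x * ((1 : Matrix (Fin n) (Fin n) ℝ) k l * v l)
          - 2 * pd i (pd j h) x * ((1 / (1 + s)) * v k * v l ^ 2) := by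
      intro l
      simp only [Matrix.sub_apply, Matrix.smul_apply, Matrix.vecMulVec_apply, smul_eq_mul]
      ring
    simp_rw [this]
    rw [Finset.sum_sub_distrib, ← Finset.mul_sum, ← Finset.mul_sum, ← Finset.mul_sum]
    have h4 : ∑ l, (1 : Matrix (Fin n) (Fin n) ℝ) k l * v l = v k := by
      simp [Matrix.one_apply]
    rw [h4, ← hs']
    ring
  rw [h3]
  have h1 : (1 + s) ≠ 0 := by positivity
  field_simp
  ring

/-- Scalar curvature of the metric `1 + ∇h ⊗ ∇h` at a critical point of `h`. -/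
theorem scal_graph {U : Set (E n)} (hU : IsOpen U) {h : E n → ℝ} (hh : ContDiffOn ℝ ∞ h U)
    {g : E n → Matrix (Fin n) (Fin n) ℝ}
    (hg : ∀ x ∈ U, ∀ i j, g x i j = (1 : Matrix (Fin n) (Fin n) ℝ) i j + pd i h x * pd j h x)
    {x : E n} (hx : x ∈ U) (hc : ∀ i, pd i h x = 0) :
    scal g x = (∑ i, pd i (pd i h) x) ^ 2 - ∑ i, ∑ j, pd i (pd j h) x ^ 2 := by
  have hd : ∀ a, DifferentiableAt ℝ (pd a h) x := fun a =>
    ((contDiffOn_pd hU hh a).contDiffAt (hU.mem_nhds hx)).differentiableAt (by simp)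
  have hd2 : ∀ a b, DifferentiableAt ℝ (pd a (pd b h)) x := fun a b =>
    ((contDiffOn_pd hU (contDiffOn_pd hU hh b) a).contDiffAt
      (hU.mem_nhds hx)).differentiableAt (by simp)
  have hs := fun a b => pd_symm hU hh a b hx
  have hS : DifferentiableAt ℝ (fun y => 1 + ∑ l, pd l h y ^ 2) x := by
    apply DifferentiableAt.const_add
    exact DifferentiableAt.fun_sum fun l _ => (hd l).pow 2
  have hS0 : (1 + ∑ l, pd l h x ^ 2) = 1 := by simp [hc]
  have hI : DifferentiableAt ℝ (fun y => (1 + ∑ l, pd l h y ^ 2)⁻¹) x :=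
    hS.fun_inv (by rw [hS0]; exact one_ne_zero)
  have hq : ∀ k, DifferentiableAt ℝ (fun y => pd k h y * (1 + ∑ l, pd l h y ^ 2)⁻¹) x := by
    intro k
    exact (hd k).mul hI
  have hqd : ∀ m k, pd m (fun y => pd k h y * (1 + ∑ l, pd l h y ^ 2)⁻¹) x
      = pd m (pd k h) x := by
    intro m k
    rw [pd_mul (hd k) hI, hc k, hS0]
    simp
  have hchr : ∀ k i j, christoffel g k i j x = 0 := by
    intro k i j
    rw [christoffel_graph hU hh hg k i j hx, hc k]
    simp
  have hchd : ∀ m k i j, pd m (christoffel g k i j) x = pd i (pd j h) x * pd m (pd k h) x := by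
    intro m k i j
    have h1 : christoffel g k i j =ᶠ[𝓝 x]
        fun y => pd i (pd j h) y * (pd k h y * (1 + ∑ l, pd l h y ^ 2)⁻¹) := by
      filter_upwards [hU.mem_nhds hx] with y hy
      rw [christoffel_graph hU hh hg k i j hy, div_eq_mul_inv]
    rw [pd_congr h1, pd_mul (hd2 i j) (hq k), hqd, hc k]
    simp
  have hgx : g x = 1 := by
    ext a b
    rw [hg x hx]
    simp [hc]
  unfold scal
  rw [hgx, inv_one]
  have hric : ∀ i j, ricci g i j x
      = ∑ k, (pd i (pd j h) x * pd k (pd k h) x - pd i (pd k h) x * pd j (pd k h) x) := by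
    intro i j
    unfold ricci
    refine Finset.sum_congr rfl fun k _ => ?_
    rw [hchd, hchd]
    simp [hchr]
  simp_rw [hric]
  simp only [Matrix.one_apply, ite_mul, one_mul, zero_mul, Finset.sum_ite_eq,
    Finset.mem_univ, if_true]
  rw [sq, Finset.sum_mul_sum, ← Finset.sum_sub_distrib]
  refine Finset.sum_congr rfl fun i _ => ?_
  rw [← Finset.sum_sub_distrib]
  refine Finset.sum_congr rfl fun j _ => ?_
  ring

end Vale.Agent.P210.Cvx
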