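import Vale.Agent.P210.H684.Scal
import Mathlib.Analysis.Calculus.ImplicitContDiff
import Mathlib.Analysis.Calculus.DerivativeTest
import Mathlib.Analysis.Convex.Topology
import Mathlib.Analysis.InnerProductSpace.Calculus

set_option linter.all false

open scoped ENNReal ContDiff Topology RealInnerProductSpace
open Set Filter

namespace Vale.Agent.P210.Cvx

/-- The implicit function theorem for one smooth equation. -/
theorem exists_implicit {X : Type} [NormedAddCommGroup X] [NormedSpace ℝ X] [CompleteSpace X]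
    {V : Set (X × ℝ)} (hV : IsOpen V) {f : X × ℝ → ℝ} (hf : ContDiffOn ℝ ∞ f V)
    (h0 : ((0 : X), (0 : ℝ)) ∈ V) (hf0 : f (0, 0) = 0) (hd : fderiv ℝ f (0, 0) (0, 1) ≠ 0) :
    ∃ (U : Set X) (h : X → ℝ), IsOpen U ∧ 0 ∈ U ∧ ContDiffOn ℝ ∞ h U ∧ h 0 = 0 ∧
      ∀ x ∈ U, (x, h x) ∈ V ∧ f (x, h x) = 0 ∧ fderiv ℝ f (x, h x) (0, 1) ≠ 0 := by
  have inv : ∀ u : X × ℝ, fderiv ℝ f u (0, 1) ≠ 0 →
      (fderiv ℝ f u ∘L .inr ℝ X ℝ).IsInvertible := by
    intro u hu
    refine ⟨ContinuousLinearEquiv.unitsEquivAut ℝ (Units.mk0 _ hu), ?_⟩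
    ext
    simp
  have top0 : (∞ : WithTop ℕ∞) ≠ 0 := by simp
  have cd0 : ContDiffAt ℝ ∞ f (0, 0) := hf.contDiffAt (hV.mem_nhds h0)
  set ψ := cd0.implicitFunction top0 (inv _ hd) with hψ
  have hψ0 : ψ 0 = 0 := cd0.implicitFunction_apply_self top0 (inv _ hd)
  have hψc : ContDiffAt ℝ ∞ ψ 0 := cd0.contDiffAt_implicitFunction top0 (inv _ hd)
  have G1 : ∀ᶠ x in 𝓝 (0 : X), f (x, ψ x) = 0 := by
    have := cd0.eventually_apply_implicitFunction top0 (inv _ hd)
    simpa [hf0] using this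
  have G2 : ∀ᶠ v in 𝓝 ((0 : X), (0 : ℝ)), f v = 0 ↔ ψ v.1 = v.2 := by
    have := cd0.eventually_apply_eq_iff_implicitFunction top0 (inv _ hd)
    simpa [hf0] using this
  have G3 : ∀ᶠ v in 𝓝 ((0 : X), (0 : ℝ)), v ∈ V := hV.mem_nhds h0
  have G4 : ∀ᶠ v in 𝓝 ((0 : X), (0 : ℝ)), fderiv ℝ f v (0, 1) ≠ 0 := by
    have h1 : ContDiffOn ℝ ∞ (fderiv ℝ f) V := hf.fderiv_of_isOpen hV (by simp)
    have h2 : ContinuousAt (fun v => fderiv ℝ f v (0, 1)) ((0 : X), (0 : ℝ)) :=
      (h1.continuousOn.continuousAt (hV.mem_nhds h0)).clm_apply continuousAt_const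
    exact h2.eventually_ne hd
  have G5 : ∀ᶠ x in 𝓝 (0 : X), ContinuousAt ψ x := by
    have h1 : ContDiffAt ℝ 1 ψ 0 := hψc.of_le (by simp)
    have h2 := h1.eventually (by simp)
    filter_upwards [h2] with x hx using hx.continuousAt
  have hlim : Tendsto (fun x => (x, ψ x)) (𝓝 (0 : X)) (𝓝 ((0 : X), (0 : ℝ))) := by
    have h1 : ContinuousAt (fun x => (x, ψ x)) (0 : X) :=
      continuousAt_id.prodMk hψc.continuousAt
    have h2 := h1.tendsto
    simpa [hψ0] using h2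
  have G := (G1.eventually_nhds).and ((hlim.eventually G2.eventually_nhds).and
    ((hlim.eventually G3).and ((hlim.eventually G4).and G5)))
  obtain ⟨U, hUP, hUo, h0U⟩ := eventually_nhds_iff.1 G
  refine ⟨U, ψ, hUo, h0U, ?_, hψ0, fun x hx => ?_⟩
  · intro x hx
    obtain ⟨e1, e2, e3, e4, e5⟩ := hUP x hx
    have hfx : f (x, ψ x) = 0 := e1.self_of_nhds
    have cdx : ContDiffAt ℝ ∞ f (x, ψ x) := hf.contDiffAt (hV.mem_nhds e3)
    set χ := cdx.implicitFunction top0 (inv _ e4) with hχ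
    have hχc : ContDiffAt ℝ ∞ χ x := cdx.contDiffAt_implicitFunction top0 (inv _ e4)
    have F2 : ∀ᶠ v in 𝓝 (x, ψ x), f v = 0 ↔ χ v.1 = v.2 := by
      have := cdx.eventually_apply_eq_iff_implicitFunction top0 (inv _ e4)
      simpa [hfx] using this
    have hlx : Tendsto (fun y => (y, ψ y)) (𝓝 x) (𝓝 (x, ψ x)) :=
      (continuousAt_id.prodMk e5).tendsto
    have hev : ψ =ᶠ[𝓝 x] χ := by
      filter_upwards [e1, hlx.eventually F2] with y hy1 hy2
      exact (hy2.1 hy1).symm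
    exact (hχc.congr_of_eventuallyEq hev).contDiffWithinAt
  · obtain ⟨e1, e2, e3, e4, e5⟩ := hUP x hx
    exact ⟨e3, e1.self_of_nhds, e4⟩

/-- A nonnegative function with a zero has nonnegative second derivative there. -/
lemma deriv_deriv_nonneg {g : ℝ → ℝ} (hg : ContDiffAt ℝ 2 g 0) (h0 : g 0 = 0)
    (h : ∀ᶠ τ in 𝓝 (0 : ℝ), 0 ≤ g τ) : 0 ≤ deriv (deriv g) 0 := by
  by_contra hneg
  push Not at hneg
  have hmin : IsLocalMin g 0 := by
    filter_upwards [h] with τ hτ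
    rw [h0]; exact hτ
  have hmax := isLocalMax_of_deriv_deriv_neg hneg hmin.deriv_eq_zero hg.continuousAt
  have hz : g =ᶠ[𝓝 0] fun _ => (0 : ℝ) := by
    filter_upwards [h, hmax] with τ h1 h2
    rw [h0] at h2
    exact le_antisymm h2 h1
  have h1 : deriv g =ᶠ[𝓝 0] deriv (fun _ => (0 : ℝ)) := hz.deriv
  have h2 := h1.deriv_eq
  rw [h2] at hneg
  simp at hneg

variable {n : ℕ}

/-- Second derivatives in a coordinate direction, by restriction to a line. -/
lemma pd_pd_nonneg {U : Set (E n)} (hU : IsOpen U) (h0 : (0 : E n) ∈ U) {f : E n → ℝ}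
    (hf : ContDiffOn ℝ ∞ f U) (i : Fin n) {c : ℝ} {s : ℝ} (hf0 : f 0 = 0)
    (h : ∀ᶠ τ in 𝓝 (0 : ℝ), 0 ≤ c * τ ^ 2 + s * f (τ • EuclideanSpace.single i 1)) :
    0 ≤ 2 * c + s * pd i (pd i f) 0 := by
  set v : E n := EuclideanSpace.single i 1 with hv
  have hline : ∀ τ : ℝ, HasDerivAt (fun τ : ℝ => τ • v) v τ := fun τ => by
    simpa using (hasDerivAt_id τ).smul_const v
  have hlinec : ContDiff ℝ ∞ (fun τ : ℝ => τ • v) := by fun_prop
  have hmem : ∀ᶠ τ in 𝓝 (0 : ℝ), τ • v ∈ U := by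
    have h1 : Tendsto (fun τ : ℝ => τ • v) (𝓝 0) (𝓝 ((0 : ℝ) • v)) :=
      (hlinec.continuous.tendsto 0)
    rw [zero_smul] at h1
    exact h1.eventually (hU.mem_nhds h0)
  have hmem0 : (0 : ℝ) • v ∈ U := by rw [zero_smul]; exact h0
  have hcf : ContDiffAt ℝ ∞ (fun τ : ℝ => f (τ • v)) 0 :=
    (hf.contDiffAt (hU.mem_nhds hmem0)).comp (0 : ℝ) hlinec.contDiffAt
  have hg : ContDiffAt ℝ 2 (fun τ : ℝ => c * τ ^ 2 + s * f (τ • v)) 0 := by
    have h1 : ContDiffAt ℝ ∞ (fun τ : ℝ => c * τ ^ 2 + s * f (τ • v)) 0 :=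
      (by fun_prop : ContDiffAt ℝ ∞ (fun τ : ℝ => c * τ ^ 2) 0).add (contDiffAt_const.mul hcf)
    exact h1.of_le (WithTop.coe_le_coe.2 le_top)
  have hd := deriv_deriv_nonneg hg (by simp [hf0]) h
  have hder1 : ∀ {F : E n → ℝ} {τ : ℝ}, DifferentiableAt ℝ F (τ • v) →
      HasDerivAt (fun τ : ℝ => F (τ • v)) (pd i F (τ • v)) τ := by
    intro F τ hF
    exact hF.hasFDerivAt.comp_hasDerivAt τ (hline τ)
  have hD1 : deriv (fun τ : ℝ => c * τ ^ 2 + s * f (τ • v)) =ᶠ[𝓝 0]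
      fun τ => 2 * c * τ + s * pd i f (τ • v) := by
    filter_upwards [hmem] with τ hτ
    have h1 : DifferentiableAt ℝ f (τ • v) :=
      (hf.contDiffAt (hU.mem_nhds hτ)).differentiableAt (by simp)
    have h2 : HasDerivAt (fun τ : ℝ => c * τ ^ 2 + s * f (τ • v))
        (c * (2 * τ) + s * pd i f (τ • v)) τ := by
      have h3 : HasDerivAt (fun τ : ℝ => c * τ ^ 2) (c * (2 * τ)) τ := by
        simpa using (hasDerivAt_pow 2 τ).const_mul c
      exact h3.add ((hder1 h1).const_mul s)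
    rw [h2.deriv]; ring
  rw [hD1.deriv_eq] at hd
  have hpd : DifferentiableAt ℝ (pd i f) ((0 : ℝ) • v) :=
    ((contDiffOn_pd hU hf i).contDiffAt (hU.mem_nhds hmem0)).differentiableAt (by simp)
  have h4 : HasDerivAt (fun τ : ℝ => 2 * c * τ + s * pd i f (τ • v))
      (2 * c * 1 + s * pd i (pd i f) ((0 : ℝ) • v)) 0 :=
    ((hasDerivAt_id (0 : ℝ)).const_mul (2 * c)).add ((hder1 hpd).const_mul s)
  rw [h4.deriv, zero_smul, mul_one] at hd
  exact hd

section Boundary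

variable {N : ℕ} {K : Set (E N)} {p : E N} {V : Set (E N)} {ρ : E N → ℝ}

lemma rho_eq_zero (hcl : IsClosed K) (hp : p ∈ frontier K) (hV : IsOpen V) (hpV : p ∈ V)
    (hρ : ContDiffOn ℝ ∞ ρ V) (hK : ∀ z ∈ V, z ∈ K ↔ ρ z ≤ 0) : ρ p = 0 := by
  have hpK : p ∈ K := hcl.frontier_subset hp
  refine le_antisymm ((hK p hpV).1 hpK) ?_
  by_contra hneg
  push Not at hneg
  have h1 : IsOpen (V ∩ ρ ⁻¹' Iio 0) := hρ.continuousOn.isOpen_inter_preimage hV isOpen_Iio
  have h2 : V ∩ ρ ⁻¹' Iio 0 ⊆ K := fun z hz => (hK z hz.1).2 (le_of_lt hz.2)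
  have h3 : p ∈ interior K := interior_maximal h2 h1 ⟨hpV, hneg⟩
  rw [hcl.frontier_eq] at hp
  exact hp.2 h3

lemma dir_interior (hpK : ρ p ≤ 0) (hV : IsOpen V) (hpV : p ∈ V)
    (hρ : ContDiffOn ℝ ∞ ρ V) (hK : ∀ z ∈ V, z ∈ K ↔ ρ z ≤ 0) {d : E N}
    (hd : fderiv ℝ ρ p d < 0) : ∀ᶠ s in 𝓝[>] (0 : ℝ), p + s • d ∈ interior K := by
  have hdiff : DifferentiableAt ℝ ρ p :=
    (hρ.contDiffAt (hV.mem_nhds hpV)).differentiableAt (by simp)
  have h0 : HasDerivAt (fun s : ℝ => p + s • d) d 0 := by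
    simpa using ((hasDerivAt_id (0 : ℝ)).smul_const d).const_add p
  have h1 : HasDerivAt (fun s : ℝ => ρ (p + s • d)) (fderiv ℝ ρ p d) 0 := by
    have h2 : DifferentiableAt ℝ ρ (p + (0 : ℝ) • d) := by simpa using hdiff
    have h3 := h2.hasFDerivAt.comp_hasDerivAt (0 : ℝ) h0
    simpa [Function.comp_def] using h3
  have h2 := h1.tendsto_slope_zero_right
  have h3 : ∀ᶠ s in 𝓝[>] (0 : ℝ), s⁻¹ • (ρ (p + (0 + s) • d) - ρ (p + (0 : ℝ) • d)) < 0 :=
    h2.eventually (gt_mem_nhds hd)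
  have h4 : ∀ᶠ s in 𝓝[>] (0 : ℝ), p + s • d ∈ V := by
    have h5 : Tendsto (fun s : ℝ => p + s • d) (𝓝 0) (𝓝 (p + (0 : ℝ) • d)) :=
      h0.continuousAt.tendsto
    rw [zero_smul, add_zero] at h5
    exact (h5.eventually (hV.mem_nhds hpV)).filter_mono nhdsWithin_le_nhds
  filter_upwards [h3, h4, self_mem_nhdsWithin] with s hs hsV hs0
  have hs0' : (0 : ℝ) < s := hs0
  have h5 : ρ (p + s • d) < 0 := by
    rw [zero_add, zero_smul, add_zero, smul_eq_mul] at hs
    have h6 : ρ (p + s • d) - ρ p < 0 := by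
      by_contra h7
      push Not at h7
      have := mul_nonneg (inv_pos.2 hs0').le h7
      linarith
    linarith
  have h6 : IsOpen (V ∩ ρ ⁻¹' Iio 0) := hρ.continuousOn.isOpen_inter_preimage hV isOpen_Iio
  have h7 : V ∩ ρ ⁻¹' Iio 0 ⊆ K := fun z hz => (hK z hz.1).2 (le_of_lt hz.2)
  exact interior_maximal h7 h6 ⟨hsV, h5⟩

lemma fderiv_normal_pos (hpK : ρ p ≤ 0) (hV : IsOpen V) (hpV : p ∈ V)
    (hρ : ContDiffOn ℝ ∞ ρ V) (hK : ∀ z ∈ V, z ∈ K ↔ ρ z ≤ 0) (hne : fderiv ℝ ρ p ≠ 0)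
    {ν : E N} (hν : ‖ν‖ = 1) (hsup : ∀ z ∈ K, ⟪ν, z - p⟫ ≤ 0) : 0 < fderiv ℝ ρ p ν := by
  by_contra hle
  push Not at hle
  obtain ⟨d₁, hd₁⟩ : ∃ d, fderiv ℝ ρ p d < 0 := by
    by_contra hno
    push Not at hno
    apply hne
    ext d
    have h1 := hno d
    have h2 := hno (-d)
    rw [map_neg] at h2
    have : fderiv ℝ ρ p d = 0 := le_antisymm (by linarith) h1
    simpa using this
  set ε : ℝ := 1 / (2 * (1 + ‖d₁‖)) with hε
  have hε0 : 0 < ε := by positivity
  have h1 : fderiv ℝ ρ p (ν + ε • d₁) < 0 := by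
    rw [map_add, map_smul, smul_eq_mul]
    have := mul_neg_of_pos_of_neg hε0 hd₁
    linarith
  have h2 : 0 < ⟪ν, ν + ε • d₁⟫ := by
    rw [inner_add_right, real_inner_self_eq_norm_sq, hν, inner_smul_right]
    have h3 : |⟪ν, d₁⟫| ≤ ‖d₁‖ := by
      refine (abs_real_inner_le_norm _ _).trans ?_
      rw [hν, one_mul]
    have h4 : ε * ‖d₁‖ ≤ 1 / 2 := by
      rw [hε, div_mul_eq_mul_div, one_mul, div_le_div_iff₀ (by positivity) (by norm_num)]
      linarith [norm_nonneg d₁]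
    have h5 := neg_abs_le ⟪ν, d₁⟫
    nlinarith
  have h3 := (dir_interior hpK hV hpV hρ hK h1).and self_mem_nhdsWithin
  obtain ⟨s, hs, hs0⟩ := h3.exists
  have hs0' : (0 : ℝ) < s := hs0
  have h4 := hsup _ (interior_subset hs)
  rw [add_sub_cancel_left, inner_smul_right] at h4
  have := mul_pos hs0' h2
  linarith

end Boundary

/-- The affine map of the graph parametrisations. -/
noncomputable def gT {N : ℕ} (e : Fin n → E N) (ν : E N) : E n × ℝ →L[ℝ] E N :=
  ∑ i, ((EuclideanSpace.proj i : E n →L[ℝ] ℝ).comp (.fst ℝ (E n) ℝ)).smulRight (e i)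
    - (ContinuousLinearMap.snd ℝ (E n) ℝ).smulRight ν

lemma gT_apply {N : ℕ} (e : Fin n → E N) (ν : E N) (x : E n) (s : ℝ) :
    gT e ν (x, s) = ∑ i, x i • e i - s • ν := by
  simp [gT]

/-- The boundary of `K` near `p` as a graph over the tangent plane. -/
theorem exists_graph {N : ℕ} {K : Set (E N)} (hcl : IsClosed K) (hc : Convex ℝ K)
    (hs : SmoothBoundary K) {p ν : E N} (hp : p ∈ frontier K) (hν : ‖ν‖ = 1)
    (hsup : ∀ z ∈ K, ⟪ν, z - p⟫ ≤ 0) (e : Fin n → E N) :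
    ∃ (U : Set (E n)) (h : E n → ℝ), IsOpen U ∧ 0 ∈ U ∧ ContDiffOn ℝ ∞ h U ∧ h 0 = 0 ∧
      (∀ x ∈ U, p + gT e ν (x, h x) ∈ frontier K) ∧
      ∃ s₀ : ℝ, 0 < s₀ ∧ p - s₀ • ν ∈ interior K := by
  obtain ⟨V, ρ, hV, hpV, hρ, hne, hK⟩ := hs p hp
  have hρp : ρ p = 0 := rho_eq_zero hcl hp hV hpV hρ hK
  have hpos := fderiv_normal_pos hρp.le hV hpV hρ hK hne hν hsup
  have hsubst : ContDiff ℝ ∞ (fun w : E n × ℝ => p + gT e ν w) :=
    contDiff_const.add (gT e ν).contDiff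
  have hder : ∀ w : E n × ℝ, p + gT e ν w ∈ V →
      fderiv ℝ (fun w => ρ (p + gT e ν w)) w (0, 1) = - fderiv ℝ ρ (p + gT e ν w) ν := by
    intro w hw
    have h1 : DifferentiableAt ℝ ρ (p + gT e ν w) :=
      (hρ.contDiffAt (hV.mem_nhds hw)).differentiableAt (by simp)
    have h2 : HasFDerivAt (fun w : E n × ℝ => p + gT e ν w) (gT e ν) w :=
      (gT e ν).hasFDerivAt.const_add p
    have h3 := h1.hasFDerivAt.comp w h2
    have h4 : fderiv ℝ (fun w => ρ (p + gT e ν w)) w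
        = (fderiv ℝ ρ (p + gT e ν w)).comp (gT e ν) := h3.fderiv
    have h5 : gT e ν ((0 : E n), (1 : ℝ)) = -ν := by rw [gT_apply]; simp
    rw [h4, ContinuousLinearMap.comp_apply, h5, map_neg]
  have h00 : p + gT e ν ((0 : E n), (0 : ℝ)) = p := by rw [gT_apply]; simp
  obtain ⟨U, h, hU, h0U, hh, hh0, hgood⟩ := exists_implicit
    (V := (fun w : E n × ℝ => p + gT e ν w) ⁻¹' V) (f := fun w => ρ (p + gT e ν w))
    (hV.preimage hsubst.continuous) (hρ.comp hsubst.contDiffOn fun w hw => hw)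
    (by rw [mem_preimage, h00]; exact hpV) (by simp only [h00, hρp])
    (by rw [hder _ (by rw [h00]; exact hpV), h00]; exact (neg_lt_zero.2 hpos).ne)
  refine ⟨U, h, hU, h0U, hh, hh0, fun x hx => ?_, ?_⟩
  · obtain ⟨hV', hz, hd⟩ := hgood x hx
    have hV'' : p + gT e ν (x, h x) ∈ V := hV'
    rw [hder _ hV''] at hd
    rw [hcl.frontier_eq]
    refine ⟨(hK _ hV'').2 (le_of_eq hz), fun hint => ?_⟩
    have hmax : IsLocalMax ρ (p + gT e ν (x, h x)) := by
      filter_upwards [mem_interior_iff_mem_nhds.1 hint, hV.mem_nhds hV''] with z h1 h2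
      rw [show ρ (p + gT e ν (x, h x)) = 0 from hz]
      exact (hK z h2).1 h1
    apply hd
    rw [hmax.fderiv_eq_zero]
    simp
  · have h1 : fderiv ℝ ρ p (-ν) < 0 := by rw [map_neg]; linarith
    have h2 := (dir_interior hρp.le hV hpV hρ hK h1).and self_mem_nhdsWithin
    obtain ⟨s, hs, hs0⟩ := h2.exists
    refine ⟨s, hs0, ?_⟩
    rw [sub_eq_add_neg, ← smul_neg]
    exact hs

lemma sq_sub_mono {u A : Fin n → ℝ} (h0 : ∀ i, 0 ≤ u i) (h : ∀ i, u i ≤ A i) :
    (∑ i, u i) ^ 2 - ∑ i, u i ^ 2 ≤ (∑ i, A i) ^ 2 - ∑ i, A i ^ 2 := by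
  classical
  have key : ∀ w : Fin n → ℝ, (∑ i, w i) ^ 2 - ∑ i, w i ^ 2
      = ∑ i, w i * ∑ j ∈ Finset.univ.erase i, w j := by
    intro w
    rw [sq, Finset.sum_mul, ← Finset.sum_sub_distrib]
    refine Finset.sum_congr rfl fun i _ => ?_
    rw [Finset.sum_erase_eq_sub (Finset.mem_univ i)]
    ring
  rw [key, key]
  refine Finset.sum_le_sum fun i _ => ?_
  exact mul_le_mul (h i) (Finset.sum_le_sum fun j _ => h j)
    (Finset.sum_nonneg fun j _ => h0 j) ((h0 i).trans (h i))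

/-- Scalar curvature at a boundary point where parabolas of curvatures `A i` lie in `K`. -/
theorem touch {N : ℕ} {K : Set (E N)} (hcl : IsClosed K) (hc : Convex ℝ K)
    (hs : SmoothBoundary K) {p ν : E N} (hp : p ∈ frontier K) (hν : ‖ν‖ = 1)
    (hsup : ∀ z ∈ K, ⟪ν, z - p⟫ ≤ 0) {e : Fin n → E N} (he : Orthonormal ℝ e)
    (heν : ∀ i, ⟪e i, ν⟫ = 0) {A : Fin n → ℝ}
    (hA : ∀ i, ∀ a, A i < a → ∀ᶠ τ in 𝓝 (0 : ℝ), p + τ • e i - (a / 2 * τ ^ 2) • ν ∈ K) :
    ∃ (U : Set (E n)) (φ : E n → E N), IsLocalParam (frontier K) U φ ∧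
      ∃ x ∈ U, scal (induced φ) x ≤ (∑ i, A i) ^ 2 - ∑ i, A i ^ 2 := by
  classical
  obtain ⟨U, h, hU, h0U, hh, hh0, hfr, s₀, hs0, hint⟩ := exists_graph hcl hc hs hp hν hsup e
  have hνe : ∀ i, ⟪ν, e i⟫ = 0 := fun i => by rw [real_inner_comm]; exact heν i
  -- derivative
  have hder : ∀ x ∈ U, HasFDerivAt (fun x => p + gT e ν (x, h x))
      ((gT e ν).comp ((ContinuousLinearMap.id ℝ (E n)).prod (fderiv ℝ h x))) x := by
    intro x hx
    have h1 : HasFDerivAt h (fderiv ℝ h x) x :=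
      ((hh.contDiffAt (hU.mem_nhds hx)).differentiableAt (by simp)).hasFDerivAt
    have h2 : HasFDerivAt (fun x => (x, h x))
        ((ContinuousLinearMap.id ℝ (E n)).prod (fderiv ℝ h x)) x := (hasFDerivAt_id x).prodMk h1
    exact ((gT e ν).hasFDerivAt.comp x h2).const_add p
  have hderi : ∀ x ∈ U, ∀ v, fderiv ℝ (fun x => p + gT e ν (x, h x)) x v
      = ∑ i, v i • e i - fderiv ℝ h x v • ν := by
    intro x hx v
    rw [(hder x hx).fderiv]
    simp only [ContinuousLinearMap.comp_apply, ContinuousLinearMap.prod_apply,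
      ContinuousLinearMap.id_apply, gT_apply]
  have hderi' : ∀ x ∈ U, ∀ i, fderiv ℝ (fun x => p + gT e ν (x, h x)) x
      (EuclideanSpace.single i 1) = e i - pd i h x • ν := by
    intro x hx i
    rw [hderi x hx]
    have h1 : ∑ j, (EuclideanSpace.single i (1 : ℝ) : E n) j • e j = e i := by
      rw [Finset.sum_eq_single i]
      · simp
      · intro j _ hj
        simp [hj]
      · intro hi
        exact absurd (Finset.mem_univ i) hi
    rw [h1]
    rfl
  have hφ : IsLocalParam (frontier K) U (fun x => p + gT e ν (x, h x)) := by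
    refine ⟨hU, ?_, ?_, fun x hx => hfr x hx⟩
    · exact contDiffOn_const.add ((gT e ν).contDiff.comp_contDiffOn
        (contDiffOn_id.prodMk hh))
    · intro x hx
      rw [injective_iff_map_eq_zero]
      intro v hv
      rw [hderi x hx] at hv
      ext i
      have h1 : ⟪e i, ∑ j, v j • e j - fderiv ℝ h x v • ν⟫ = v i := by
        rw [inner_sub_right, inner_smul_right, heν, mul_zero, sub_zero]
        exact he.inner_right_fintype (fun j => v j) i
      rw [hv, inner_zero_right] at h1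
      simpa using h1.symm
  have hg : ∀ x ∈ U, ∀ i j, induced (fun x => p + gT e ν (x, h x)) x i j
      = (1 : Matrix (Fin n) (Fin n) ℝ) i j + pd i h x * pd j h x := by
    intro x hx i j
    unfold induced
    rw [hderi' x hx, hderi' x hx, inner_sub_left, inner_sub_right, inner_sub_right,
      inner_smul_right, heν, inner_smul_left, hνe, inner_smul_left, inner_smul_right,
      real_inner_self_eq_norm_sq, hν, orthonormal_iff_ite.1 he i j, Matrix.one_apply]
    simp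
  -- sign
  have hpos : ∀ x ∈ U, 0 ≤ h x := by
    intro x hx
    have h1 := hsup _ (hcl.frontier_subset (hfr x hx))
    rw [add_sub_cancel_left, gT_apply, inner_sub_right, inner_sum, inner_smul_right,
      real_inner_self_eq_norm_sq, hν] at h1
    have h2 : ∑ i, ⟪ν, x i • e i⟫ = 0 := by
      refine Finset.sum_eq_zero fun i _ => ?_
      rw [inner_smul_right, hνe, mul_zero]
    rw [h2] at h1
    linarith
  have hmin : IsLocalMin h 0 := by
    filter_upwards [hU.mem_nhds h0U] with x hx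
    rw [hh0]; exact hpos x hx
  have hc0 : ∀ i, pd i h 0 = 0 := by
    intro i
    unfold pd
    rw [hmin.fderiv_eq_zero]
    simp
  have hlim : ∀ i : Fin n, Tendsto (fun τ : ℝ => τ • (EuclideanSpace.single i 1 : E n)) (𝓝 0)
      (𝓝 0) := by
    intro i
    have h1 : Continuous (fun τ : ℝ => τ • (EuclideanSpace.single i 1 : E n)) := by fun_prop
    have h2 := h1.tendsto 0
    rwa [zero_smul] at h2
  have hlow : ∀ i, 0 ≤ pd i (pd i h) 0 := by
    intro i
    have h1 := pd_pd_nonneg hU h0U hh i (c := 0) (s := 1) hh0 (by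
      filter_upwards [(hlim i).eventually (hU.mem_nhds h0U)] with τ hτ
      have := hpos _ hτ
      linarith)
    linarith
  have hup : ∀ i, pd i (pd i h) 0 ≤ A i := by
    intro i
    refine le_of_forall_gt_imp_ge_of_dense fun a ha => ?_
    have h1 := pd_pd_nonneg hU h0U hh i (c := a / 2) (s := -1) hh0 (by
      have hcont : ContinuousAt h 0 := (hh.contDiffAt (hU.mem_nhds h0U)).continuousAt
      have e1 : ∀ᶠ τ in 𝓝 (0 : ℝ), h (τ • EuclideanSpace.single i 1) < s₀ := by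
        have : ∀ᶠ x in 𝓝 (0 : E n), h x < s₀ := hcont.eventually (gt_mem_nhds (by
          rw [hh0]; exact hs0))
        exact (hlim i).eventually this
      have e2 : ∀ᶠ τ in 𝓝 (0 : ℝ), p + τ • e i - s₀ • ν ∈ interior K := by
        have h2 : Continuous (fun τ : ℝ => p + τ • e i - s₀ • ν) := by fun_prop
        have h3 := h2.tendsto 0
        simp only [zero_smul, add_zero] at h3
        exact h3.eventually (isOpen_interior.mem_nhds hint)
      filter_upwards [hA i a ha, e1, e2, (hlim i).eventually (hU.mem_nhds h0U)]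
        with τ hτA hτ1 hτ2 hτU
      by_contra hneg
      push Not at hneg
      set x : E n := τ • EuclideanSpace.single i 1 with hx
      set b : ℝ := a / 2 * τ ^ 2 with hb
      have hbh : b < h x := by linarith
      have hbs : b < s₀ := hbh.trans hτ1
      have hφx : p + gT e ν (x, h x) = p + τ • e i - h x • ν := by
        rw [gT_apply, hx]
        have h1 : ∑ j, (τ • EuclideanSpace.single i (1 : ℝ) : E n) j • e j = τ • e i := by
          rw [Finset.sum_eq_single i]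
          · simp
          · intro j _ hj
            simp [hj]
          · intro hi
            exact absurd (Finset.mem_univ i) hi
        rw [h1]
        abel
      have h4 := hfr x hτU
      rw [hφx, hcl.frontier_eq] at h4
      apply h4.2
      set θ : ℝ := (h x - b) / (s₀ - b) with hθ
      have hsb : 0 < s₀ - b := sub_pos.2 hbs
      have hθ0 : 0 < θ := div_pos (sub_pos.2 hbh) hsb
      have hθ1 : θ ≤ 1 := (div_le_one hsb).2 (by linarith)
      have h5 := hc.combo_self_interior_mem_interior hτA hτ2 (a := 1 - θ) (b := θ)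
        (by linarith) hθ0 (by ring)
      have h6 : h x = b + θ * (s₀ - b) := by
        rw [hθ, div_mul_cancel₀ _ hsb.ne']
        ring
      have h7 : p + τ • e i - h x • ν
          = (1 - θ) • (p + τ • e i - b • ν) + θ • (p + τ • e i - s₀ • ν) := by
        rw [h6]
        module
      rw [h7]
      exact h5)
    linarith
  refine ⟨U, _, hφ, 0, h0U, ?_⟩
  rw [scal_graph hU hh hg h0U hc0]
  refine le_trans ?_ (sq_sub_mono hlow hup)
  have h1 : ∑ i, pd i (pd i h) 0 ^ 2 ≤ ∑ i, ∑ j, pd i (pd j h) 0 ^ 2 :=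
    Finset.sum_le_sum fun i _ =>
      Finset.single_le_sum (f := fun j => pd i (pd j h) 0 ^ 2) (fun j _ => sq_nonneg _)
        (Finset.mem_univ i)
  linarith

end Vale.Agent.P210.Cvx
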